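import Crest.Agent.Lib.MAK.Rise

/-!
# Node systems with certificates: reflection and the anchor lemma
-/

set_option autoImplicit false

noncomputable section

open scoped Classical

namespace Crest.Agent.Lib.MAK

variable {ι : Type}

namespace NS

variable {N : NS ι} {μ : ℝ}

/-- The mirror image of a node system. -/
def refl (N : NS ι) : NS ι where
  s := N.s
  p := fun Y => - N.p Y
  h := fun Y => - N.h Y
  T := fun Y z => - N.B Y (-z)
  B := fun Y z => - N.T Y (-z)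
  Q := N.Q
  low := fun z Y => ¬ N.low (-z) Y

theorem refl_good (hG : N.Good μ) : N.refl.Good μ where
  ne := hG.ne
  hQ := hG.hQ
  hμ := hG.hμ
  low1 := by
    intro z Y h
    exact hG.low2 (-z) Y (by simpa [refl] using (neg_lt.mp h))
  low2 := by
    intro z Y h
    simp only [refl, not_not]
    exact hG.low1 (-z) Y (by have : z < - N.p Y := h; linarith)
  low3 := by
    intro z Y Y' h
    have h' : N.p Y = N.p Y' := by
      have : - N.p Y = - N.p Y' := h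
      linarith
    simp only [refl]
    rw [hG.low3 (-z) Y Y' h']
  T_ge := by
    intro Y hY z hz
    have h1 := hG.B_le Y hY (-z) (by have : - N.p Y ≤ z := hz; linarith)
    show - N.h Y + μ ≤ - N.B Y (-z)
    linarith
  B_le := by
    intro Y hY z hz
    have h1 := hG.T_ge Y hY (-z) (by have : z ≤ - N.p Y := hz; linarith)
    show - N.T Y (-z) ≤ - N.h Y - μ
    linarith
  T_mono := by
    intro Y hY z z' hz hzz
    have hz' : - N.p Y ≤ z := hz
    have h1 := hG.B_mono Y hY (-z') (-z) (by linarith) (by linarith)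
    show - N.B Y (-z) ≤ - N.B Y (-z')
    linarith
  B_mono := by
    intro Y hY z z' hzz hz
    have hz' : z' ≤ - N.p Y := hz
    have h1 := hG.T_mono Y hY (-z') (-z) (by linarith) (by linarith)
    show - N.T Y (-z) ≤ - N.T Y (-z')
    linarith
  T_rail := by
    intro Y hY z hz
    have hz' : - N.p Y ≤ z := hz
    have h1 := hG.B_rail Y hY (-z) (by linarith)
    show - N.B Y (-z) ≤ z + N.Q
    linarith
  B_rail := by
    intro Y hY z hz
    have hz' : z ≤ - N.p Y := hz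
    have h1 := hG.T_rail Y hY (-z) (by linarith)
    show z - N.Q ≤ - N.T Y (-z)
    linarith
  compat := by
    intro Y hY Y' hY' z h1 h2 h3
    have h1' : - N.p Y ≤ z := h1
    have h2' : z ≤ - N.p Y' := h2
    have h3' : - N.p Y < - N.p Y' := h3
    have := hG.compat Y' hY' Y hY (-z) (by linarith) (by linarith) (by linarith)
    show - N.B Y (-z) ≤ - N.T Y' (-z)
    linarith

lemma fold_max_neg (S : Finset ι) (b : ℝ) (f : ι → ℝ) :
    S.fold max (-b) (fun Y => - f Y) = - S.fold min b f := by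
  induction S using Finset.induction_on with
  | empty => simp
  | insert a S ha ih =>
    rw [Finset.fold_insert ha, Finset.fold_insert ha, ih, max_neg_neg]

lemma fold_min_neg (S : Finset ι) (b : ℝ) (f : ι → ℝ) :
    S.fold min (-b) (fun Y => - f Y) = - S.fold max b f := by
  induction S using Finset.induction_on with
  | empty => simp
  | insert a S ha ih =>
    rw [Finset.fold_insert ha, Finset.fold_insert ha, ih, min_neg_neg]

lemma refl_Lo (N : NS ι) (z : ℝ) : N.refl.Lo z = N.Up (-z) := by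
  ext Y
  rw [mem_Lo, mem_Up]
  exact Iff.rfl

lemma refl_Up (N : NS ι) (z : ℝ) : N.refl.Up z = N.Lo (-z) := by
  ext Y
  rw [mem_Lo, mem_Up]
  show (Y ∈ N.s ∧ ¬ ¬ N.low (-z) Y) ↔ _
  rw [not_not]

lemma refl_L (N : NS ι) (z : ℝ) : N.refl.L z = - N.U (-z) := by
  unfold L U
  rw [refl_Lo, ← fold_max_neg]
  congr 1
  simp [refl]
  ring

lemma refl_U (N : NS ι) (z : ℝ) : N.refl.U z = - N.L (-z) := by
  unfold L U
  rw [refl_Up, ← fold_min_neg]
  congr 1
  simp [refl]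
  ring

lemma refl_aL (N : NS ι) {z : ℝ} (h : (N.Up (-z)).Nonempty) : N.refl.aL z = - N.aU (-z) := by
  have h' : (N.refl.Lo z).Nonempty := by rw [refl_Lo]; exact h
  obtain ⟨⟨A, hA, hA'⟩, hm⟩ := aL_spec h'
  obtain ⟨⟨B', hB, hB'⟩, hm'⟩ := aU_spec h
  rw [refl_Lo] at hA hm
  rw [← hA', ← hB']
  apply le_antisymm
  · have := hm' A hA
    rw [← hB'] at this
    have e : N.refl.p A = - N.p A := rfl
    linarith
  · have := hm B' hB
    rw [← hA'] at this
    have e : N.refl.p B' = - N.p B' := rfl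
    linarith

lemma refl_aU (N : NS ι) {z : ℝ} (h : (N.Lo (-z)).Nonempty) : N.refl.aU z = - N.aL (-z) := by
  have h' : (N.refl.Up z).Nonempty := by rw [refl_Up]; exact h
  obtain ⟨⟨A, hA, hA'⟩, hm⟩ := aU_spec h'
  obtain ⟨⟨B', hB, hB'⟩, hm'⟩ := aL_spec h
  rw [refl_Up] at hA hm
  rw [← hA', ← hB']
  apply le_antisymm
  · have := hm B' hB
    rw [← hA'] at this
    have e : N.refl.p B' = - N.p B' := rfl
    linarith
  · have := hm' A hA
    rw [← hB'] at this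
    have e : N.refl.p A = - N.p A := rfl
    linarith

theorem refl_F (hG : N.Good μ) (z : ℝ) : N.refl.F z = - N.F (-z) := by
  have hG' := refl_good hG
  have hw : N.refl.w z = 1 - N.w (-z) := by
    rcases w_cases hG (-z) with ⟨h1, h⟩ | ⟨h1, h2, h⟩ | ⟨h1, h2, h⟩
    · -- `Up (-z)` empty, so `Lo (-z)` nonempty
      rcases w_cases hG' z with ⟨_, h'⟩ | ⟨_, h2', h'⟩ | ⟨_, h2', _⟩
      · exfalso
        rename_i h3
        rw [refl_Up] at h3
        obtain ⟨Y, hY⟩ := hG.ne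
        by_cases hl : N.low (-z) Y
        · exact h3 ⟨Y, mem_Lo.mpr ⟨hY, hl⟩⟩
        · exact h1 ⟨Y, mem_Up.mpr ⟨hY, hl⟩⟩
      · rw [h', h]; norm_num
      · rw [refl_Lo] at h2'
        exact absurd h2' h1
    · rcases w_cases hG' z with ⟨_, h'⟩ | ⟨h1', _, _⟩ | ⟨h1', _, _⟩
      · rw [h', h]; norm_num
      · rw [refl_Up] at h1'; exact absurd h1' h2
      · rw [refl_Up] at h1'; exact absurd h1' h2
    · rcases w_cases hG' z with ⟨h1', _⟩ | ⟨_, h2', _⟩ | ⟨_, _, h'⟩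
      · rw [refl_Up] at h1'; exact absurd h2 h1'
      · rw [refl_Lo] at h2'; exact absurd h1 h2'
      · rw [h', h, refl_aL N h1, refl_aU N h2]
        have hgap := aL_lt_aU hG h2 h1
        have hne : N.aU (-z) - N.aL (-z) ≠ 0 := by linarith
        have hne' : - N.aL (-z) - - N.aU (-z) ≠ 0 := by
          intro hc; apply hne; linarith
        field_simp
        ring
  unfold F
  rw [refl_L, refl_U, hw]
  ring

/-- Certificates and fine properties of a node system. -/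
structure Cert (N : NS ι) (μ : ℝ) (O : ℝ → ℝ) (V K : ℝ) (m' : ℕ) (sg A : ℝ) : Prop where
  O_nonneg : ∀ y, 0 ≤ y → 0 ≤ O y
  O_mono : ∀ y y', 0 ≤ y → y ≤ y' → O y ≤ O y'
  T_up : ∀ Y ∈ N.s, ∀ z, N.p Y ≤ z → N.T Y z ≤ N.h Y + O (z - N.p Y) + μ
  B_lo : ∀ Y ∈ N.s, ∀ z, z ≤ N.p Y → N.h Y - O (N.p Y - z) - μ ≤ N.B Y z
  T_tel : ∀ Y ∈ N.s, ∀ z z', N.p Y ≤ z → z ≤ z' → 2 * K * (z' - z) ≤ z - N.p Y →
    N.T Y z' - N.T Y z ≤ V + (z' - z) / 2
  B_tel : ∀ Y ∈ N.s, ∀ z z', z ≤ z' → z' ≤ N.p Y → 2 * K * (z' - z) ≤ N.p Y - z' →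
    N.B Y z' - N.B Y z ≤ V + (z' - z) / 2
  C1 : ∀ Y₁ ∈ N.s, ∀ Y₂ ∈ N.s, ∀ Y₃ ∈ N.s, ∀ m : ℕ, 1 ≤ m → m ≤ m' →
    (m : ℝ) * (N.p Y₂ - N.p Y₁) < N.p Y₁ - N.p Y₃ →
    (m : ℝ) * (N.h Y₂ - N.h Y₁) ≤ N.h Y₁ - N.h Y₃
  C1' : ∀ Y₁ ∈ N.s, ∀ Y₂ ∈ N.s, ∀ Y₃ ∈ N.s, ∀ m : ℕ, 1 ≤ m → m ≤ m' →
    (m : ℝ) * (N.p Y₁ - N.p Y₂) < N.p Y₃ - N.p Y₁ →
    (m : ℝ) * (N.h Y₁ - N.h Y₂) ≤ N.h Y₃ - N.h Y₁
  C2 : ∀ Y ∈ N.s, ∀ Y' ∈ N.s, ∀ y, 0 ≤ y → y < N.p Y - N.p Y' →
    sg + A * O y ≤ N.h Y - N.h Y'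

variable {O : ℝ → ℝ} {V K : ℝ} {m' : ℕ} {sg A : ℝ}

theorem refl_cert (hG : N.Good μ) (hC : N.Cert μ O V K m' sg A) :
    N.refl.Cert μ O V K m' sg A where
  O_nonneg := hC.O_nonneg
  O_mono := hC.O_mono
  T_up := by
    intro Y hY z hz
    have hz' : - N.p Y ≤ z := hz
    have := hC.B_lo Y hY (-z) (by linarith)
    show - N.B Y (-z) ≤ - N.h Y + O (z - - N.p Y) + μ
    have e : z - - N.p Y = N.p Y - -z := by ring
    rw [e]
    linarith
  B_lo := by
    intro Y hY z hz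
    have hz' : z ≤ - N.p Y := hz
    have := hC.T_up Y hY (-z) (by linarith)
    show - N.h Y - O (- N.p Y - z) - μ ≤ - N.T Y (-z)
    have e : - N.p Y - z = -z - N.p Y := by ring
    rw [e]
    linarith
  T_tel := by
    intro Y hY z z' h1 h2 h3
    have h1' : - N.p Y ≤ z := h1
    have h3' : 2 * K * (z' - z) ≤ z - - N.p Y := h3
    have := hC.B_tel Y hY (-z') (-z) (by linarith) (by linarith)
      (by
        have e : -z - -z' = z' - z := by ring
        rw [e]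
        linarith)
    show - N.B Y (-z') - - N.B Y (-z) ≤ V + (z' - z) / 2
    have e : -z - -z' = z' - z := by ring
    rw [e] at this
    linarith
  B_tel := by
    intro Y hY z z' h1 h2 h3
    have h2' : z' ≤ - N.p Y := h2
    have h3' : 2 * K * (z' - z) ≤ - N.p Y - z' := h3
    have := hC.T_tel Y hY (-z') (-z) (by linarith) (by linarith)
      (by
        have e : -z - -z' = z' - z := by ring
        rw [e]
        linarith)
    show - N.T Y (-z') - - N.T Y (-z) ≤ V + (z' - z) / 2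
    have e : -z - -z' = z' - z := by ring
    rw [e] at this
    linarith
  C1 := by
    intro Y₁ h₁ Y₂ h₂ Y₃ h₃ m hm hm' hlt
    have hlt' : (m : ℝ) * (- N.p Y₂ - - N.p Y₁) < - N.p Y₁ - - N.p Y₃ := hlt
    have := hC.C1' Y₁ h₁ Y₂ h₂ Y₃ h₃ m hm hm' (by nlinarith)
    show (m : ℝ) * (- N.h Y₂ - - N.h Y₁) ≤ - N.h Y₁ - - N.h Y₃
    nlinarith
  C1' := by
    intro Y₁ h₁ Y₂ h₂ Y₃ h₃ m hm hm' hlt
    have hlt' : (m : ℝ) * (- N.p Y₁ - - N.p Y₂) < - N.p Y₃ - - N.p Y₁ := hlt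
    have := hC.C1 Y₁ h₁ Y₂ h₂ Y₃ h₃ m hm hm' (by nlinarith)
    show (m : ℝ) * (- N.h Y₁ - - N.h Y₂) ≤ - N.h Y₃ - - N.h Y₁
    nlinarith
  C2 := by
    intro Y hY Y' hY' y hy hlt
    have hlt' : y < - N.p Y - - N.p Y' := hlt
    have := hC.C2 Y' hY' Y hY y hy (by linarith)
    show sg + A * O y ≤ - N.h Y - - N.h Y'
    linarith

/-- Rise lemma with the near-node bound `O`. -/
theorem rise_near (hG : N.Good μ) (hC : N.Cert μ O V K m' sg A) {zm zp η K₆ : ℝ}
    (hK : 1 ≤ K) (hz : zm < zp) (hη : 0 ≤ η) (hK₆ : 1 ≤ K₆)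
    (R1 : zp - zm ≤ η) (hV : V ≤ η / 2)
    (hOnear : ∀ Y ∈ N.s, zm - 2 * K * (zp - zm) ≤ N.p Y → N.p Y ≤ zp + 2 * K * (zp - zm) →
      O ((2 * K + 1) * (zp - zm)) ≤ η)
    (R4 : ∀ A ∈ N.s, ∀ B' ∈ N.s, N.p A ≤ zp → zm ≤ N.p B' → N.p A ≤ N.p B' →
      N.p B' - N.p A ≤ K₆ * (zp - zm) → N.h B' - N.h A ≤ η)
    (R6 : (∃ Y ∈ N.s, ¬ N.low zm Y ∧ N.low zp Y) → 2 * μ ≤ η)
    (R8 : 2 * N.Q ≤ K₆ * η) :
    N.F zp - N.F zm ≤ 7 * η := by
  have hℓ : 0 < zp - zm := sub_pos.mpr hz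
  have hK0 : 0 < K := by linarith
  refine rise hG hz hη hK₆ R1 ?_ ?_ R4 ?_ R6 R8
  · intro Y hY hl
    have hp : N.p Y ≤ zm := by
      by_contra hc
      exact hG.low2 zm Y (not_le.mp hc) hl
    by_cases hfar : 2 * K * (zp - zm) ≤ zm - N.p Y
    · have := hC.T_tel Y hY zm zp hp hz.le hfar
      linarith
    · have hfar' := not_le.mp hfar
      have h1 := hC.T_up Y hY zp (by linarith)
      have h2 := hG.T_ge Y hY zm hp
      have h3 := hOnear Y hY (by linarith) (by nlinarith)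
      have h4 : O (zp - N.p Y) ≤ O ((2 * K + 1) * (zp - zm)) :=
        hC.O_mono _ _ (by linarith) (by nlinarith)
      linarith
  · intro Y hY hl
    have hp : zp ≤ N.p Y := by
      by_contra hc
      exact hl (hG.low1 zp Y (not_le.mp hc))
    by_cases hfar : 2 * K * (zp - zm) ≤ N.p Y - zp
    · have := hC.B_tel Y hY zm zp hz.le hp hfar
      linarith
    · have hfar' := not_le.mp hfar
      have h1 := hC.B_lo Y hY zm (by linarith)
      have h2 := hG.B_le Y hY zp hp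
      have h3 := hOnear Y hY (by nlinarith) (by linarith)
      have h4 : O (N.p Y - zm) ≤ O ((2 * K + 1) * (zp - zm)) :=
        hC.O_mono _ _ (by linarith) (by nlinarith)
      linarith
  · intro Y hY h1 h2
    have h3 := hOnear Y hY (by nlinarith) (by nlinarith)
    constructor
    · have a1 := hC.T_up Y hY zp h2
      have a2 : O (zp - N.p Y) ≤ O ((2 * K + 1) * (zp - zm)) :=
        hC.O_mono _ _ (by linarith) (by nlinarith)
      linarith
    · have a1 := hC.B_lo Y hY zm h1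
      have a2 : O (N.p Y - zm) ≤ O ((2 * K + 1) * (zp - zm)) :=
        hC.O_mono _ _ (by linarith) (by nlinarith)
      linarith

end NS

end Crest.Agent.Lib.MAK
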