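import Crest.Agent.Lib.MAK.Anchor

/-!
# The anchor lemma
-/

set_option autoImplicit false

noncomputable section

open scoped Classical

namespace Crest.Agent.Lib.MAK

variable {ι : Type}

namespace NS

variable {N : NS ι} {μ : ℝ}
variable {O : ℝ → ℝ} {V K : ℝ} {m' : ℕ} {sg A : ℝ}

lemma exists_first {z : ℝ} (hU : (N.Up z).Nonempty) :
    ∃ B₀ ∈ N.Up z, ∀ Y ∈ N.Up z, N.p B₀ ≤ N.p Y := by
  obtain ⟨⟨B₀, h, h'⟩, hm⟩ := aU_spec hU
  exact ⟨B₀, h, fun Y hY => by rw [h']; exact hm Y hY⟩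

lemma h_le_p_add (hG : N.Good μ) {Y : ι} (hY : Y ∈ N.s) : N.h Y ≤ N.p Y + N.Q := by
  have a1 := hG.T_ge Y hY (N.p Y) le_rfl
  have a2 := hG.T_rail Y hY (N.p Y) le_rfl
  have := hG.hμ
  linarith

/-- two nodes at the same position have nearly the same height, seen from an anchor on the left -/
lemma tie_bound (hC : N.Cert μ O V K m' sg A) (hm16 : 16 ≤ m') {Y B₀ E : ι}
    (hY : Y ∈ N.s) (hB₀ : B₀ ∈ N.s) (hE : E ∈ N.s) (heq : N.p Y = N.p B₀)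
    (hpos : 0 < N.p B₀ - N.p E) (hΔ0 : 0 ≤ N.h B₀ - N.h E) :
    N.h B₀ - N.h Y ≤ (N.h B₀ - N.h E) / 8 := by
  have hm0 : (16 : ℝ) ≤ (m' : ℝ) := by exact_mod_cast hm16
  have d1 := hC.C1 Y hY B₀ hB₀ E hE m' (by omega) le_rfl (by rw [heq]; simp; linarith)
  have d2 := hC.C1 B₀ hB₀ Y hY E hE m' (by omega) le_rfl (by rw [heq]; simp; linarith)
  have d3 : N.h Y - N.h B₀ ≤ N.h B₀ - N.h E := by
    by_contra hc
    have hc' := not_le.mp hc
    have : 16 * (N.h Y - N.h B₀) ≤ (m' : ℝ) * (N.h Y - N.h B₀) :=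
      mul_le_mul_of_nonneg_right hm0 (by linarith only [hc', hΔ0])
    linarith only [this, d2, hc', hΔ0]
  have d4 : N.h Y - N.h E ≤ 2 * (N.h B₀ - N.h E) := by linarith only [d3]
  by_contra hc
  have hc' := not_le.mp hc
  have hp : 0 ≤ N.h B₀ - N.h Y := by linarith only [hc', hΔ0]
  have : 16 * (N.h B₀ - N.h Y) ≤ (m' : ℝ) * (N.h B₀ - N.h Y) :=
    mul_le_mul_of_nonneg_right hm0 hp
  linarith only [this, d1, d4, hc']

/-- lower bound for the bottom function of a node `Y` above `zm`, in terms of the first node. -/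
lemma bot_bound (hG : N.Good μ) (hC : N.Cert μ O V K m' sg A) (hμ : 0 < μ) (hK : 1 ≤ K)
    (hm16 : 16 ≤ m') (hA8 : 8 ≤ A) (hsg0 : 0 ≤ sg) (hsg8 : 8 * μ ≤ sg)
    {E B₀ Y : ι} (hEs : E ∈ N.s) (hB₀s : B₀ ∈ N.s) (hYs : Y ∈ N.s) {zm : ℝ}
    (h0 : zm ≤ N.p B₀) (a0 : N.p B₀ ≤ N.p Y)
    (hylt : (2 * K + 1) * (N.p B₀ - zm) < N.p B₀ - N.p E)
    (hΔ : sg ≤ N.h B₀ - N.h E) :
    N.h B₀ - 3 / 8 * (N.h B₀ - N.h E) - V - (N.p B₀ - zm) ≤ N.B Y zm ∨ V < 0 := by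
  by_cases hV : V < 0
  · exact Or.inr hV
  left
  have hV0 := not_lt.mp hV
  have hΔ0 : 0 ≤ N.h B₀ - N.h E := by linarith only [hΔ, hsg0]
  have hℓ₀0 : 0 ≤ N.p B₀ - zm := by linarith only [h0]
  by_cases hfar : N.p B₀ < N.p Y ∧ 2 * K * (N.p B₀ - zm) ≤ N.p Y - N.p B₀
  · have b1 := hC.B_tel Y hYs zm (N.p B₀) h0 a0 hfar.2
    have b2 := hG.compat B₀ hB₀s Y hYs (N.p B₀) le_rfl a0 hfar.1
    have b3 := hG.T_ge B₀ hB₀s (N.p B₀) le_rfl
    linarith only [b1, b2, b3, hΔ0, hℓ₀0, hμ]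
  · have hnear : N.p Y - zm ≤ (2 * K + 1) * (N.p B₀ - zm) := by
      by_cases hlt : N.p B₀ < N.p Y
      · have : N.p Y - N.p B₀ < 2 * K * (N.p B₀ - zm) := by
          by_contra hc
          exact hfar ⟨hlt, not_lt.mp hc⟩
        linarith only [this]
      · have e : N.p Y = N.p B₀ := le_antisymm (not_lt.mp hlt) a0
        rw [e]
        have : 0 ≤ 2 * K * (N.p B₀ - zm) := mul_nonneg (by linarith only [hK]) hℓ₀0
        linarith only [this]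
    have hy0 : 0 ≤ (2 * K + 1) * (N.p B₀ - zm) := mul_nonneg (by linarith only [hK]) hℓ₀0
    have c1 := hC.C2 B₀ hB₀s E hEs _ hy0 hylt
    have c3 := hC.O_nonneg _ hy0
    have c2 : 8 * O ((2 * K + 1) * (N.p B₀ - zm)) ≤ A * O ((2 * K + 1) * (N.p B₀ - zm)) :=
      mul_le_mul_of_nonneg_right hA8 c3
    have c4 : O ((2 * K + 1) * (N.p B₀ - zm)) ≤ (N.h B₀ - N.h E) / 8 := by
      linarith only [c1, c2, hsg0]
    have hYz : zm ≤ N.p Y := h0.trans a0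
    have c5 : O (N.p Y - zm) ≤ O ((2 * K + 1) * (N.p B₀ - zm)) :=
      hC.O_mono _ _ (by linarith only [hYz]) hnear
    have c6 := hC.B_lo Y hYs zm hYz
    have c7 : N.h B₀ - N.h Y ≤ (N.h B₀ - N.h E) / 8 := by
      by_cases hlt : N.p B₀ < N.p Y
      · have d1 := hG.compat B₀ hB₀s Y hYs (N.p B₀) le_rfl a0 hlt
        have d2 := hG.T_ge B₀ hB₀s (N.p B₀) le_rfl
        have d3 := hG.B_le Y hYs (N.p B₀) a0
        linarith only [d1, d2, d3, hΔ0, hμ]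
      · have heq : N.p Y = N.p B₀ := le_antisymm (not_lt.mp hlt) a0
        have hpos : 0 < N.p B₀ - N.p E := lt_of_le_of_lt hy0 hylt
        exact tie_bound hC hm16 hYs hB₀s hEs heq hpos hΔ0
    have hμΔ : μ ≤ (N.h B₀ - N.h E) / 8 := by linarith only [hsg8, hΔ]
    linarith only [c4, c5, c6, c7, hμΔ, hV0, hℓ₀0]

/-- The key height bound `L3`. -/
lemma height_bound (hG : N.Good μ) (hC : N.Cert μ O V K m' sg A) (hμ : 0 < μ) (hK : 1 ≤ K)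
    (hV0 : 0 ≤ V) (hm16 : 16 ≤ m') (hA8 : 8 ≤ A) (hsg0 : 0 ≤ sg) (hsg8 : 8 * μ ≤ sg)
    {E B₀ : ι} (hEs : E ∈ N.s) {zm : ℝ} (hEL : E ∈ N.Lo zm)
    (hB₀ : B₀ ∈ N.Up zm) (hfirst : ∀ Y ∈ N.Up zm, N.p B₀ ≤ N.p Y)
    (hVX : V ≤ N.F zm - N.h E) (hℓ₀X : N.p B₀ - zm ≤ N.F zm - N.h E)
    (hylt : (2 * K + 1) * (N.p B₀ - zm) < N.p B₀ - N.p E)
    (h3 : 3 * (N.p B₀ - zm) ≤ zm - N.p E) :
    N.h B₀ - N.h E ≤ 7 * (N.F zm - N.h E) ∧ sg ≤ N.h B₀ - N.h E := by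
  have hB₀s := (mem_Up.mp hB₀).1
  have h0 : zm ≤ N.p B₀ := le_p_of_Up hG hB₀
  have hEz := p_le_of_Lo hG hEL
  have hy0 : 0 ≤ (2 * K + 1) * (N.p B₀ - zm) :=
    mul_nonneg (by linarith only [hK]) (by linarith only [h0])
  have hΔ : sg ≤ N.h B₀ - N.h E := by
    have a1 := hC.C2 B₀ hB₀s E hEs 0 le_rfl (by linarith only [hy0, hylt])
    have a2 := hC.O_nonneg 0 le_rfl
    have a3 : 0 ≤ A * O 0 := mul_nonneg (by linarith only [hA8]) a2
    linarith only [a1, a3]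
  refine ⟨?_, hΔ⟩
  have hLne : (N.Lo zm).Nonempty := ⟨E, hEL⟩
  have hUne : (N.Up zm).Nonempty := ⟨B₀, hB₀⟩
  obtain ⟨⟨A₀, hA₀, hA₀'⟩, hAm⟩ := aL_spec hLne
  have hA₀s := (mem_Lo.mp hA₀).1
  have hA₀z : N.p A₀ ≤ zm := p_le_of_Lo hG hA₀
  have hgap : N.p A₀ < N.p B₀ := gap_pos hG hA₀ hB₀
  have haU : N.aU zm = N.p B₀ := by
    obtain ⟨⟨B₁, hB₁, hB₁'⟩, hmU⟩ := aU_spec hUne
    apply le_antisymm
    · exact hmU B₀ hB₀
    · rw [← hB₁']; exact hfirst B₁ hB₁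
  have hL1 : ∀ Y ∈ N.Lo zm, N.h Y - N.h E ≤ N.F zm - N.h E - μ := by
    intro Y hY
    have a1 := hG.T_ge Y (mem_Lo.mp hY).1 zm (p_le_of_Lo hG hY)
    have a2 := T_le_L hY
    have a3 := L_le_F hG zm
    linarith only [a1, a2, a3]
  by_cases hcase : 2 * (N.p B₀ - zm) ≤ N.p B₀ - N.p A₀
  · have hw12 : 1 / 2 ≤ N.w zm := by
      rcases w_cases hG zm with ⟨h1, _⟩ | ⟨_, h2, _⟩ | ⟨_, _, h⟩
      · exact absurd hUne h1
      · exact absurd hLne h2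
      · rw [h, haU, ← hA₀']
        rw [le_div_iff₀ (by linarith only [hgap])]
        linarith only [hcase]
    have hLU := L_le_U hG zm
    have hF : N.L zm + (1 / 2) * (N.U zm - N.L zm) ≤ N.F zm := by
      unfold F
      have := mul_le_mul_of_nonneg_right hw12 (sub_nonneg.mpr hLU)
      linarith only [this]
    have hLE : N.h E ≤ N.L zm := by
      have a1 := hG.T_ge E hEs zm hEz
      have a2 := T_le_L hEL
      linarith only [a1, a2, hμ]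
    have hU2 : N.U zm ≤ N.h E + 2 * (N.F zm - N.h E) := by
      linarith only [hF, hLE]
    have hlow : N.h B₀ - 3 / 8 * (N.h B₀ - N.h E) - V - (N.p B₀ - zm) ≤ N.U zm := by
      apply le_U
      · have a1 := h_le_p_add hG hB₀s
        have hΔ0 : 0 ≤ N.h B₀ - N.h E := by linarith only [hΔ, hsg0]
        linarith only [a1, hΔ0, hV0]
      · intro Y hY
        have := bot_bound (V := V) hG hC hμ hK hm16 hA8 hsg0 hsg8 hEs hB₀s (mem_Up.mp hY).1 h0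
          (hfirst Y hY) hylt hΔ
        rcases this with h | h
        · exact h
        · exact absurd hV0 (not_le.mpr h)
    linarith only [hlow, hU2, hVX, hℓ₀X, hV0]
  · have hcase' := not_le.mp hcase
    have c1 := hC.C1 A₀ hA₀s B₀ hB₀s E hEs 1 le_rfl (by omega)
      (by
        push_cast
        linarith only [hcase', h3])
    push_cast at c1
    have c2 := hL1 A₀ hA₀
    linarith only [c1, c2, hμ, hVX, hV0]

/-- **Anchor lemma**: the rise of `F` far to the right of a node `E` is small compared with the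
height of `F` above `E`. -/
theorem anchor (hG : N.Good μ) (hC : N.Cert μ O V K m' sg A) {ε K₆ K₁ : ℝ}
    (hε0 : 0 < ε) (hε1 : ε ≤ 1) (hμ : 0 < μ)
    (hK : 1 ≤ K) (hV0 : 0 ≤ V) (hV : V ≤ ε * μ / 2)
    (hK₆ : 1 ≤ K₆) (hQ6 : 2 * N.Q ≤ K₆ * (ε * μ))
    (hm16 : 16 ≤ m') (hm14 : 14 ≤ ε * m')
    (hA8 : 8 ≤ A) (hA14 : 14 ≤ ε * A)
    (hsg : 14 * μ ≤ ε * sg)
    (hK₁a : 1 + 2 * N.Q / μ ≤ ε * K₁)
    (hK₁b : (2 * K + 1) * (1 + 2 * N.Q / μ) ≤ K₁)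
    (hK₁c : ((m' : ℝ) + 1) * K₆ < K₁)
    (hK₁d : (2 * K + 1) * (2 * K + 1) < K₁)
    {E : ι} (hEs : E ∈ N.s) {zm zp : ℝ} (hz : zm < zp) (hD : K₁ * (zp - zm) ≤ zm - N.p E) :
    N.F zp - N.F zm ≤ 7 * (ε * (N.F zm - N.h E)) := by
  have hℓ : 0 < zp - zm := sub_pos.mpr hz
  have hK8 : 3 ≤ 2 * K + 1 := by linarith only [hK]
  have hK₁pos : 0 < K₁ := lt_trans (by nlinarith only [hK8]) hK₁d
  have hQ0 := hG.hQ
  obtain ⟨Ka, hKadef⟩ : ∃ Ka, Ka = 1 + 2 * N.Q / μ := ⟨_, rfl⟩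
  rw [← hKadef] at hK₁a hK₁b
  have hKa : 1 ≤ Ka := by
    have : 0 ≤ 2 * N.Q / μ := by positivity
    linarith only [this, hKadef]
  obtain ⟨K8, hK8def⟩ : ∃ K8, K8 = 2 * K + 1 := ⟨_, rfl⟩
  rw [← hK8def] at hK₁b hK₁d hK8
  obtain ⟨X, hXdef⟩ : ∃ X, X = N.F zm - N.h E := ⟨_, rfl⟩
  rw [← hXdef]
  obtain ⟨ℓ, hℓdef⟩ : ∃ ℓ, ℓ = zp - zm := ⟨_, rfl⟩
  rw [← hℓdef] at hD hℓ
  have hDpos : 0 < zm - N.p E := lt_of_lt_of_le (mul_pos hK₁pos hℓ) hD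
  have hElow : N.low zm E := hG.low1 zm E (by linarith only [hDpos])
  have hEL : E ∈ N.Lo zm := mem_Lo.mpr ⟨hEs, hElow⟩
  have hL1 : ∀ Y ∈ N.Lo zm, N.h Y - N.h E ≤ X - μ := by
    intro Y hY
    have a1 := hG.T_ge Y (mem_Lo.mp hY).1 zm (p_le_of_Lo hG hY)
    have a2 := T_le_L hY
    have a3 := L_le_F hG zm
    linarith only [a1, a2, a3, hXdef]
  have hX1 : μ ≤ X := by
    have := hL1 E hEL
    linarith only [this]
  have hX0 : 0 < X := by linarith only [hX1, hμ]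
  have hX2 : zm - N.p E ≤ Ka * X := by
    have a1 := rail_le_L (N := N) zm
    have a2 := L_le_F hG zm
    have a3 := h_le_p_add hG hEs
    have a4 : 2 * N.Q ≤ 2 * N.Q / μ * X := by
      have : 2 * N.Q = 2 * N.Q / μ * μ := by field_simp
      calc 2 * N.Q = 2 * N.Q / μ * μ := this
        _ ≤ 2 * N.Q / μ * X := mul_le_mul_of_nonneg_left hX1 (by positivity)
    have a5 : Ka * X = X + 2 * N.Q / μ * X := by rw [hKadef]; ring
    rw [a5]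
    linarith only [a1, a2, a3, a4, hXdef]
  have hℓ1 : ℓ ≤ ε * X := by
    have a1 : K₁ * ℓ ≤ K₁ * (ε * X) := by
      have : Ka * X ≤ ε * K₁ * X := mul_le_mul_of_nonneg_right hK₁a hX0.le
      linarith only [this, hD, hX2]
    exact le_of_mul_le_mul_left a1 hK₁pos
  have hK8pos : 0 < K8 := by linarith only [hK8]
  have hK8ℓ0 : 0 < K8 * ℓ := mul_pos hK8pos hℓ
  have hℓ2 : K8 * ℓ ≤ X := by
    have a1 : K8 * Ka * ℓ ≤ K₁ * ℓ := mul_le_mul_of_nonneg_right hK₁b hℓ.le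
    have a2 : Ka * (K8 * ℓ) ≤ Ka * X := by linarith only [a1, hD, hX2]
    exact le_of_mul_le_mul_left a2 (by linarith only [hKa])
  have hK8ℓ : K8 * K8 * ℓ < zm - N.p E :=
    lt_of_lt_of_le (mul_lt_mul_of_pos_right hK₁d hℓ) hD
  have hK8ℓ' : K8 * ℓ * 3 ≤ K8 * K8 * ℓ := by
    have : K8 * ℓ * 3 ≤ K8 * ℓ * K8 := mul_le_mul_of_nonneg_left hK8 hK8ℓ0.le
    linarith only [this]
  have hsg0 : 0 < sg := by
    by_contra hc
    have : ε * sg ≤ 0 := mul_nonpos_of_nonneg_of_nonpos hε0.le (not_lt.mp hc)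
    linarith only [this, hsg, hμ]
  have hsg8 : 8 * μ ≤ sg := by
    have : ε * sg ≤ 1 * sg := mul_le_mul_of_nonneg_right hε1 hsg0.le
    linarith only [this, hsg, hμ]
  have hA0 : 0 < A := by linarith only [hA8]
  have hm0 : (16 : ℝ) ≤ (m' : ℝ) := by exact_mod_cast hm16
  have hεμ : ε * μ ≤ μ := by
    have : ε * μ ≤ 1 * μ := mul_le_mul_of_nonneg_right hε1 hμ.le
    linarith only [this]
  have hVX : V ≤ X := by linarith only [hV, hεμ, hX1, hμ]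
  -- L3
  have L3 : ∀ B₀ ∈ N.Up zm, (∀ Y ∈ N.Up zm, N.p B₀ ≤ N.p Y) → N.p B₀ - zm ≤ K8 * ℓ →
      N.h B₀ - N.h E ≤ 7 * X ∧ sg ≤ N.h B₀ - N.h E := by
    intro B₀ hB₀ hfirst hclose
    have hle0 : 0 ≤ N.p B₀ - zm := by linarith only [le_p_of_Up hG hB₀]
    rw [hXdef]
    refine height_bound hG hC hμ hK hV0 hm16 hA8 hsg0.le hsg8 hEs hEL hB₀ hfirst
      (by linarith only [hVX, hXdef]) (by linarith only [hclose, hℓ2, hXdef]) ?_ ?_
    · have a1 : (2 * K + 1) * (N.p B₀ - zm) ≤ K8 * (K8 * ℓ) := by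
        rw [← hK8def]
        exact mul_le_mul_of_nonneg_left hclose hK8pos.le
      linarith only [a1, hK8ℓ, hle0]
    · linarith only [hclose, hK8ℓ, hK8ℓ', hK8ℓ0]
  -- L5
  have L5 : ∀ Y ∈ N.s, N.p Y - zm ≤ K8 * ℓ → N.h Y - N.h E ≤ 14 * X := by
    intro Y hY hnear
    by_cases hl : N.low zm Y
    · have := hL1 Y (mem_Lo.mpr ⟨hY, hl⟩)
      linarith only [this, hμ, hX0]
    · have hYU : Y ∈ N.Up zm := mem_Up.mpr ⟨hY, hl⟩
      obtain ⟨B₀, hB₀, hfirst⟩ := exists_first ⟨Y, hYU⟩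
      have a0 := hfirst Y hYU
      have a1 : zm ≤ N.p B₀ := le_p_of_Up hG hB₀
      have a2 := (L3 B₀ hB₀ hfirst (by linarith only [a0, hnear])).1
      have hB₀s := (mem_Up.mp hB₀).1
      have hlt : N.p Y - N.p B₀ < N.p B₀ - N.p E := by
        linarith only [hnear, a1, hK8ℓ, hK8ℓ', hK8ℓ0]
      have c1 := hC.C1 B₀ hB₀s Y hY E hEs 1 le_rfl (by omega)
        (by
          push_cast
          linarith only [hlt])
      push_cast at c1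
      linarith only [c1, a2]
  have hKℓ : 0 ≤ ε * X := by positivity
  have hVη : V ≤ ε * X / 2 := by
    have : ε * μ ≤ ε * X := mul_le_mul_of_nonneg_left hX1 hε0.le
    linarith only [this, hV]
  have hℓ1' : zp - zm ≤ ε * X := by rw [← hℓdef]; exact hℓ1
  refine rise_near hG hC hK hz hKℓ hK₆ hℓ1' hVη ?_ ?_ ?_ ?_
  · intro Y hY h1 h2
    rw [← hℓdef] at h1 h2 ⊢
    rw [← hK8def]
    have hy0 : 0 ≤ K8 * ℓ := hK8ℓ0.le
    have hylt : K8 * ℓ < N.p Y - N.p E := by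
      have b1 : K8 * K8 * ℓ = K8 * ℓ + (2 * K) * (K8 * ℓ) := by rw [hK8def]; ring
      have b2 : 2 * K * ℓ ≤ 2 * K * (K8 * ℓ) := by
        apply mul_le_mul_of_nonneg_left _ (by linarith only [hK])
        have : 1 * ℓ ≤ K8 * ℓ := mul_le_mul_of_nonneg_right (by linarith only [hK8]) hℓ.le
        linarith only [this]
      linarith only [b1, b2, h1, hK8ℓ]
    have c1 := hC.C2 Y hY E hEs _ hy0 hylt
    have c2 := L5 Y hY (by rw [hK8def]; linarith only [h2, hℓdef])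
    have c3 := hC.O_nonneg _ hy0
    have c4 : A * O (K8 * ℓ) ≤ 14 * X := by linarith only [c1, c2, hsg0]
    have c5 : 14 * O (K8 * ℓ) ≤ ε * A * O (K8 * ℓ) := mul_le_mul_of_nonneg_right hA14 c3
    have c6 : ε * (A * O (K8 * ℓ)) ≤ ε * (14 * X) := mul_le_mul_of_nonneg_left c4 hε0.le
    linarith only [c5, c6, show ε * A * O (K8 * ℓ) = ε * (A * O (K8 * ℓ)) by ring,
      show ε * (14 * X) = 14 * (ε * X) by ring]
  · intro A' hA' B' hB' h1 h2 h3 h4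
    rw [← hℓdef] at h4
    have hK8ℓ1 : ℓ ≤ K8 * ℓ := by
      have : 1 * ℓ ≤ K8 * ℓ := mul_le_mul_of_nonneg_right (by linarith only [hK8]) hℓ.le
      linarith only [this]
    have c2 := L5 A' hA' (by linarith only [h1, hℓdef, hK8ℓ1])
    have hm0' : 0 ≤ (m' : ℝ) := by linarith only [hm0]
    have hlt : (m' : ℝ) * (N.p B' - N.p A') < N.p A' - N.p E := by
      have b1 : (m' : ℝ) * (N.p B' - N.p A') ≤ (m' : ℝ) * (K₆ * ℓ) :=
        mul_le_mul_of_nonneg_left h4 hm0'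
      have b2 : ((m' : ℝ) + 1) * K₆ * ℓ < K₁ * ℓ := mul_lt_mul_of_pos_right hK₁c hℓ
      have b3 : ((m' : ℝ) + 1) * K₆ * ℓ = (m' : ℝ) * (K₆ * ℓ) + K₆ * ℓ := by ring
      linarith only [b1, b2, b3, hD, h2, h4]
    have c1 := hC.C1 A' hA' B' hB' E hEs m' (by omega) le_rfl hlt
    by_cases hneg : N.h B' - N.h A' ≤ 0
    · linarith only [hneg, hKℓ]
    · have hpos := not_le.mp hneg
      have d1 : 14 * (N.h B' - N.h A') ≤ ε * (m' : ℝ) * (N.h B' - N.h A') :=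
        mul_le_mul_of_nonneg_right hm14 hpos.le
      have d2 : ε * ((m' : ℝ) * (N.h B' - N.h A')) ≤ ε * (14 * X) :=
        mul_le_mul_of_nonneg_left (by linarith only [c1, c2]) hε0.le
      linarith only [d1, d2, show ε * (m' : ℝ) * (N.h B' - N.h A') =
        ε * ((m' : ℝ) * (N.h B' - N.h A')) by ring, show ε * (14 * X) = 14 * (ε * X) by ring]
  · rintro ⟨Y, hY, h1, h2⟩
    have hYU : Y ∈ N.Up zm := mem_Up.mpr ⟨hY, h1⟩
    obtain ⟨B₀, hB₀, hfirst⟩ := exists_first ⟨Y, hYU⟩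
    have a0 := hfirst Y hYU
    have a1 : N.p Y ≤ zp := by
      by_contra hc
      exact hG.low2 zp Y (not_le.mp hc) h2
    have hK8ℓ1 : ℓ ≤ K8 * ℓ := by
      have : 1 * ℓ ≤ K8 * ℓ := mul_le_mul_of_nonneg_right (by linarith only [hK8]) hℓ.le
      linarith only [this]
    have hcl : N.p B₀ - zm ≤ K8 * ℓ := by linarith only [a0, a1, hℓdef, hK8ℓ1]
    have a2 := (L3 B₀ hB₀ hfirst hcl).2
    have a3 := (L3 B₀ hB₀ hfirst hcl).1
    have : ε * sg ≤ ε * (7 * X) := mul_le_mul_of_nonneg_left (by linarith only [a2, a3]) hε0.le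
    linarith only [this, hsg, show ε * (7 * X) = 7 * (ε * X) by ring]
  · have : K₆ * (ε * μ) ≤ K₆ * (ε * X) :=
      mul_le_mul_of_nonneg_left (mul_le_mul_of_nonneg_left hX1 hε0.le) (by linarith only [hK₆])
    linarith only [this, hQ6]

/-- The mirror image of the anchor lemma. -/
theorem anchor_mirror (hG : N.Good μ) (hC : N.Cert μ O V K m' sg A) {ε K₆ K₁ : ℝ}
    (hε0 : 0 < ε) (hε1 : ε ≤ 1) (hμ : 0 < μ)
    (hK : 1 ≤ K) (hV0 : 0 ≤ V) (hV : V ≤ ε * μ / 2)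
    (hK₆ : 1 ≤ K₆) (hQ6 : 2 * N.Q ≤ K₆ * (ε * μ))
    (hm16 : 16 ≤ m') (hm14 : 14 ≤ ε * m')
    (hA8 : 8 ≤ A) (hA14 : 14 ≤ ε * A)
    (hsg : 14 * μ ≤ ε * sg)
    (hK₁a : 1 + 2 * N.Q / μ ≤ ε * K₁)
    (hK₁b : (2 * K + 1) * (1 + 2 * N.Q / μ) ≤ K₁)
    (hK₁c : ((m' : ℝ) + 1) * K₆ < K₁)
    (hK₁d : (2 * K + 1) * (2 * K + 1) < K₁)
    {E : ι} (hEs : E ∈ N.s) {zm zp : ℝ} (hz : zm < zp) (hD : K₁ * (zp - zm) ≤ N.p E - zp) :
    N.F zp - N.F zm ≤ 7 * (ε * (N.h E - N.F zp)) := by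
  have hG' := refl_good hG
  have hC' := refl_cert hG hC
  have hz' : -zp < -zm := by linarith
  have hD' : K₁ * (-zm - -zp) ≤ -zp - N.refl.p E := by
    have e1 : -zm - -zp = zp - zm := by ring
    have e2 : N.refl.p E = - N.p E := rfl
    rw [e1, e2]
    linarith
  have := anchor (N := N.refl) hG' hC' hε0 hε1 hμ hK hV0 hV hK₆ hQ6 hm16 hm14 hA8 hA14 hsg
    hK₁a hK₁b hK₁c hK₁d hEs hz' hD'
  rw [refl_F hG, refl_F hG, neg_neg, neg_neg] at this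
  have e3 : N.refl.h E = - N.h E := rfl
  rw [e3] at this
  have e4 : - N.F zm - - N.F zp = N.F zp - N.F zm := by ring
  have e5 : - N.F zp - - N.h E = N.h E - N.F zp := by ring
  rw [e4, e5] at this
  exact this

end NS

end Crest.Agent.Lib.MAK
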