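import Crest.Agent.Lib.MAK.BarrierSort

/-!
# S0122 Block B: `TriExists → BarrierExists`.
-/

set_option autoImplicit false

namespace Crest.Agent.Lib.MAK

open MeasureTheory Set Filter Topology Finset

variable {k : ℕ} {Lam Q : ℝ} {v : ℕ → ℝ → (ℕ → ℝ) → ℝ}

/-- Antitonicity of the raised tuple. -/
lemma update_up_antitone {θ : Fin k → ℝ} {i : Fin k} {t0 t : ℝ}
    (hgap : ∀ j, θ i < θ j → θ i + t0 < θ j) (ht : 0 ≤ t) (ht0 : t ≤ t0) {π : Equiv.Perm (Fin k)}
    (hπ : Antitone ((Function.update θ i (θ i + t0)) ∘ π)) :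
    Antitone ((Function.update θ i (θ i + t)) ∘ π) := by
  intro a b hab
  have h := hπ hab
  simp only [Function.comp] at h ⊢
  by_cases ha : π a = i
  · by_cases hb : π b = i
    · rw [ha, hb]
    · rw [ha, Function.update_self] at h ⊢
      rw [Function.update_of_ne hb] at h ⊢
      by_contra hc
      push Not at hc
      have h1 : θ i < θ (π b) := by linarith
      have := hgap _ h1
      linarith
  · by_cases hb : π b = i
    · rw [hb, Function.update_self] at h ⊢
      rw [Function.update_of_ne ha] at h ⊢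
      linarith
    · rw [Function.update_of_ne ha, Function.update_of_ne hb] at h ⊢
      exact h

/-- Antitonicity of the lowered tuple. -/
lemma update_down_antitone {θ : Fin k → ℝ} {i : Fin k} {t1 t : ℝ}
    (hgap : ∀ j, θ j < θ i → θ j < θ i - t1) (ht : 0 ≤ t) (ht1 : t ≤ t1) {π : Equiv.Perm (Fin k)}
    (hπ : Antitone ((Function.update θ i (θ i - t1)) ∘ π)) :
    Antitone ((Function.update θ i (θ i - t)) ∘ π) := by
  intro a b hab
  have h := hπ hab
  simp only [Function.comp] at h ⊢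
  by_cases ha : π a = i
  · by_cases hb : π b = i
    · rw [ha, hb]
    · rw [ha, Function.update_self] at h ⊢
      rw [Function.update_of_ne hb] at h ⊢
      linarith
  · by_cases hb : π b = i
    · rw [hb, Function.update_self] at h ⊢
      rw [Function.update_of_ne ha] at h ⊢
      by_contra hc
      push Not at hc
      have h1 : θ (π a) < θ i := by linarith
      have := hgap _ h1
      linarith
    · rw [Function.update_of_ne ha, Function.update_of_ne hb] at h ⊢
      exact h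

/-- `ext` of an updated tuple. -/
lemma ext_update_comp (θ : Fin k → ℝ) (i : Fin k) (a : ℝ) (π : Equiv.Perm (Fin k)) :
    ext ((Function.update θ i a) ∘ π) =
      Function.update (ext (θ ∘ π)) (π.symm i : ℕ) a := by
  funext n
  by_cases hn : n < k
  · rw [ext_of_lt _ hn]
    by_cases he : n = (π.symm i : ℕ)
    · have h1 : (⟨n, hn⟩ : Fin k) = π.symm i := Fin.ext he
      simp only [Function.comp, h1, Equiv.apply_symm_apply, Function.update_self]
      rw [he, Function.update_self]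
    · rw [Function.update_of_ne he, ext_of_lt _ hn]
      have h2 : π ⟨n, hn⟩ ≠ i := by
        intro h3
        apply he
        rw [← h3]
        simp
      simp only [Function.comp, Function.update_of_ne h2]
  · have h4 : n ≠ (π.symm i : ℕ) := by
      intro h5
      apply hn
      rw [h5]
      exact (π.symm i).2
    rw [Function.update_of_ne h4]
    simp [ext, hn]

lemma ext_comp_symm (θ : Fin k → ℝ) (i : Fin k) (π : Equiv.Perm (Fin k)) :
    ext (θ ∘ π) (π.symm i : ℕ) = θ i := by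
  rw [ext_fin]
  simp

section Main

variable {N : ℕ} {kap sg : ℝ}

/-- `(UP)`. -/
lemma up_lemma (hv : IsTri k Lam Q v) (hLam : 0 < Lam) (hsep : Sep k N kap sg v) (hN : 2 ≤ N)
    {x θ : Fin k → ℝ} (hmax : CoordLocalMax (gB v) x θ) (i : Fin k) :
    ∃ m, m < k ∧ Ps θ m = θ i ∧ ∀ᶠ t in 𝓝[>] (0 : ℝ),
      x i ≤ Real.exp (v m (θ i + t) (Ps θ)) * (1 + k * Lam * Real.exp (-sg)) := by
  have h0 : ∀ᶠ t in 𝓝[>] (0 : ℝ), ∀ j, θ i < θ j → θ i + t < θ j := by
    rw [Filter.eventually_all]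
    intro j
    by_cases hj : θ i < θ j
    · filter_upwards [Ioo_mem_nhdsGT (sub_pos.mpr hj)] with t ht _
      have := ht.2
      linarith
    · exact Eventually.of_forall fun t h => absurd h hj
  obtain ⟨t0, ht0gap, ht0pos⟩ := (h0.and self_mem_nhdsWithin).exists
  have ht0pos' : 0 < t0 := ht0pos
  set π := sortPerm (Function.update θ i (θ i + t0)) with hπ
  have hanti0 : Antitone ((Function.update θ i (θ i + t0)) ∘ π) := sθ_antitone _
  have hantiT : ∀ t, 0 ≤ t → t ≤ t0 → Antitone ((Function.update θ i (θ i + t)) ∘ π) :=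
    fun t h1 h2 => update_up_antitone ht0gap h1 h2 hanti0
  have hθ : Antitone (θ ∘ π) := by
    have := hantiT 0 le_rfl ht0pos'.le
    simpa using this
  have hP : Ps θ = ext (θ ∘ π) := Ps_eq_of_antitone hθ
  refine ⟨(π.symm i : ℕ), (π.symm i).2, by rw [hP, ext_comp_symm], ?_⟩
  set m : ℕ := (π.symm i : ℕ) with hm
  have hmk : m < k := (π.symm i).2
  have hval : Ps θ m = θ i := by rw [hP, ext_comp_symm]
  have hg : ∀ t, 0 ≤ t → t ≤ t0 → gB v (Function.update θ i (θ i + t)) =
      gg v k (Function.update (Ps θ) m (Ps θ m + t)) := by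
    intro t h1 h2
    unfold gB
    rw [Ps_eq_of_antitone (hantiT t h1 h2), ext_update_comp, ← hm, hval, hP]
  have hloc := hmax i
  have hloc' : ∀ᶠ t in 𝓝[>] (0 : ℝ),
      t * x i ≤ gB v (Function.update θ i (θ i + t)) - gB v θ :=
    hloc.filter_mono nhdsWithin_le_nhds
  filter_upwards [hloc', Ioo_mem_nhdsGT ht0pos'] with t ht1 ht2
  have htpos : 0 < t := ht2.1
  rw [hg t htpos.le ht2.2.le] at ht1
  have h3 := gg_raise hv hLam hsep hN (Ps_anti θ) hmk htpos
  have h4 : t * x i ≤ t * (Real.exp (v m (Ps θ m + t) (Ps θ)) *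
      (1 + k * Lam * Real.exp (-sg))) := by
    have : gB v θ = gg v k (Ps θ) := rfl
    rw [this] at ht1
    calc t * x i ≤ _ := ht1
      _ ≤ _ := h3
      _ = _ := by ring
  have h5 := le_of_mul_le_mul_left h4 htpos
  rwa [hval] at h5

/-- `(DOWN)`. -/
lemma down_lemma (hv : IsTri k Lam Q v) (hLam : 0 < Lam) (hsep : Sep k N kap sg v) (hN : 2 ≤ N)
    {x θ : Fin k → ℝ} (hmax : CoordLocalMax (gB v) x θ) (i : Fin k) :
    ∃ m, m < k ∧ Ps θ m = θ i ∧ ∀ᶠ t in 𝓝[>] (0 : ℝ),
      Real.exp (v m (θ i - t) (Ps θ)) * (1 - k * Lam * Real.exp (-sg)) ≤ x i := by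
  have h0 : ∀ᶠ t in 𝓝[>] (0 : ℝ), ∀ j, θ j < θ i → θ j < θ i - t := by
    rw [Filter.eventually_all]
    intro j
    by_cases hj : θ j < θ i
    · filter_upwards [Ioo_mem_nhdsGT (sub_pos.mpr hj)] with t ht _
      have := ht.2
      linarith
    · exact Eventually.of_forall fun t h => absurd h hj
  obtain ⟨t1, ht1gap, ht1pos⟩ := (h0.and self_mem_nhdsWithin).exists
  have ht1pos' : 0 < t1 := ht1pos
  set π := sortPerm (Function.update θ i (θ i - t1)) with hπ
  have hanti1 : Antitone ((Function.update θ i (θ i - t1)) ∘ π) := sθ_antitone _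
  have hantiT : ∀ t, 0 ≤ t → t ≤ t1 → Antitone ((Function.update θ i (θ i - t)) ∘ π) :=
    fun t h1 h2 => update_down_antitone ht1gap h1 h2 hanti1
  have hθ : Antitone (θ ∘ π) := by
    have := hantiT 0 le_rfl ht1pos'.le
    simpa using this
  have hP : Ps θ = ext (θ ∘ π) := Ps_eq_of_antitone hθ
  refine ⟨(π.symm i : ℕ), (π.symm i).2, by rw [hP, ext_comp_symm], ?_⟩
  set m : ℕ := (π.symm i : ℕ) with hm
  have hmk : m < k := (π.symm i).2
  have hval : Ps θ m = θ i := by rw [hP, ext_comp_symm]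
  have hg : ∀ t, 0 ≤ t → t ≤ t1 → gB v (Function.update θ i (θ i - t)) =
      gg v k (Function.update (Ps θ) m (Ps θ m - t)) := by
    intro t h1 h2
    unfold gB
    rw [Ps_eq_of_antitone (hantiT t h1 h2), ext_update_comp, ← hm, hval, hP]
  -- the gap below slot `m`
  have hgapP : ∀ l, m < l → l < k → Ps θ l ≤ Ps θ m - t1 := by
    intro l hl hlk
    rw [hval, hP, ext_of_lt _ hlk]
    have h1 : (π.symm i) < (⟨l, hlk⟩ : Fin k) := Fin.mk_lt_mk.mpr hl |>.trans_eq' rfl
    have h2 := hanti1 h1.le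
    simp only [Function.comp, Equiv.apply_symm_apply, Function.update_self] at h2
    have h3 : π ⟨l, hlk⟩ ≠ i := by
      intro h4
      have h5 : (⟨l, hlk⟩ : Fin k) = π.symm i := by
        rw [← h4]; simp
      rw [h5] at h1
      exact lt_irrefl _ h1
    rw [Function.update_of_ne h3] at h2
    simpa [Function.comp] using h2
  have hloc : ∀ᶠ t in 𝓝[>] (0 : ℝ),
      (-t) * x i ≤ gB v (Function.update θ i (θ i + (-t))) - gB v θ := by
    have h1 := hmax i
    have h2 : Tendsto (fun t : ℝ => -t) (𝓝[>] 0) (𝓝 0) := by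
      have : Tendsto (fun t : ℝ => -t) (𝓝 0) (𝓝 0) := by
        simpa using (continuous_neg (G := ℝ)).tendsto 0
      exact this.mono_left nhdsWithin_le_nhds
    exact h2.eventually h1
  have hposden : 0 < 1 + 2 * Lam := by linarith
  have hdelta : 0 < min t1 (t1 / (1 + 2 * Lam)) := lt_min ht1pos' (div_pos ht1pos' hposden)
  filter_upwards [hloc, Ioo_mem_nhdsGT hdelta] with t ht1' ht2
  have htpos : 0 < t := ht2.1
  have ht_le : t ≤ t1 := (ht2.2.trans_le (min_le_left _ _)).le
  have ht_lt : t * (1 + 2 * Lam) < t1 := by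
    have := ht2.2.trans_le (min_le_right _ _)
    rwa [lt_div_iff₀ hposden] at this
  have e : Function.update θ i (θ i + -t) = Function.update θ i (θ i - t) := by
    rw [sub_eq_add_neg]
  rw [e, hg t htpos.le ht_le] at ht1'
  have h3 := gg_lower hv hLam hsep hN (p := Ps θ) hmk htpos (fun l hl hlk => by
    have := hgapP l hl hlk
    linarith)
  have h4 : t * (Real.exp (v m (Ps θ m - t) (Ps θ)) * (1 - k * Lam * Real.exp (-sg))) ≤ t * x i := by
    have : gB v θ = gg v k (Ps θ) := rfl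
    rw [this] at ht1'
    calc _ = _ := by ring
      _ ≤ _ := h3
      _ ≤ t * x i := by linarith
  have h5 := le_of_mul_le_mul_left h4 htpos
  rwa [hval] at h5

/-! ### The separation estimate -/

lemma toNat_sub_toNat_neg (z : ℤ) : ((z.toNat : ℝ) - ((-z).toNat : ℝ)) = z := by
  rcases le_total 0 z with h | h
  · have h1 : ((z.toNat : ℤ) : ℝ) = (z : ℝ) := by rw [Int.toNat_of_nonneg h]
    have h2 : (-z).toNat = 0 := by omega
    rw [h2]
    push_cast at h1 ⊢
    linarith
  · have h1 : (((-z).toNat : ℤ) : ℝ) = ((-z : ℤ) : ℝ) := by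
      rw [Int.toNat_of_nonneg (by omega)]
    have h2 : z.toNat = 0 := by omega
    rw [h2]
    push_cast at h1 ⊢
    linarith

lemma toNat_add_toNat_neg (z : ℤ) : ((z.toNat : ℝ) + ((-z).toNat : ℝ)) = ((|z| : ℤ) : ℝ) := by
  rcases le_total 0 z with h | h
  · have h1 : ((z.toNat : ℤ) : ℝ) = (z : ℝ) := by rw [Int.toNat_of_nonneg h]
    have h2 : (-z).toNat = 0 := by omega
    rw [h2, abs_of_nonneg h]
    push_cast at h1 ⊢
    linarith
  · have h1 : (((-z).toNat : ℤ) : ℝ) = ((-z : ℤ) : ℝ) := by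
      rw [Int.toNat_of_nonneg (by omega)]
    have h2 : z.toNat = 0 := by omega
    rw [h2, abs_of_nonpos h]
    push_cast at h1 ⊢
    linarith

/-- Swapping sums: a fibre count. -/
lemma sum_fiber_nat (f : Fin k → ℕ) (hf : ∀ i, f i < k) (a : Fin k → ℕ) :
    ∑ l ∈ Finset.range k, ∑ i, a i * (if f i = l then 1 else 0) = ∑ i, a i := by
  rw [Finset.sum_comm]
  refine Finset.sum_congr rfl fun i _ => ?_
  rw [Finset.sum_eq_single (f i)]
  · simp
  · intro b _ hb
    simp [Ne.symm hb]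
  · intro h
    exact absurd (Finset.mem_range.mpr (hf i)) h

lemma sum_fiber_real (f : Fin k → ℕ) (hf : ∀ i, f i < k) (a : Fin k → ℕ) (b : ℕ → ℝ) :
    ∑ l ∈ Finset.range k, (((∑ i, a i * (if f i = l then 1 else 0) : ℕ) : ℝ) * b l)
      = ∑ i, (a i : ℝ) * b (f i) := by
  have : ∀ l, (((∑ i, a i * (if f i = l then 1 else 0) : ℕ) : ℝ) * b l)
      = ∑ i, (a i : ℝ) * ((if f i = l then 1 else 0 : ℝ) * b l) := by
    intro l
    push_cast
    rw [Finset.sum_mul]
    refine Finset.sum_congr rfl fun i _ => ?_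
    ring
  simp only [this]
  rw [Finset.sum_comm]
  refine Finset.sum_congr rfl fun i _ => ?_
  rw [← Finset.mul_sum]
  congr 1
  rw [Finset.sum_eq_single (f i)]
  · simp
  · intro c _ hc
    simp [Ne.symm hc]
  · intro h
    exact absurd (Finset.mem_range.mpr (hf i)) h

/-- The separation property of the barrier, with the error term still explicit. -/
lemma sep_main (hv : IsTri k Lam Q v) (hLam : 0 < Lam) (hkap : 0 < kap)
    (hsep : Sep k N kap sg v) (hN : 2 ≤ N)
    (hε : k * Lam * Real.exp (-sg) ≤ 1 / 2)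
    {x θ : Fin k → ℝ} (hx : ∀ i, 0 < x i) (hmax : CoordLocalMax (gB v) x θ)
    (D : Fin k → ℤ) (hD : (∑ i, |D i|) ≤ (N : ℤ)) (hpos : 0 < ∑ i, (D i : ℝ) * θ i) :
    sg ≤ ∑ i, (D i : ℝ) * Real.log (x i) + 2 * N * (k * Lam * Real.exp (-sg)) := by
  set ε := k * Lam * Real.exp (-sg) with hεdef
  have hε0 : 0 ≤ ε := by positivity
  choose mp hmpk hmpv hmpE using fun i => up_lemma hv hLam hsep hN hmax i
  choose mm hmmk hmmv hmmE using fun i => down_lemma hv hLam hsep hN hmax i
  set p := Ps θ with hp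
  have hall : ∀ᶠ t in 𝓝[>] (0 : ℝ),
      (∀ i, x i ≤ Real.exp (v (mp i) (θ i + t) p) * (1 + ε)) ∧
      (∀ i, Real.exp (v (mm i) (θ i - t) p) * (1 - ε) ≤ x i) ∧
      t ∈ Ioo (0 : ℝ) (min 1 ((∑ i, (D i : ℝ) * θ i) / kap)) :=
    (eventually_all.mpr hmpE).and ((eventually_all.mpr hmmE).and
      (Ioo_mem_nhdsGT (lt_min one_pos (div_pos hpos hkap))))
  obtain ⟨t, hup, hdown, ht⟩ := hall.exists
  have ht0 : 0 < t := ht.1
  have ht1 : t ≤ 1 := (ht.2.trans_le (min_le_left _ _)).le
  have htk : kap * t < ∑ i, (D i : ℝ) * θ i := by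
    have := ht.2.trans_le (min_le_right _ _)
    rw [lt_div_iff₀ hkap] at this
    linarith
  -- the multiplicities
  set Ep : ℕ → ℕ := fun l => ∑ i, (D i).toNat * (if mm i = l then 1 else 0) with hEp
  set Em : ℕ → ℕ := fun l => ∑ i, (-D i).toNat * (if mp i = l then 1 else 0) with hEm
  have hmass : ∑ j ∈ Finset.range k, (Ep j + Em j) ≤ N := by
    rw [Finset.sum_add_distrib]
    simp only [hEp, hEm]
    rw [sum_fiber_nat mm hmmk, sum_fiber_nat mp hmpk, ← Finset.sum_add_distrib]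
    have h1 : ((∑ i, ((D i).toNat + (-D i).toNat) : ℕ) : ℤ) = ∑ i, |D i| := by
      push_cast
      refine Finset.sum_congr rfl fun i _ => ?_
      rcases le_total 0 (D i) with h | h
      · rw [abs_of_nonneg h]; omega
      · rw [abs_of_nonpos h]; omega
    have h2 : ((∑ i, ((D i).toNat + (-D i).toNat) : ℕ) : ℤ) ≤ (N : ℤ) := by
      rw [h1]; exact hD
    exact_mod_cast h2
  have hlin : ∀ (a b : ℕ → ℝ), ∑ j ∈ Finset.range k, ((Ep j : ℝ) * a j - (Em j : ℝ) * b j)
      = ∑ i, (((D i).toNat : ℝ) * a (mm i) - ((-D i).toNat : ℝ) * b (mp i)) := by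
    intro a b
    rw [Finset.sum_sub_distrib, Finset.sum_sub_distrib]
    simp only [hEp, hEm]
    rw [sum_fiber_real mm hmmk, sum_fiber_real mp hmpk]
  have hcond : kap * t < ∑ j ∈ Finset.range k, ((Ep j : ℝ) - (Em j : ℝ)) * p j := by
    have e : ∀ j, ((Ep j : ℝ) - (Em j : ℝ)) * p j = (Ep j : ℝ) * p j - (Em j : ℝ) * p j := by
      intro j; ring
    simp only [e]
    rw [hlin p p]
    have e2 : ∀ i, (((D i).toNat : ℝ) * p (mm i) - ((-D i).toNat : ℝ) * p (mp i))
        = (D i : ℝ) * θ i := by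
      intro i
      rw [hmmv i, hmpv i, ← toNat_sub_toNat_neg (D i)]
      ring
    simp only [e2]
    exact htk
  have hS := hsep Ep Em hmass p t ht0.le ht1 hcond
  rw [hlin (fun j => v j (p j - t) p) (fun j => v j (p j + t) p)] at hS
  -- the pointwise bounds
  have hε2 : ε ≤ 1 / 2 := hε
  have hVm : ∀ i, v (mm i) (p (mm i) - t) p ≤ Real.log (x i) + 2 * ε := by
    intro i
    rw [hmmv i]
    have h1 := hdown i
    have h2 : 0 < 1 - ε := by linarith
    have h3 : v (mm i) (θ i - t) p + Real.log (1 - ε) ≤ Real.log (x i) := by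
      have h4 := Real.log_le_log (by positivity) h1
      rwa [Real.log_mul (Real.exp_pos _).ne' h2.ne', Real.log_exp] at h4
    have h5 : -(2 * ε) ≤ Real.log (1 - ε) := by
      have h6 := Real.log_le_sub_one_of_pos (x := 1 / (1 - ε)) (by positivity)
      rw [one_div, Real.log_inv] at h6
      have h7 : (1 - ε)⁻¹ ≤ 1 + 2 * ε := by
        rw [inv_le_iff_one_le_mul₀ h2]
        nlinarith
      linarith
    linarith
  have hVp : ∀ i, Real.log (x i) - 2 * ε ≤ v (mp i) (p (mp i) + t) p := by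
    intro i
    rw [hmpv i]
    have h1 := hup i
    have h2 : 0 < 1 + ε := by linarith
    have h3 : Real.log (x i) ≤ v (mp i) (θ i + t) p + Real.log (1 + ε) := by
      have h4 := Real.log_le_log (hx i) h1
      rwa [Real.log_mul (Real.exp_pos _).ne' h2.ne', Real.log_exp] at h4
    have h5 : Real.log (1 + ε) ≤ ε := by
      have := Real.log_le_sub_one_of_pos h2
      linarith
    linarith
  have hterm : ∀ i, (((D i).toNat : ℝ) * v (mm i) (p (mm i) - t) p
        - ((-D i).toNat : ℝ) * v (mp i) (p (mp i) + t) p)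
      ≤ (D i : ℝ) * Real.log (x i) + 2 * ε * ((|D i| : ℤ) : ℝ) := by
    intro i
    have h1 : ((D i).toNat : ℝ) * v (mm i) (p (mm i) - t) p
        ≤ ((D i).toNat : ℝ) * (Real.log (x i) + 2 * ε) :=
      mul_le_mul_of_nonneg_left (hVm i) (Nat.cast_nonneg _)
    have h2 : ((-D i).toNat : ℝ) * (Real.log (x i) - 2 * ε)
        ≤ ((-D i).toNat : ℝ) * v (mp i) (p (mp i) + t) p :=
      mul_le_mul_of_nonneg_left (hVp i) (Nat.cast_nonneg _)
    rw [← toNat_add_toNat_neg (D i)]
    have e3 : (D i : ℝ) = ((D i).toNat : ℝ) - ((-D i).toNat : ℝ) :=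
      (toNat_sub_toNat_neg (D i)).symm
    rw [e3]
    nlinarith
  have hsum := hS.trans (Finset.sum_le_sum fun i _ => hterm i)
  rw [Finset.sum_add_distrib, ← Finset.mul_sum] at hsum
  have hDN : ∑ i, ((|D i| : ℤ) : ℝ) ≤ N := by
    have : ((∑ i, |D i| : ℤ) : ℝ) ≤ ((N : ℤ) : ℝ) := by exact_mod_cast hD
    push_cast at this ⊢
    exact this
  have : 2 * ε * ∑ i, ((|D i| : ℤ) : ℝ) ≤ 2 * N * ε := by
    have h := mul_le_mul_of_nonneg_left hDN (by positivity : 0 ≤ 2 * ε)
    linarith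
  linarith

end Main

/-- Block B. -/
theorem barrierExists_of_triExists (h : TriExists) : BarrierExists := by
  intro k N σ
  obtain ⟨Lam, kap, hLam, hkap, hTri⟩ := h k (max N 2)
  set N' := max N 2 with hN'
  set A : ℝ := 2 * k * Lam + 1 with hA
  have hA1 : 1 ≤ A := by
    have : 0 ≤ 2 * (k : ℝ) * Lam := by positivity
    linarith
  have hApos : 0 < A := by linarith
  set sg : ℝ := max 1 (σ + N') + Real.log A with hsg
  have hlogA : 0 ≤ Real.log A := Real.log_nonneg hA1
  have hsg1 : 1 ≤ sg := by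
    have := le_max_left 1 (σ + (N' : ℝ))
    linarith
  obtain ⟨Q, v, hv, hsep⟩ := hTri sg hsg1
  have hN2 : 2 ≤ N' := le_max_right _ _
  have hNN' : (N : ℝ) ≤ N' := by exact_mod_cast le_max_left N 2
  -- the size of `ε`
  have hexp : Real.exp (-sg) ≤ A⁻¹ := by
    rw [← Real.exp_log (inv_pos.mpr hApos), Real.log_inv]
    apply Real.exp_le_exp.mpr
    have : 0 ≤ max 1 (σ + (N' : ℝ)) := le_trans zero_le_one (le_max_left _ _)
    linarith
  have hε : (k : ℝ) * Lam * Real.exp (-sg) ≤ 1 / 2 := by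
    have h1 : (k : ℝ) * Lam * Real.exp (-sg) ≤ (k : ℝ) * Lam * A⁻¹ :=
      mul_le_mul_of_nonneg_left hexp (by positivity)
    have h2 : (k : ℝ) * Lam * A⁻¹ ≤ 1 / 2 := by
      rw [← div_eq_mul_inv, div_le_iff₀ hApos, hA]
      linarith
    linarith
  have hε0 : 0 ≤ (k : ℝ) * Lam * Real.exp (-sg) := by positivity
  refine ⟨gB v, ⟨continuous_gB hv hLam, gB_nonneg, ⟨Q, fun θ i => gB_lower hv θ i⟩,
    ⟨Q, fun θ L hL => gB_upper hv θ L hL⟩, ?_⟩⟩
  intro x θ hx hmax D hD hpos
  have hD' : (∑ i, |D i|) ≤ (N' : ℤ) := by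
    refine hD.trans ?_
    exact_mod_cast le_max_left N 2
  have hm := sep_main hv hLam hkap hsep hN2 hε hx hmax D hD' hpos
  have h1 : σ + N' ≤ sg := by
    have := le_max_right 1 (σ + (N' : ℝ))
    linarith
  have h2 : 2 * (N' : ℝ) * ((k : ℝ) * Lam * Real.exp (-sg)) ≤ N' := by
    have hN0 : (0 : ℝ) ≤ N' := Nat.cast_nonneg _
    nlinarith
  linarith

end Crest.Agent.Lib.MAK
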