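import Crest.Agent.Lib.MAK.Defs

/-!
# S0122 Block B, step 2: the integrals `G j P c = ∫_{τ ≤ P} exp (v j τ c) dτ`.
-/

set_option autoImplicit false

namespace Crest.Agent.Lib.MAK

open MeasureTheory Set Filter Topology

/-- `∫_{τ ≤ P} exp (w τ) dτ`. -/
noncomputable def Gw (w : ℝ → ℝ) (P : ℝ) : ℝ := ∫ τ in Iic P, Real.exp (w τ)

section Gw

variable {w w' : ℝ → ℝ} {Q : ℝ}

lemma exp_w_integrableOn (hw : Monotone w) (hb : ∀ τ, |w τ - τ| ≤ Q) (P : ℝ) :
    IntegrableOn (fun τ => Real.exp (w τ)) (Iic P) := by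
  have hm : Measurable (fun τ => Real.exp (w τ)) := Real.measurable_exp.comp hw.measurable
  have hg : IntegrableOn (fun τ => Real.exp τ * Real.exp Q) (Iic P) :=
    (integrableOn_exp_Iic P).mul_const _
  refine Integrable.mono' hg hm.aestronglyMeasurable (Eventually.of_forall fun τ => ?_)
  rw [Real.norm_eq_abs, abs_of_pos (Real.exp_pos _), ← Real.exp_add]
  apply Real.exp_le_exp.mpr
  have := (abs_le.mp (hb τ)).2
  linarith

lemma integral_exp_add_Iic (P a : ℝ) : ∫ τ in Iic P, Real.exp (τ + a) = Real.exp (P + a) := by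
  simp_rw [Real.exp_add]
  rw [integral_mul_const, integral_exp_Iic]

lemma integrableOn_exp_add_Iic (P a : ℝ) : IntegrableOn (fun τ => Real.exp (τ + a)) (Iic P) := by
  simp_rw [Real.exp_add]
  exact (integrableOn_exp_Iic P).mul_const _

lemma Gw_nonneg (P : ℝ) : 0 ≤ Gw w P :=
  setIntegral_nonneg measurableSet_Iic fun _ _ => (Real.exp_pos _).le

lemma Gw_sub_bounds (hw : Monotone w) (hb : ∀ τ, |w τ - τ| ≤ Q) {P P' : ℝ} (h : P ≤ P') :
    (P' - P) * Real.exp (w P) ≤ Gw w P' - Gw w P ∧
      Gw w P' - Gw w P ≤ (P' - P) * Real.exp (w P') := by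
  have hsub : Gw w P' - Gw w P = ∫ τ in P..P', Real.exp (w τ) :=
    intervalIntegral.integral_Iic_sub_Iic (exp_w_integrableOn hw hb P)
      (exp_w_integrableOn hw hb P')
  have hmono : Monotone (fun τ => Real.exp (w τ)) := Real.exp_monotone.comp hw
  have hii : IntervalIntegrable (fun τ => Real.exp (w τ)) volume P P' :=
    (hmono.monotoneOn _).intervalIntegrable
  rw [hsub]
  constructor
  · have := intervalIntegral.integral_mono_on (a := P) (b := P') (f := fun _ => Real.exp (w P))
      (g := fun τ => Real.exp (w τ)) h (by simp) hii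
      (fun τ hτ => hmono hτ.1)
    simpa using this
  · have := intervalIntegral.integral_mono_on (a := P) (b := P') (g := fun _ => Real.exp (w P'))
      (f := fun τ => Real.exp (w τ)) h hii (by simp)
      (fun τ hτ => hmono hτ.2)
    simpa using this

lemma Gw_mono (hw : Monotone w) (hb : ∀ τ, |w τ - τ| ≤ Q) {P P' : ℝ} (h : P ≤ P') :
    Gw w P ≤ Gw w P' := by
  have := (Gw_sub_bounds hw hb h).1
  have h2 : 0 ≤ (P' - P) * Real.exp (w P) :=
    mul_nonneg (sub_nonneg.mpr h) (Real.exp_pos _).le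
  linarith

lemma Gw_bounds (hw : Monotone w) (hb : ∀ τ, |w τ - τ| ≤ Q) (P : ℝ) :
    Real.exp (P - Q) ≤ Gw w P ∧ Gw w P ≤ Real.exp (P + Q) := by
  constructor
  · have := setIntegral_mono (s := Iic P) (f := fun τ => Real.exp (τ + (-Q)))
      (g := fun τ => Real.exp (w τ)) (integrableOn_exp_add_Iic P _)
      (exp_w_integrableOn hw hb P)
      (fun τ => Real.exp_le_exp.mpr (by have := (abs_le.mp (hb τ)).1; linarith))
    rw [integral_exp_add_Iic] at this
    simpa [sub_eq_add_neg, Gw] using this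
  · have := setIntegral_mono (s := Iic P) (g := fun τ => Real.exp (τ + Q))
      (f := fun τ => Real.exp (w τ)) (exp_w_integrableOn hw hb P)
      (integrableOn_exp_add_Iic P _)
      (fun τ => Real.exp_le_exp.mpr (by have := (abs_le.mp (hb τ)).2; linarith))
    rw [integral_exp_add_Iic] at this
    simpa [Gw] using this

lemma integral_Iic_add_right (f : ℝ → ℝ) (P s : ℝ) :
    ∫ τ in Iic P, f (τ + s) = ∫ τ in Iic (P + s), f τ := by
  have h := (measurePreserving_add_right (volume : Measure ℝ) s).setIntegral_preimage_emb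
    (measurableEmbedding_addRight s) f (Iic (P + s))
  have hpre : (fun x => x + s) ⁻¹' Iic (P + s) = Iic P := by
    ext x; simp
  rw [hpre] at h
  exact h

/-- (G3), abstract form. -/
lemma Gw_shift (hw : Monotone w) (hb : ∀ τ, |w τ - τ| ≤ Q)
    (hw' : Monotone w') (hb' : ∀ τ, |w' τ - τ| ≤ Q) {s : ℝ}
    (h : ∀ τ, w τ ≤ w' (τ + s)) (P : ℝ) : Gw w P ≤ Gw w' (P + s) := by
  have hi : IntegrableOn (fun τ => Real.exp (w' (τ + s))) (Iic P) := by
    have h1 := exp_w_integrableOn hw' hb' (P + s)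
    have h2 := (measurePreserving_add_right (volume : Measure ℝ) s).integrableOn_comp_preimage
      (measurableEmbedding_addRight s) (f := fun τ => Real.exp (w' τ)) (s := Iic (P + s))
    have hpre : (fun x => x + s) ⁻¹' Iic (P + s) = Iic P := by
      ext x; simp
    rw [hpre] at h2
    exact h2.mpr h1
  have := setIntegral_mono (s := Iic P) (f := fun τ => Real.exp (w τ))
      (g := fun τ => Real.exp (w' (τ + s))) (exp_w_integrableOn hw hb P) hi
      (fun τ => Real.exp_le_exp.mpr (h τ))
  rw [integral_Iic_add_right (fun τ => Real.exp (w' τ))] at this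
  exact this

end Gw

end Crest.Agent.Lib.MAK
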