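import Crest.Agent.Lib.MAK.BarrierTri

/-!
# S0122 Block B, step 4: sorted rearrangements, the barrier function, continuity and bounds.
-/

set_option autoImplicit false

namespace Crest.Agent.Lib.MAK

open MeasureTheory Set Filter Topology Finset

variable {k : ℕ}

/-- Extension by zero of a `Fin k`-tuple to a sequence. -/
noncomputable def ext (u : Fin k → ℝ) (m : ℕ) : ℝ := if h : m < k then u ⟨m, h⟩ else 0

lemma ext_of_lt (u : Fin k → ℝ) {m : ℕ} (h : m < k) : ext u m = u ⟨m, h⟩ := by
  simp [ext, h]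

lemma ext_fin (u : Fin k → ℝ) (m : Fin k) : ext u m = u m := by
  simp [ext, m.2]

lemma continuous_ext (m : ℕ) : Continuous (fun u : Fin k → ℝ => ext u m) := by
  by_cases h : m < k
  · simp only [ext, h, dite_true]
    exact continuous_apply _
  · simp only [ext, h, dite_false]
    exact continuous_const

/-- The sorting permutation (in decreasing order). -/
noncomputable def sortPerm (θ : Fin k → ℝ) : Equiv.Perm (Fin k) := Tuple.sort (fun i => - θ i)

/-- The decreasing rearrangement of `θ`. -/
noncomputable def sθ (θ : Fin k → ℝ) : Fin k → ℝ := θ ∘ sortPerm θ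

lemma sθ_antitone (θ : Fin k → ℝ) : Antitone (sθ θ) := by
  intro a b hab
  have := Tuple.monotone_sort (fun i => - θ i) hab
  simp only [Function.comp, neg_le_neg_iff] at this
  exact this

lemma sθ_eq_of_antitone {θ : Fin k → ℝ} {π : Equiv.Perm (Fin k)} (h : Antitone (θ ∘ π)) :
    θ ∘ π = sθ θ := by
  have hm : Monotone ((fun i => - θ i) ∘ π) := by
    intro a b hab
    simp only [Function.comp, neg_le_neg_iff]
    exact h hab
  have := Tuple.comp_sort_eq_comp_iff_monotone.mpr hm
  funext a
  have h2 := congrFun this a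
  simp only [Function.comp, neg_inj] at h2
  exact h2

/-- The sequence attached to `θ`. -/
noncomputable def Ps (θ : Fin k → ℝ) : ℕ → ℝ := ext (sθ θ)

lemma Ps_eq_of_antitone {θ : Fin k → ℝ} {π : Equiv.Perm (Fin k)} (h : Antitone (θ ∘ π)) :
    Ps θ = ext (θ ∘ π) := by
  rw [Ps, sθ_eq_of_antitone h]

lemma Ps_anti (θ : Fin k → ℝ) : ∀ a b, a < b → b < k → Ps θ b ≤ Ps θ a := by
  intro a b hab hb
  have ha : a < k := hab.trans hb
  simp only [Ps, ext_of_lt _ hb, ext_of_lt _ ha]
  exact sθ_antitone θ (Fin.mk_le_mk.mpr hab.le)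

/-- The order statistics are `1`-Lipschitz (one side). -/
lemma sθ_le_add (θ θ' : Fin k → ℝ) {δ : ℝ} (h : ∀ i, θ i ≤ θ' i + δ) (m : Fin k) :
    sθ θ m ≤ sθ θ' m + δ := by
  classical
  set A : Finset (Fin k) := (Finset.Iic m).map (sortPerm θ).toEmbedding with hA
  set B : Finset (Fin k) := (Finset.Ici m).map (sortPerm θ').toEmbedding with hB
  have hcard : (Finset.univ : Finset (Fin k)).card < A.card + B.card := by
    rw [hA, hB, Finset.card_map, Finset.card_map, Fin.card_Iic, Fin.card_Ici, Finset.card_univ,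
      Fintype.card_fin]
    have := m.2
    omega
  obtain ⟨i, hi⟩ := Finset.inter_nonempty_of_card_lt_card_add_card (Finset.subset_univ A)
    (Finset.subset_univ B) hcard
  obtain ⟨hiA, hiB⟩ := Finset.mem_inter.mp hi
  obtain ⟨a, ha, rfl⟩ := Finset.mem_map.mp hiA
  obtain ⟨b, hb, hbe⟩ := Finset.mem_map.mp hiB
  have h1 : sθ θ m ≤ sθ θ a := sθ_antitone θ (Finset.mem_Iic.mp ha)
  have h2 : sθ θ' b ≤ sθ θ' m := sθ_antitone θ' (Finset.mem_Ici.mp hb)
  have h3 : sθ θ a ≤ sθ θ' b + δ := by
    have e : sθ θ' b = θ' ((sortPerm θ).toEmbedding a) := by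
      simp only [sθ, Function.comp]
      rw [← hbe]
      rfl
    rw [e]
    exact h _
  linarith

lemma continuous_sθ : Continuous (sθ : (Fin k → ℝ) → (Fin k → ℝ)) := by
  refine continuous_pi fun m => ?_
  have : LipschitzWith 1 (fun θ : Fin k → ℝ => sθ θ m) := by
    apply LipschitzWith.of_dist_le_mul
    intro θ θ'
    simp only [NNReal.coe_one, one_mul, Real.dist_eq]
    have hd : ∀ i, |θ i - θ' i| ≤ dist θ θ' := fun i => by
      have := dist_le_pi_dist θ θ' i
      rwa [Real.dist_eq] at this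
    rw [abs_le]
    constructor
    · have := sθ_le_add θ' θ (δ := dist θ θ') (fun i => by
        have := (abs_le.mp (hd i)).1
        linarith) m
      linarith
    · have := sθ_le_add θ θ' (δ := dist θ θ') (fun i => by
        have := (abs_le.mp (hd i)).2
        linarith) m
      linarith
  exact this.continuous

/-- The barrier function. -/
noncomputable def gB (v : ℕ → ℝ → (ℕ → ℝ) → ℝ) (θ : Fin k → ℝ) : ℝ := gg v k (Ps θ)

section

variable {Lam Q : ℝ} {v : ℕ → ℝ → (ℕ → ℝ) → ℝ}

lemma continuous_dist1_ext (j : ℕ) (u₀ : Fin k → ℝ) :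
    Continuous (fun u : Fin k → ℝ => dist1 j (ext u) (ext u₀)) := by
  unfold dist1
  refine continuous_finsetSum _ fun i _ => ?_
  exact ((continuous_ext i).sub continuous_const).abs

lemma continuous_G_ext (hv : IsTri k Lam Q v) (hLam : 0 < Lam) {j : ℕ} (hj : j < k) :
    Continuous (fun u : Fin k → ℝ => G v j (ext u j) (ext u)) := by
  rw [continuous_iff_continuousAt]
  intro u₀
  set a : (Fin k → ℝ) → ℝ := fun u => |ext u j - ext u₀ j| + Lam * dist1 j (ext u) (ext u₀) with ha
  have ha_cont : Continuous a :=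
    ((continuous_ext j).sub continuous_const).abs.add
      (continuous_const.mul (continuous_dist1_ext j u₀))
  have ha0 : a u₀ = 0 := by simp [ha, dist1_self]
  set b : (Fin k → ℝ) → ℝ :=
    fun u => a u * Real.exp (|ext u j| + |ext u₀ j| + a u + Q) with hb
  have hb_cont : Continuous b :=
    ha_cont.mul (Real.continuous_exp.comp
      ((((continuous_ext j).abs.add continuous_const).add ha_cont).add continuous_const))
  have hb0 : b u₀ = 0 := by simp [hb, ha0]
  have hbt : Tendsto b (𝓝 u₀) (𝓝 0) := by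
    have := hb_cont.tendsto u₀
    rwa [hb0] at this
  rw [ContinuousAt, tendsto_iff_norm_sub_tendsto_zero]
  refine squeeze_zero (fun _ => norm_nonneg _) (fun u => ?_) hbt
  have ha_nonneg : 0 ≤ a u := add_nonneg (abs_nonneg _) (mul_nonneg hLam.le (dist1_nonneg _ _ _))
  rw [Real.norm_eq_abs, abs_le']
  constructor
  · have := hv.G_sub_le hj (ext u j) (ext u₀ j) (ext u) (ext u₀) (a := a u) le_rfl hLam
    refine this.trans (mul_le_mul_of_nonneg_left (Real.exp_le_exp.mpr ?_) ha_nonneg)
    have h1 := le_abs_self (ext u₀ j)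
    have h2 := abs_nonneg (ext u j)
    linarith
  · have := hv.G_sub_le hj (ext u₀ j) (ext u j) (ext u₀) (ext u) (a := a u)
      (by
        simp only [ha]
        rw [abs_sub_comm, dist1_comm]) hLam
    have h3 : a u * Real.exp (ext u j + a u + Q) ≤ b u :=
      mul_le_mul_of_nonneg_left (Real.exp_le_exp.mpr (by
        have h1 := le_abs_self (ext u j)
        have h2 := abs_nonneg (ext u₀ j)
        linarith)) ha_nonneg
    linarith

lemma continuous_gB (hv : IsTri k Lam Q v) (hLam : 0 < Lam) :
    Continuous (gB v : (Fin k → ℝ) → ℝ) := by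
  have h : Continuous (fun u : Fin k → ℝ => gg v k (ext u)) := by
    unfold gg
    refine continuous_finsetSum _ fun j hj => ?_
    exact continuous_G_ext hv hLam (Finset.mem_range.mp hj)
  exact h.comp continuous_sθ

lemma gB_nonneg (θ : Fin k → ℝ) : 0 ≤ gB v θ := gg_nonneg _

lemma gB_lower (hv : IsTri k Lam Q v) (θ : Fin k → ℝ) (i : Fin k) :
    Real.exp (θ i - Q) ≤ gB v θ := by
  set m := (sortPerm θ).symm i with hm
  have hval : Ps θ m = θ i := by
    rw [Ps, ext_fin]
    simp [sθ, hm]
  have h1 := (hv.G2 m.2 (Ps θ) (Ps θ m)).1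
  rw [hval] at h1
  refine h1.trans ?_
  unfold gB gg
  have := Finset.single_le_sum (f := fun l => G v l (Ps θ l) (Ps θ)) (s := Finset.range k)
    (fun l _ => G_nonneg _ _ _) (Finset.mem_range.mpr m.2)
  rw [hval] at this
  rw [← hval]
  simpa [hval] using this

lemma gB_upper (hv : IsTri k Lam Q v) (θ : Fin k → ℝ) (L : ℝ) (h : ∀ i, θ i ≤ L) :
    gB v θ ≤ k * Real.exp (L + Q) := by
  unfold gB gg
  have : ∀ l ∈ Finset.range k, G v l (Ps θ l) (Ps θ) ≤ Real.exp (L + Q) := by
    intro l hl
    have hl' := Finset.mem_range.mp hl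
    refine (hv.G2 hl' _ _).2.trans (Real.exp_le_exp.mpr ?_)
    have : Ps θ l ≤ L := by
      simp only [Ps, ext_of_lt _ hl', sθ, Function.comp]
      exact h _
    linarith
  have h2 := Finset.sum_le_sum this
  simpa using h2

end

end Crest.Agent.Lib.MAK
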