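import Crest.Agent.Lib.MAK.BarrierG

/-!
# S0122 Block B, steps 1-3 and the raising / lowering estimates.
-/

set_option autoImplicit false

namespace Crest.Agent.Lib.MAK

open MeasureTheory Set Filter Topology Finset

/-! ### `dist1` -/

lemma dist1_self (j : ℕ) (c : ℕ → ℝ) : dist1 j c c = 0 := by simp [dist1]

lemma dist1_nonneg (j : ℕ) (c c' : ℕ → ℝ) : 0 ≤ dist1 j c c' :=
  Finset.sum_nonneg fun _ _ => abs_nonneg _

lemma dist1_comm (j : ℕ) (c c' : ℕ → ℝ) : dist1 j c c' = dist1 j c' c := by
  simp [dist1, abs_sub_comm]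

lemma dist1_eq_zero_of_eq {j : ℕ} {c c' : ℕ → ℝ} (h : ∀ i < j, c i = c' i) : dist1 j c c' = 0 := by
  apply Finset.sum_eq_zero
  intro i hi
  simp [h i (Finset.mem_range.mp hi)]

lemma dist1_update_of_lt {j m : ℕ} (hm : m < j) (p : ℕ → ℝ) (a : ℝ) :
    dist1 j (Function.update p m a) p = |a - p m| := by
  unfold dist1
  rw [Finset.sum_eq_single m]
  · simp
  · intro b _ hb
    simp [Function.update_of_ne hb]
  · intro h
    exact absurd (Finset.mem_range.mpr hm) h

/-! ### The family `G` -/

/-- `G j P c = ∫_{τ ≤ P} exp (v j τ c) dτ`. -/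
noncomputable def G (v : ℕ → ℝ → (ℕ → ℝ) → ℝ) (j : ℕ) (P : ℝ) (c : ℕ → ℝ) : ℝ :=
  Gw (fun τ => v j τ c) P

/-- `∑_{m < n} G m (p m) p`. -/
noncomputable def gg (v : ℕ → ℝ → (ℕ → ℝ) → ℝ) (n : ℕ) (p : ℕ → ℝ) : ℝ :=
  ∑ m ∈ Finset.range n, G v m (p m) p

section Tri

variable {n : ℕ} {Lam Q : ℝ} {v : ℕ → ℝ → (ℕ → ℝ) → ℝ}

lemma IsTri.mono (hv : IsTri n Lam Q v) {j : ℕ} (hj : j < n) (c : ℕ → ℝ) :
    Monotone (fun τ => v j τ c) := by
  intro z z' h
  apply hv.cone j hj z z' c c
  rw [dist1_self]; simpa using h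

lemma IsTri.local (hv : IsTri n Lam Q v) {j : ℕ} (hj : j < n) {c c' : ℕ → ℝ}
    (h : dist1 j c c' = 0) (z : ℝ) : v j z c = v j z c' := by
  apply le_antisymm
  · exact hv.cone j hj z z c c' (by rw [h]; simp)
  · exact hv.cone j hj z z c' c (by rw [dist1_comm, h]; simp)

lemma IsTri.local' (hv : IsTri n Lam Q v) {j : ℕ} (hj : j < n) {c c' : ℕ → ℝ}
    (h : ∀ i < j, c i = c' i) (z : ℝ) : v j z c = v j z c' :=
  hv.local hj (dist1_eq_zero_of_eq h) z

lemma IsTri.exp_le (hv : IsTri n Lam Q v) {j : ℕ} (hj : j < n) (z : ℝ) (c : ℕ → ℝ) :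
    Real.exp (v j z c) ≤ Real.exp (z + Q) :=
  Real.exp_le_exp.mpr (by have := (abs_le.mp (hv.bound j hj z c)).2; linarith)

lemma IsTri.G_congr (hv : IsTri n Lam Q v) {j : ℕ} (hj : j < n) {c c' : ℕ → ℝ}
    (h : ∀ i < j, c i = c' i) (P : ℝ) : G v j P c = G v j P c' := by
  have : (fun τ => v j τ c) = (fun τ => v j τ c') := by
    funext τ
    exact hv.local' hj h τ
  unfold G
  rw [this]

lemma G_nonneg (j : ℕ) (P : ℝ) (c : ℕ → ℝ) : 0 ≤ G v j P c := Gw_nonneg P

lemma gg_nonneg (p : ℕ → ℝ) : 0 ≤ gg v n p := Finset.sum_nonneg fun _ _ => G_nonneg _ _ _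

lemma IsTri.G1 (hv : IsTri n Lam Q v) {j : ℕ} (hj : j < n) (c : ℕ → ℝ) {P P' : ℝ} (h : P ≤ P') :
    (P' - P) * Real.exp (v j P c) ≤ G v j P' c - G v j P c ∧
      G v j P' c - G v j P c ≤ (P' - P) * Real.exp (v j P' c) :=
  Gw_sub_bounds (hv.mono hj c) (hv.bound j hj · c) h

lemma IsTri.G2 (hv : IsTri n Lam Q v) {j : ℕ} (hj : j < n) (c : ℕ → ℝ) (P : ℝ) :
    Real.exp (P - Q) ≤ G v j P c ∧ G v j P c ≤ Real.exp (P + Q) :=
  Gw_bounds (hv.mono hj c) (hv.bound j hj · c) P

lemma IsTri.G3 (hv : IsTri n Lam Q v) {j : ℕ} (hj : j < n) {c c' : ℕ → ℝ} {s : ℝ}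
    (h : Lam * dist1 j c c' ≤ s) (P : ℝ) : G v j P c ≤ G v j (P + s) c' :=
  Gw_shift (hv.mono hj c) (hv.bound j hj · c) (hv.mono hj c') (hv.bound j hj · c')
    (fun τ => hv.cone j hj τ (τ + s) c c' (by linarith)) P

lemma IsTri.G4a (hv : IsTri n Lam Q v) (hLam : 0 < Lam) {j : ℕ} (hj : j < n) (c c' : ℕ → ℝ)
    (P : ℝ) : G v j P c - G v j P c' ≤ Lam * dist1 j c c' * Real.exp (v j P c) := by
  set s := Lam * dist1 j c c' with hs
  have hs0 : 0 ≤ s := mul_nonneg hLam.le (dist1_nonneg _ _ _)
  have h1 : G v j (P - s) c ≤ G v j (P - s + s) c' := hv.G3 hj le_rfl _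
  rw [sub_add_cancel] at h1
  have h2 := (hv.G1 hj c (P := P - s) (P' := P) (by linarith)).2
  have e : P - (P - s) = s := by ring
  rw [e] at h2
  linarith

lemma IsTri.G4b (hv : IsTri n Lam Q v) (hLam : 0 < Lam) {j : ℕ} (hj : j < n) (c c' : ℕ → ℝ)
    (P : ℝ) : G v j P c - G v j P c' ≤
      Lam * dist1 j c c' * Real.exp (v j (P + Lam * dist1 j c c') c') := by
  set s := Lam * dist1 j c c' with hs
  have hs0 : 0 ≤ s := mul_nonneg hLam.le (dist1_nonneg _ _ _)
  have h1 : G v j P c ≤ G v j (P + s) c' := hv.G3 hj le_rfl _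
  have h2 := (hv.G1 hj c' (P := P) (P' := P + s) (by linarith)).2
  have e : P + s - P = s := by ring
  rw [e] at h2
  linarith

/-- A Lipschitz-type bound (one side). -/
lemma IsTri.G_sub_le (hv : IsTri n Lam Q v) {j : ℕ} (hj : j < n) (P P' : ℝ) (c c' : ℕ → ℝ) {a : ℝ}
    (ha : |P - P'| + Lam * dist1 j c c' ≤ a) (hLam : 0 < Lam) :
    G v j P c - G v j P' c' ≤ a * Real.exp (P' + a + Q) := by
  have hd : 0 ≤ Lam * dist1 j c c' := mul_nonneg hLam.le (dist1_nonneg _ _ _)
  have ha0 : 0 ≤ a := le_trans (add_nonneg (abs_nonneg _) hd) ha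
  have h1 : G v j P c ≤ G v j (P + (P' + a - P)) c' :=
    hv.G3 hj (by
      have := le_abs_self (P - P')
      linarith) P
  have e : P + (P' + a - P) = P' + a := by ring
  rw [e] at h1
  have h2 := (hv.G1 hj c' (P := P') (P' := P' + a) (by linarith)).2
  have e2 : P' + a - P' = a := by ring
  rw [e2] at h2
  have h3 : a * Real.exp (v j (P' + a) c') ≤ a * Real.exp (P' + a + Q) :=
    mul_le_mul_of_nonneg_left (hv.exp_le hj _ _) ha0
  linarith

/-! ### Two-slot separation -/

lemma sum_ite_mul_range {m n : ℕ} (hm : m < n) (a : ℕ → ℝ) :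
    ∑ j ∈ Finset.range n, (((if j = m then 1 else 0 : ℕ) : ℝ) * a j) = a m := by
  rw [Finset.sum_eq_single m]
  · simp
  · intro b _ hb; simp [hb]
  · intro h; exact absurd (Finset.mem_range.mpr hm) h

lemma sep_two {N : ℕ} {kap sg : ℝ} (hsep : Sep n N kap sg v) (hN : 2 ≤ N) {m l : ℕ}
    (hm : m < n) (hl : l < n) {c : ℕ → ℝ} (h : c l < c m) :
    sg ≤ v m (c m) c - v l (c l) c := by
  have hmass : ∑ j ∈ Finset.range n, ((if j = m then 1 else 0 : ℕ) + (if j = l then 1 else 0 : ℕ))
      ≤ N := by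
    rw [Finset.sum_add_distrib, Finset.sum_ite_eq', Finset.sum_ite_eq']
    simp [hm, hl]
    omega
  have := hsep (fun j => if j = m then 1 else 0) (fun j => if j = l then 1 else 0) hmass c 0
    le_rfl zero_le_one (by
      have e : ∀ j, (((if j = m then 1 else 0 : ℕ) : ℝ) - ((if j = l then 1 else 0 : ℕ) : ℝ)) * c j
          = ((if j = m then 1 else 0 : ℕ) : ℝ) * c j - ((if j = l then 1 else 0 : ℕ) : ℝ) * c j := by
        intro j; ring
      simp only [e]
      rw [Finset.sum_sub_distrib, sum_ite_mul_range hm, sum_ite_mul_range hl]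
      simpa using h)
  have e : ∀ j, (((if j = m then 1 else 0 : ℕ) : ℝ) * v j (c j - 0) c
        - ((if j = l then 1 else 0 : ℕ) : ℝ) * v j (c j + 0) c)
      = ((if j = m then 1 else 0 : ℕ) : ℝ) * v j (c j) c
        - ((if j = l then 1 else 0 : ℕ) : ℝ) * v j (c j) c := by
    intro j; simp
  simp only [e] at this
  rw [Finset.sum_sub_distrib, sum_ite_mul_range hm (fun j => v j (c j) c),
    sum_ite_mul_range hl (fun j => v j (c j) c)] at this
  exact this

/-! ### Raising and lowering -/

lemma gg_raise {N : ℕ} {kap sg : ℝ} (hv : IsTri n Lam Q v) (hLam : 0 < Lam)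
    (hsep : Sep n N kap sg v) (hN : 2 ≤ N) {p : ℕ → ℝ}
    (hanti : ∀ a b, a < b → b < n → p b ≤ p a) {m : ℕ} (hm : m < n) {t : ℝ} (ht : 0 < t) :
    gg v n (Function.update p m (p m + t)) - gg v n p ≤
      t * Real.exp (v m (p m + t) p) * (1 + n * Lam * Real.exp (-sg)) := by
  set pt := Function.update p m (p m + t) with hpt
  set E := Real.exp (v m (p m + t) p) with hE
  have hEpos : 0 < E := Real.exp_pos _
  have hterm : ∀ l ∈ Finset.range n, G v l (pt l) pt - G v l (p l) p ≤
      (if l = m then t * E else 0) + Lam * t * Real.exp (-sg) * E := by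
    intro l hl
    have hl' : l < n := Finset.mem_range.mp hl
    have hpos : 0 ≤ Lam * t * Real.exp (-sg) * E := by positivity
    rcases lt_trichotomy l m with hlm | hlm | hlm
    · -- `l < m`: the term is identical
      have e1 : pt l = p l := by simp [hpt, Function.update_of_ne hlm.ne]
      have e2 : G v l (p l) pt = G v l (p l) p := hv.G_congr hl' (fun i hi => by
          simp [hpt, Function.update_of_ne (hi.trans hlm).ne]) _
      rw [e1, e2, if_neg hlm.ne]
      simpa using hpos
    · subst hlm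
      have e1 : pt l = p l + t := by simp [hpt]
      have e2 : G v l (p l + t) pt = G v l (p l + t) p := hv.G_congr hl' (fun i hi => by
          simp [hpt, Function.update_of_ne hi.ne]) _
      rw [e1, e2, if_pos rfl]
      have h1 := (hv.G1 hl' p (P := p l) (P' := p l + t) (by linarith)).2
      have e3 : p l + t - p l = t := by ring
      rw [e3] at h1
      linarith
    · -- `m < l`
      have e1 : pt l = p l := by simp [hpt, Function.update_of_ne hlm.ne']
      have hd : dist1 l pt p = t := by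
        rw [hpt, dist1_update_of_lt hlm]
        simp [abs_of_pos ht]
      have h1 := hv.G4a hLam hl' pt p (p l)
      rw [hd] at h1
      have hgap : pt l < pt m := by
        have h2 := hanti m l hlm hl'
        have e2 : pt m = p m + t := by simp [hpt]
        rw [e1, e2]
        linarith
      have h2 := sep_two hsep hN hm hl' hgap
      have e2 : pt m = p m + t := by simp [hpt]
      rw [e1, e2] at h2
      have e3 : v m (p m + t) pt = v m (p m + t) p :=
        hv.local' hm (fun i hi => by simp [hpt, Function.update_of_ne hi.ne]) _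
      rw [e3] at h2
      have h3 : Real.exp (v l (p l) pt) ≤ Real.exp (-sg) * E := by
        rw [hE, ← Real.exp_add]
        exact Real.exp_le_exp.mpr (by linarith)
      rw [e1, if_neg hlm.ne']
      have h4 : Lam * t * Real.exp (v l (p l) pt) ≤ Lam * t * (Real.exp (-sg) * E) :=
        mul_le_mul_of_nonneg_left h3 (by positivity)
      nlinarith
  have hsum : gg v n pt - gg v n p = ∑ l ∈ Finset.range n, (G v l (pt l) pt - G v l (p l) p) := by
    unfold gg
    rw [Finset.sum_sub_distrib]
  rw [hsum]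
  refine (Finset.sum_le_sum hterm).trans ?_
  rw [Finset.sum_add_distrib, Finset.sum_ite_eq', if_pos (Finset.mem_range.mpr hm),
    Finset.sum_const, Finset.card_range, nsmul_eq_mul]
  apply le_of_eq
  ring

lemma gg_lower {N : ℕ} {kap sg : ℝ} (hv : IsTri n Lam Q v) (hLam : 0 < Lam)
    (hsep : Sep n N kap sg v) (hN : 2 ≤ N) {p : ℕ → ℝ} {m : ℕ} (hm : m < n) {t : ℝ} (ht : 0 < t)
    (hgap : ∀ l, m < l → l < n → p l + t * (1 + 2 * Lam) < p m) :
    t * Real.exp (v m (p m - t) p) * (1 - n * Lam * Real.exp (-sg)) ≤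
      gg v n p - gg v n (Function.update p m (p m - t)) := by
  set pt := Function.update p m (p m - t) with hpt
  set E := Real.exp (v m (p m - t) p) with hE
  have hEpos : 0 < E := Real.exp_pos _
  have hterm : ∀ l ∈ Finset.range n,
      (if l = m then t * E else 0) - Lam * t * Real.exp (-sg) * E ≤
        G v l (p l) p - G v l (pt l) pt := by
    intro l hl
    have hl' : l < n := Finset.mem_range.mp hl
    have hpos : 0 ≤ Lam * t * Real.exp (-sg) * E := by positivity
    rcases lt_trichotomy l m with hlm | hlm | hlm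
    · have e1 : pt l = p l := by simp [hpt, Function.update_of_ne hlm.ne]
      have e2 : G v l (p l) pt = G v l (p l) p := hv.G_congr hl' (fun i hi => by
          simp [hpt, Function.update_of_ne (hi.trans hlm).ne]) _
      rw [e1, e2, if_neg hlm.ne]
      simpa using hpos
    · subst hlm
      have e1 : pt l = p l - t := by simp [hpt]
      have e2 : G v l (p l - t) pt = G v l (p l - t) p := hv.G_congr hl' (fun i hi => by
          simp [hpt, Function.update_of_ne hi.ne]) _
      rw [e1, e2, if_pos rfl]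
      have h1 := (hv.G1 hl' p (P := p l - t) (P' := p l) (by linarith)).1
      have e3 : p l - (p l - t) = t := by ring
      rw [e3] at h1
      linarith
    · have e1 : pt l = p l := by simp [hpt, Function.update_of_ne hlm.ne']
      have hd : dist1 l pt p = t := by
        rw [hpt, dist1_update_of_lt hlm]
        simp [abs_of_pos ht]
      have h1 := hv.G4b hLam hl' pt p (p l)
      rw [hd] at h1
      -- the auxiliary point `c°`
      set P := p l with hP
      set c0 := Function.update pt l (P + 2 * Lam * t) with hc0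
      have c0m : c0 m = p m - t := by
        simp [hc0, hpt, Function.update_of_ne hlm.ne]
      have c0l : c0 l = P + 2 * Lam * t := by simp [hc0]
      have hgap' : c0 l < c0 m := by
        rw [c0m, c0l]
        have := hgap l hlm hl'
        nlinarith
      have h2 := sep_two hsep hN hm hl' hgap'
      rw [c0m, c0l] at h2
      have e3 : v m (p m - t) c0 = v m (p m - t) p :=
        hv.local' hm (fun i hi => by
          have h1 : i ≠ l := (hi.trans hlm).ne
          simp [hc0, hpt, Function.update_of_ne h1, Function.update_of_ne hi.ne]) _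
      have e4 : v l (P + 2 * Lam * t) c0 = v l (P + 2 * Lam * t) pt :=
        hv.local' hl' (fun i hi => by simp [hc0, Function.update_of_ne hi.ne]) _
      rw [e3, e4] at h2
      have h5 : v l (P + Lam * t) p ≤ v l (P + 2 * Lam * t) pt := by
        apply hv.cone l hl'
        rw [dist1_comm, hd]
        linarith
      have h3 : Real.exp (v l (P + Lam * t) p) ≤ Real.exp (-sg) * E := by
        rw [hE, ← Real.exp_add]
        exact Real.exp_le_exp.mpr (by linarith)
      rw [e1, if_neg hlm.ne']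
      have h4 : Lam * t * Real.exp (v l (P + Lam * t) p) ≤ Lam * t * (Real.exp (-sg) * E) :=
        mul_le_mul_of_nonneg_left h3 (by positivity)
      nlinarith
  have hsum : gg v n p - gg v n pt = ∑ l ∈ Finset.range n, (G v l (p l) p - G v l (pt l) pt) := by
    unfold gg
    rw [Finset.sum_sub_distrib]
  rw [hsum]
  refine le_trans ?_ (Finset.sum_le_sum hterm)
  rw [Finset.sum_sub_distrib, Finset.sum_ite_eq', if_pos (Finset.mem_range.mpr hm),
    Finset.sum_const, Finset.card_range, nsmul_eq_mul]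
  apply le_of_eq
  ring

end Tri

end Crest.Agent.Lib.MAK
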