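import Crest.Agent.Lib.MAK.ConsNeg

/-!
# S0122 block C3: the compact convex absorbing set

We build the set by a descending induction on the size of the species sets that are controlled:
`Stage R k x0 t A` says that `A` is a closed convex forward invariant and absorbing set, on which
every set of species of size at least `t` has a member bounded from below.
-/

set_option autoImplicit false

namespace Crest.Agent.Lib.MAK

open Crest.AnalysisR.MassAction Set Filter Topology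

variable {d : ℕ}

/-- One stage of the construction. -/
structure Stage (R : Network d) (k : (Fin d → ℕ) × (Fin d → ℕ) → ℝ) (x0 : Fin d → ℝ) (t : ℕ)
    (A : Set (Fin d → ℝ)) : Prop where
  closed : IsClosed A
  convex : Convex ℝ A
  base : x0 ∈ A
  cls : ∀ x ∈ A, x - x0 ∈ stoichSubspace R
  upper : ∃ B : ℝ, ∀ x ∈ A, ∀ i, x i ≤ B
  lower : ∃ η : ℝ, 0 < η ∧ ∀ x ∈ A, (∀ i, 0 < x i) → ∀ T : Finset (Fin d), t ≤ T.card →
    ∃ a ∈ T, η ≤ x a
  inv : ∀ (x : ℝ → Fin d → ℝ) (T₁ : ℝ),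
    (∀ s ∈ Icc 0 T₁, HasDerivWithinAt x (field R k (x s)) (Icc 0 T₁) s) →
    (∀ s ∈ Icc 0 T₁, ∀ i, 0 < x s i) → x 0 ∈ A → ∀ s ∈ Icc 0 T₁, x s ∈ A
  abs : ∀ (x : ℝ → Fin d → ℝ) (Γ : Set (Fin d → ℝ)), IsCompact Γ →
    (∀ y ∈ Γ, (∀ i, 0 < y i) ∧ y - x0 ∈ stoichSubspace R) →
    IsForwardSolution (field R k) x → (∀ s, 0 ≤ s → x s ∈ Γ) →
    ∃ T, 0 ≤ T ∧ ∀ s, T ≤ s → x s ∈ A

/-- The image of a solution on a compact interval is a compact set in the orthant and the class. -/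
lemma image_solution (R : Network d) (k : (Fin d → ℕ) × (Fin d → ℕ) → ℝ) (x0 : Fin d → ℝ)
    {x : ℝ → Fin d → ℝ} {T₁ : ℝ}
    (hx : ∀ s ∈ Icc 0 T₁, HasDerivWithinAt x (field R k (x s)) (Icc 0 T₁) s)
    (hpos : ∀ s ∈ Icc 0 T₁, ∀ i, 0 < x s i) (h0 : x 0 - x0 ∈ stoichSubspace R) :
    IsCompact (x '' Icc 0 T₁) ∧
      ∀ y ∈ x '' Icc 0 T₁, (∀ i, 0 < y i) ∧ y - x0 ∈ stoichSubspace R := by
  refine ⟨isCompact_Icc.image_of_continuousOn fun s hs => (hx s hs).continuousWithinAt, ?_⟩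
  rintro y ⟨s, hs, rfl⟩
  refine ⟨hpos s hs, ?_⟩
  have h1 := solution_class R k x T₁ hx s hs
  have h2 : x s - x0 = (x s - x 0) + (x 0 - x0) := by abel
  rw [h2]
  exact (stoichSubspace R).add_mem h1 h0

/-- The barrier data of the upper constraint. -/
lemma data_top (R : Network d) (k : (Fin d → ℕ) × (Fin d → ℕ) → ℝ) (κ : ℝ)
    (hκ : FluxProp R k κ) (x0 : Fin d → ℝ) {g : (Fin d → ℝ) → ℝ}
    (hg : IsBarrier d (netN R) (Real.log κ) g) {B : ℝ}
    (hB : ∀ ν, dot ν x0 - g ν < B)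
    {Γ : Set (Fin d → ℝ)} (hΓ : IsCompact Γ)
    (hΓ' : ∀ y ∈ Γ, (∀ i, 0 < y i) ∧ y - x0 ∈ stoichSubspace R) :
    BarrierData (field R k) univ g B Γ Γ := by
  obtain ⟨Q, hQ⟩ := hg.lower
  obtain ⟨m, A, hm, hA, hbd⟩ := exists_bounds hΓ fun x hx => (hΓ' x hx).1
  obtain ⟨R₀, hR₀⟩ := upper_bound_max g Q hQ hg.nonneg m A hm hA
  refine ⟨continuous_field' R k, isClosed_univ, hg.cont, hΓ, subset_rfl, ?_, ?_, ?_, ?_⟩
  · exact hΓ.isClosed
  · intro x hx
    exact exists_isMax_of_bound isClosed_univ hg.cont x 0 (mem_univ _) R₀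
      fun ν _ h => hR₀ x (hbd x hx) ν h
  · refine ⟨R₀, fun x hx ν hν => hR₀ x (hbd x hx) ν ?_⟩
    exact hν.2 0 (mem_univ _)
  · intro x hx ν hν hval
    have hxpos := (hΓ' x hx).1
    have hCLM : CoordLocalMax g x ν := by
      intro i
      refine Eventually.of_forall fun τ => ?_
      have hmax := hν.2 (Function.update ν i (ν i + τ)) (mem_univ _)
      rw [dot_update] at hmax
      have : ν i + τ - ν i = τ := by ring
      rw [this] at hmax
      linarith
    have halign : ∀ r ∈ R, ∀ r' ∈ R, 0 < ∑ i, ν i * ((r.1 i : ℝ) - r'.1 i) →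
        Real.log κ ≤ ∑ i, Real.log (x i) * ((r.1 i : ℝ) - r'.1 i) := by
      intro r hr r' hr' h0
      set D : Fin d → ℤ := fun i => (r.1 i : ℤ) - (r'.1 i : ℤ) with hD
      have hDc : ∀ i, (D i : ℝ) = (r.1 i : ℝ) - r'.1 i := fun i => by simp [hD]
      have h0' : 0 < ∑ i, (D i : ℝ) * ν i := by
        have : ∑ i, (D i : ℝ) * ν i = ∑ i, ν i * ((r.1 i : ℝ) - r'.1 i) :=
          Finset.sum_congr rfl fun i _ => by rw [hDc]; ring
        rw [this]; exact h0
      have hsep := hg.sep x ν hxpos hCLM D (netN_spec R hr hr') h0'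
      have : ∑ i, (D i : ℝ) * Real.log (x i) = ∑ i, Real.log (x i) * ((r.1 i : ℝ) - r'.1 i) :=
        Finset.sum_congr rfl fun i _ => by rw [hDc]; ring
      rwa [this] at hsep
    refine (hκ x ν hxpos halign).2 ?_
    by_contra hcon
    push Not at hcon
    have hcon' : ∀ r ∈ R, dot ν (reactionVector r) = 0 := hcon
    have heq := dot_eq_of_class R ν x x0 (hΓ' x hx).2 hcon'
    have := hB ν
    linarith

/-- The first stage: the upper constraint. -/
lemma stage_top (R : Network d) (k : (Fin d → ℕ) × (Fin d → ℕ) → ℝ) (κ : ℝ)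
    (hκ : FluxProp R k κ) (x0 : Fin d → ℝ) (hx0 : ∀ i, 0 < x0 i) (hBE : BarrierExists) :
    ∃ A, Stage R k x0 (d + 1) A := by
  classical
  obtain ⟨g, hg⟩ := hBE d (netN R) (Real.log κ)
  obtain ⟨Q, hQ⟩ := hg.lower
  -- the value of the conjugate at `x0`
  obtain ⟨m, A, hm, hA, hbd⟩ := exists_bounds (isCompact_singleton (x := x0))
    (fun x hx i => by rw [mem_singleton_iff.mp hx]; exact hx0 i)
  obtain ⟨R₀, hR₀⟩ := upper_bound_max g Q hQ hg.nonneg m A hm hA
  obtain ⟨ν₀, -, hν₀⟩ := exists_isMax_of_bound (𝒩 := univ) isClosed_univ hg.cont x0 0 (mem_univ _)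
    R₀ fun ν _ h => hR₀ x0 (hbd x0 rfl) ν h
  set B : ℝ := dot ν₀ x0 - g ν₀ + 1 with hBdef
  have hB : ∀ ν, dot ν x0 - g ν < B := fun ν => by
    have := hν₀ ν (mem_univ _)
    linarith
  have hdata : ∀ {Γ : Set (Fin d → ℝ)}, IsCompact Γ →
      (∀ y ∈ Γ, (∀ i, 0 < y i) ∧ y - x0 ∈ stoichSubspace R) →
      BarrierData (field R k) univ g B Γ Γ :=
    fun hΓ hΓ' => data_top R k κ hκ x0 hg hB hΓ hΓ'
  refine ⟨{x | x - x0 ∈ stoichSubspace R} ∩ {x | Con univ g B x}, ?_⟩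
  refine ⟨?_, ?_, ?_, ?_, ?_, ?_, ?_, ?_⟩
  · -- closed
    refine IsClosed.inter ?_ (isClosed_con _ _ _)
    exact ((stoichSubspace R).closed_of_finiteDimensional).preimage
      (continuous_id.sub continuous_const)
  · -- convex
    refine Convex.inter ?_ (convex_con _ _ _)
    intro x hx y hy a b ha hb hab
    have h : a • x + b • y - x0 = a • (x - x0) + b • (y - x0) := by
      have : x0 = (a + b) • x0 := by rw [hab, one_smul]
      conv_lhs => rw [this]
      simp only [smul_sub, add_smul]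
      abel
    show a • x + b • y - x0 ∈ stoichSubspace R
    rw [h]
    exact (stoichSubspace R).add_mem ((stoichSubspace R).smul_mem _ hx)
      ((stoichSubspace R).smul_mem _ hy)
  · -- base
    refine ⟨by simp, fun ν _ => (hB ν).le⟩
  · -- class
    exact fun x hx => hx.1
  · -- upper bound
    refine ⟨B + ∑ j, g (Pi.single j 1), fun x hx i => ?_⟩
    have h1 := hx.2 (Pi.single i 1) (mem_univ _)
    have h2 : dot (Pi.single i (1 : ℝ)) x = x i := by
      simp [dot, Pi.single_apply]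
    rw [h2] at h1
    have h3 : g (Pi.single i 1) ≤ ∑ j, g (Pi.single j 1) :=
      Finset.single_le_sum (f := fun j => g (Pi.single j 1)) (fun j _ => hg.nonneg _)
        (Finset.mem_univ i)
    linarith
  · -- lower bound: vacuous
    refine ⟨1, one_pos, fun x _ _ T hT => ?_⟩
    have := Finset.card_le_univ T
    simp only [Fintype.card_fin] at this
    omega
  · -- invariance
    intro x T₁ hx hpos h0 s hs
    have hT₁ : (0 : ℝ) ≤ T₁ := hs.1.trans hs.2
    obtain ⟨hc, hcl⟩ := image_solution R k x0 hx hpos h0.1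
    refine ⟨(hcl _ ⟨s, hs, rfl⟩).2, ?_⟩
    exact barrier_inv (hdata hc hcl) x 0 T₁ hT₁ hx (fun s hs => ⟨s, hs, rfl⟩) h0.2 s hs
  · -- absorption
    intro x Γ hΓ hΓ' hsol hin
    obtain ⟨T, hT, hcon⟩ := barrier_abs (hdata hΓ hΓ') x 0 hsol hin
    exact ⟨T, hT, fun s hs => ⟨(hΓ' _ (hin s (hT.trans hs))).2, hcon s hs⟩⟩

/-- One descending step of the construction. -/
lemma stage_step (R : Network d) (k : (Fin d → ℕ) × (Fin d → ℕ) → ℝ) (κ : ℝ)
    (hκ : FluxProp R k κ) (x0 : Fin d → ℝ) (hx0 : ∀ i, 0 < x0 i) (hBE : BarrierExists)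
    {t : ℕ} (ht : 1 ≤ t) {A : Set (Fin d → ℝ)} (h : Stage R k x0 (t + 1) A) :
    ∃ A', Stage R k x0 t A' := by
  classical
  obtain ⟨B, hB⟩ := h.upper
  obtain ⟨η, hη, hlow⟩ := h.lower
  obtain ⟨g, hg⟩ := hBE t (netN R)
    (Real.log κ + (netN R : ℝ) * (|Real.log B| + |Real.log η|))
  obtain ⟨Q, hQ⟩ := hg.lower
  obtain ⟨Q', hQ'⟩ := hg.upper
  obtain ⟨m₀, A₀, hm₀, -, hbd₀⟩ := exists_bounds (isCompact_singleton (x := x0))
    (fun x hx i => by rw [mem_singleton_iff.mp hx]; exact hx0 i)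
  have hm₀' : ∀ i, m₀ ≤ x0 i := fun i => (hbd₀ x0 rfl i).1
  -- the constants
  set C : ℝ := min (min m₀ (Real.exp (-1 - Q))) η / 2 with hCdef
  have hmin : 0 < min (min m₀ (Real.exp (-1 - Q))) η :=
    lt_min (lt_min hm₀ (Real.exp_pos _)) hη
  have hC : 0 < C := by rw [hCdef]; linarith
  have hCm : C < m₀ := by
    have : min (min m₀ (Real.exp (-1 - Q))) η ≤ m₀ :=
      (min_le_left _ _).trans (min_le_left _ _)
    rw [hCdef]; linarith
  have hCe : C < Real.exp (-1 - Q) := by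
    have : min (min m₀ (Real.exp (-1 - Q))) η ≤ Real.exp (-1 - Q) :=
      (min_le_left _ _).trans (min_le_right _ _)
    rw [hCdef]; linarith
  have hCη : C < η := by
    have : min (min m₀ (Real.exp (-1 - Q))) η ≤ η := min_le_right _ _
    rw [hCdef]; linarith
  have ht0 : (0 : ℝ) < t := by exact_mod_cast ht
  set L : ℝ := max 1 (Q' - Real.log (C / (2 * t))) with hLdef
  have hL1 : 1 ≤ L := le_max_left _ _
  have hL0 : 0 < L := by linarith
  have hLexp : (t : ℝ) * Real.exp (-L + Q') ≤ C / 2 := by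
    have h1 : -L + Q' ≤ Real.log (C / (2 * t)) := by
      have : Q' - Real.log (C / (2 * t)) ≤ L := le_max_right _ _
      linarith
    have h2 : Real.exp (-L + Q') ≤ C / (2 * t) := by
      calc Real.exp (-L + Q') ≤ Real.exp (Real.log (C / (2 * t))) := Real.exp_le_exp.mpr h1
        _ = C / (2 * t) := Real.exp_log (by positivity)
    calc (t : ℝ) * Real.exp (-L + Q') ≤ t * (C / (2 * t)) := by gcongr
      _ = C / 2 := by field_simp
  set η' : ℝ := min η (C / (2 * L * t)) with hη'def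
  have hη'0 : 0 < η' := lt_min hη (by positivity)
  have hη'η : η' ≤ η := min_le_left _ _
  have hη'C : L * t * η' ≤ C / 2 := by
    have h1 : η' ≤ C / (2 * L * t) := min_le_right _ _
    calc L * t * η' ≤ L * t * (C / (2 * L * t)) := by gcongr
      _ = C / 2 := by field_simp
  -- the constraints
  set Cons : Set (Fin d → ℝ) :=
    {x | ∀ (T : Finset (Fin d)) (hT : T.card = t), Con (negSet T) (resG g T hT) (-C) x} with hCons
  have hdata : ∀ {Γ : Set (Fin d → ℝ)}, IsCompact Γ →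
      (∀ y ∈ Γ, (∀ i, 0 < y i) ∧ y - x0 ∈ stoichSubspace R) →
      ∀ (T : Finset (Fin d)) (hT : T.card = t),
      BarrierData (field R k) (negSet T) (resG g T hT) (-C) Γ (Γ ∩ A) := by
    intro Γ hΓ hΓ' T hT
    obtain ⟨m, A', hm, hA', hbd⟩ := exists_bounds hΓ fun x hx => (hΓ' x hx).1
    obtain ⟨R₀, hR₀⟩ := negSet_bound g hg.nonneg T hT m A' hm hA'
    refine ⟨continuous_field' R k, isClosed_negSet T, continuous_resG hg.cont T hT, hΓ,
      inter_subset_left, hΓ.isClosed.inter h.closed, ?_, ?_, ?_⟩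
    · intro x hx
      exact exists_isMax_of_bound (isClosed_negSet T) (continuous_resG hg.cont T hT) x
        (negConst T 1) (negConst_mem T le_rfl) R₀ fun ν hν hv => hR₀ x (hbd x hx) ν hν hv
    · refine ⟨R₀, fun x hx ν hν => hR₀ x (hbd x hx) ν hν.1 ?_⟩
      exact hν.2 _ (negConst_mem T le_rfl)
    · intro x hx ν hν hval
      have hxpos := (hΓ' x hx.1).1
      exact sign_neg R k κ hκ x0 hg T hT ht hQ hC hCe hCη hCm hη rfl hm₀' hx0 hxpos
        (hΓ' x hx.1).2 (hB x hx.2) (hlow x hx.2 hxpos) hν hval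
  refine ⟨A ∩ Cons, ?_⟩
  have hconsclosed : IsClosed Cons := by
    have : Cons = ⋂ (T : Finset (Fin d)) (hT : T.card = t),
        {x | Con (negSet T) (resG g T hT) (-C) x} := by
      ext x; simp [hCons]
    rw [this]
    exact isClosed_iInter fun T => isClosed_iInter fun hT => isClosed_con _ _ _
  have hconsconvex : Convex ℝ Cons := by
    have : Cons = ⋂ (T : Finset (Fin d)) (hT : T.card = t),
        {x | Con (negSet T) (resG g T hT) (-C) x} := by
      ext x; simp [hCons]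
    rw [this]
    exact convex_iInter fun T => convex_iInter fun hT => convex_con _ _ _
  refine ⟨h.closed.inter hconsclosed, h.convex.inter hconsconvex, ⟨h.base, ?_⟩,
    fun x hx => h.cls x hx.1, ⟨B, fun x hx => hB x hx.1⟩, ⟨η', hη'0, ?_⟩, ?_, ?_⟩
  · -- the base point satisfies the constraints
    intro T hT ν hν
    have hTne : T.Nonempty := by
      rw [← Finset.card_pos, hT]; omega
    obtain ⟨a, ha⟩ := hTne
    have h1 := dot_le_neg hν hx0 ha
    have h2 := hm₀' a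
    have h3 : 0 ≤ resG g T hT ν := hg.nonneg _
    linarith
  · -- the lower bounds
    intro x hx hxpos T hT
    rcases Nat.lt_or_ge t T.card with hlt | hle
    · obtain ⟨a, ha, hxa⟩ := hlow x hx.1 hxpos T hlt
      exact ⟨a, ha, hη'η.trans hxa⟩
    · have hcard : T.card = t := le_antisymm hle hT
      by_contra hcon
      push Not at hcon
      have hcon1 := hx.2 T hcard (negConst T L) (negConst_mem T hL1)
      rw [dot_negConst] at hcon1
      -- the value at the constant normal is too large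
      have hsum : ∑ i ∈ T, x i < t * η' := by
        have hTne : T.Nonempty := by
          rw [← Finset.card_pos, hcard]; omega
        calc ∑ i ∈ T, x i < ∑ _i ∈ T, η' := Finset.sum_lt_sum_of_nonempty hTne hcon
          _ = t * η' := by simp [hcard]
      have hgup : resG g T hcard (negConst T L) ≤ t * Real.exp (-L + Q') := by
        refine hQ' _ (-L) fun a => ?_
        have : T.orderEmbOfFin hcard a ∈ T := Finset.orderEmbOfFin_mem T hcard a
        simp [negConst, this]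
      have h1 : L * ∑ i ∈ T, x i < L * (t * η') := mul_lt_mul_of_pos_left hsum hL0
      have h2 : L * (t * η') = L * t * η' := by ring
      linarith
  · -- invariance
    intro x T₁ hx hpos h0 s hs
    have hT₁ : (0 : ℝ) ≤ T₁ := hs.1.trans hs.2
    have hA := h.inv x T₁ hx hpos h0.1
    obtain ⟨hc, hcl⟩ := image_solution R k x0 hx hpos (h.cls _ h0.1)
    refine ⟨hA s hs, fun T hT => ?_⟩
    exact barrier_inv (hdata hc hcl T hT) x 0 T₁ hT₁ hx
      (fun s hs => ⟨⟨s, hs, rfl⟩, hA s hs⟩) (h0.2 T hT) s hs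
  · -- absorption
    intro x Γ hΓ hΓ' hsol hin
    obtain ⟨T₀, hT₀, hA⟩ := h.abs x Γ hΓ hΓ' hsol hin
    have hev : ∀ T : Finset (Fin d), ∀ᶠ s in atTop, ∀ hT : T.card = t,
        Con (negSet T) (resG g T hT) (-C) (x s) := by
      intro T
      by_cases hT : T.card = t
      · have hderiv : ∀ s, T₀ ≤ s → HasDerivWithinAt x (field R k (x s)) (Ici T₀) s :=
          fun s hs => (hsol s (hT₀.trans hs)).mono (Ici_subset_Ici.mpr hT₀)
        obtain ⟨T₁, -, hT₁⟩ := barrier_abs (hdata hΓ hΓ' T hT) x T₀ hderiv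
          (fun s hs => ⟨hin s (hT₀.trans hs), hA s hs⟩)
        filter_upwards [eventually_ge_atTop T₁] with s hs _
        exact hT₁ s hs
      · exact Eventually.of_forall fun s h => absurd h hT
    have hall := eventually_all.mpr hev
    obtain ⟨T₁, hT₁⟩ := eventually_atTop.mp hall
    refine ⟨max T₀ T₁, hT₀.trans (le_max_left _ _), fun s hs => ?_⟩
    exact ⟨hA s ((le_max_left _ _).trans hs), hT₁ s ((le_max_right _ _).trans hs)⟩

/-- All stages exist. -/
lemma exists_stage (R : Network d) (k : (Fin d → ℕ) × (Fin d → ℕ) → ℝ) (κ : ℝ)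
    (hκ : FluxProp R k κ) (x0 : Fin d → ℝ) (hx0 : ∀ i, 0 < x0 i) (hBE : BarrierExists) :
    ∃ A, Stage R k x0 1 A := by
  have key : ∀ n t : ℕ, 1 ≤ t → t + n = d + 1 → ∃ A, Stage R k x0 t A := by
    intro n
    induction n with
    | zero =>
      intro t _ h
      have : t = d + 1 := by omega
      subst this
      exact stage_top R k κ hκ x0 hx0 hBE
    | succ n ih =>
      intro t ht h
      obtain ⟨A, hA⟩ := ih (t + 1) (by omega) (by omega)
      exact stage_step R k κ hκ x0 hx0 hBE ht hA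
  exact key d 1 le_rfl (by omega)

/-- The set attached to a base point. -/
theorem exists_K (R : Network d) (hR : IsWeaklyReversible R)
    (k : (Fin d → ℕ) × (Fin d → ℕ) → ℝ) (hk : ∀ r ∈ R, 0 < k r) (hBE : BarrierExists)
    (x0 : Fin d → ℝ) (hx0 : ∀ i, 0 < x0 i) :
    ∃ K : Set (Fin d → ℝ), x0 ∈ K ∧ IsCompact K ∧ Convex ℝ K ∧
      (∀ y ∈ K, (∀ i, 0 < y i) ∧ y - x0 ∈ stoichSubspace R) ∧
      (∀ (x : ℝ → Fin d → ℝ) (T₁ : ℝ),
        (∀ s ∈ Icc 0 T₁, HasDerivWithinAt x (field R k (x s)) (Icc 0 T₁) s) →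
        x 0 ∈ K → ∀ s ∈ Icc 0 T₁, x s ∈ K) ∧
      (∀ (x : ℝ → Fin d → ℝ) (Γ : Set (Fin d → ℝ)), IsCompact Γ →
        (∀ y ∈ Γ, (∀ i, 0 < y i) ∧ y - x0 ∈ stoichSubspace R) →
        IsForwardSolution (field R k) x → (∀ s, 0 ≤ s → x s ∈ Γ) →
        ∃ T, 0 ≤ T ∧ ∀ s, T ≤ s → x s ∈ K) := by
  classical
  obtain ⟨κ, -, hκ⟩ := flux_sign R hR k hk
  obtain ⟨A, hA⟩ := exists_stage R k κ hκ x0 hx0 hBE
  obtain ⟨B, hB⟩ := hA.upper
  obtain ⟨η, hη, hlow⟩ := hA.lower
  -- positive points of `A` are in the box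
  have hbox : ∀ x ∈ A, (∀ i, 0 < x i) → ∀ i, η ≤ x i := by
    intro x hx hpos i
    obtain ⟨a, ha, hxa⟩ := hlow x hx hpos {i} (by simp)
    rwa [Finset.mem_singleton.mp ha] at hxa
  set Bx : Set (Fin d → ℝ) := Set.pi univ fun _ => Icc η B with hBx
  have hBxc : IsCompact Bx := isCompact_univ_pi fun _ => isCompact_Icc
  have hBxconv : Convex ℝ Bx := convex_pi fun _ _ => convex_Icc _ _
  have hmem : ∀ x, (x ∈ A ∧ ∀ i, 0 < x i) ↔ x ∈ A ∩ Bx := by
    intro x
    constructor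
    · rintro ⟨hx, hpos⟩
      exact ⟨hx, fun i _ => ⟨hbox x hx hpos i, hB x hx i⟩⟩
    · rintro ⟨hx, hbx⟩
      exact ⟨hx, fun i => lt_of_lt_of_le hη (hbx i (mem_univ i)).1⟩
  refine ⟨A ∩ Bx, (hmem x0).mp ⟨hA.base, hx0⟩, hBxc.inter_left hA.closed,
    hA.convex.inter hBxconv, ?_, ?_, ?_⟩
  · intro y hy
    exact ⟨((hmem y).mpr hy).2, hA.cls y hy.1⟩
  · intro x T₁ hx h0 s hs
    have hpos0 := ((hmem _).mpr h0).2
    have hpos := solution_pos R k hk x T₁ hx hpos0
    exact (hmem _).mp ⟨hA.inv x T₁ hx hpos h0.1 s hs, hpos s hs⟩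
  · intro x Γ hΓ hΓ' hsol hin
    obtain ⟨T, hT, hx⟩ := hA.abs x Γ hΓ hΓ' hsol hin
    exact ⟨T, hT, fun s hs => (hmem _).mp ⟨hx s hs, (hΓ' _ (hin s (hT.trans hs))).1⟩⟩

/-- **Block C**: from the barrier functions to the theorem. -/
theorem main_of_barrier (hBE : BarrierExists)
    (d : ℕ) (R : Network d) (hR : IsWeaklyReversible R)
    (k : (Fin d → ℕ) × (Fin d → ℕ) → ℝ) (hk : ∀ r ∈ R, 0 < k r)
    (c : Fin d → ℝ) (hc : ∀ i, 0 < c i) :
    ∃ K : Set (Fin d → ℝ), K ⊆ positiveClass R c ∧ K.Nonempty ∧ IsCompact K ∧ Convex ℝ K ∧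
      (∀ x : ℝ → (Fin d → ℝ), IsForwardSolution (field R k) x → x 0 ∈ K →
        ∀ t : ℝ, 0 ≤ t → x t ∈ K) ∧
      (∀ x₀ ∈ positiveClass R c,
        (∃ x : ℝ → (Fin d → ℝ), IsForwardSolution (field R k) x ∧ x 0 = x₀) ∧
        (∀ x x' : ℝ → (Fin d → ℝ), IsForwardSolution (field R k) x →
          IsForwardSolution (field R k) x' → x 0 = x₀ → x' 0 = x₀ →
          ∀ t : ℝ, 0 ≤ t → x t = x' t) ∧
        (∀ x : ℝ → (Fin d → ℝ), IsForwardSolution (field R k) x → x 0 = x₀ →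
          (∀ t : ℝ, 0 ≤ t → ∀ i, 0 < x t i) ∧
          ∃ T : ℝ, 0 ≤ T ∧ ∀ t : ℝ, T ≤ t → x t ∈ K)) := by
  obtain ⟨K, hcK, hKc, hKconv, hKsub, hKinv, hKabs⟩ := exists_K R hR k hk hBE c hc
  refine ⟨K, fun y hy => hKsub y hy, ⟨c, hcK⟩, hKc, hKconv, ?_, ?_⟩
  · intro x hx h0 t ht
    refine hKinv x t (fun s hs => ?_) h0 t ⟨ht, le_rfl⟩
    exact (hx s hs.1).mono Icc_subset_Ici_self
  · intro x₀ hx₀
    obtain ⟨K₀, hK₀x, hK₀c, -, hK₀sub, hK₀inv, -⟩ := exists_K R hR k hk hBE x₀ hx₀.1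
    have hstay : ∀ x : ℝ → (Fin d → ℝ), IsForwardSolution (field R k) x → x 0 = x₀ →
        ∀ t : ℝ, 0 ≤ t → x t ∈ K₀ := by
      intro x hx h0 t ht
      refine hK₀inv x t (fun s hs => ?_) (by rw [h0]; exact hK₀x) t ⟨ht, le_rfl⟩
      exact (hx s hs.1).mono Icc_subset_Ici_self
    refine ⟨?_, ?_, ?_⟩
    · obtain ⟨x, hx, h0, -⟩ := exists_global_solution R k K₀ hK₀c
        (fun x T hT hsol h0 => hK₀inv x T hsol h0) x₀ hK₀x
      exact ⟨x, hx, h0⟩
    · intro x x' hx hx' h0 h0' t ht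
      exact solution_unique R k x x' hx hx' (by rw [h0, h0']) t ht
    · intro x hx h0
      have hin := hstay x hx h0
      refine ⟨fun t ht => (hK₀sub _ (hin t ht)).1, ?_⟩
      refine hKabs x K₀ hK₀c (fun y hy => ⟨(hK₀sub y hy).1, ?_⟩) hx hin
      have h1 := (hK₀sub y hy).2
      have h2 := hx₀.2
      have h3 : y - c = (y - x₀) + (x₀ - c) := by abel
      rw [h3]
      exact (stoichSubspace R).add_mem h1 h2

end Crest.Agent.Lib.MAK
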