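import Mathlib

/-!
# S0122 (weakly reversible mass action): interface definitions

See `BLUEPRINT.md` in this folder. Three independent blocks:

* Block A: `TriExists` (triangular maps with margins).
* Block B: `TriExists → BarrierExists` (the Fenchel barrier functions).
* Block C: `BarrierExists → S0122`.
-/

set_option autoImplicit false

namespace Crest.Agent.Lib.MAK

open Filter Topology

/-- `ℓ¹` distance of the first `j` coordinates of two sequences. -/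
noncomputable def dist1 (j : ℕ) (c c' : ℕ → ℝ) : ℝ := ∑ i ∈ Finset.range j, |c i - c' i|

/-- A triangular family on `n` slots: `v j z c` is the value of slot `j` at own coordinate `z`
with upper coordinates `c` (only `c i`, `i < j`, matter, by `cone` with `dist1 j c c' = 0`). -/
structure IsTri (n : ℕ) (Lam Q : ℝ) (v : ℕ → ℝ → (ℕ → ℝ) → ℝ) : Prop where
  cone : ∀ j < n, ∀ (z z' : ℝ) (c c' : ℕ → ℝ), z + Lam * dist1 j c c' ≤ z' → v j z c ≤ v j z' c'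
  bound : ∀ j < n, ∀ (z : ℝ) (c : ℕ → ℝ), |v j z c - z| ≤ Q

/-- The separation property of a triangular family: for non-negative integer vectors
`Ep, Em` of total mass at most `N`, `κ t < (Ep - Em)·c` forces
`Ep·v(c - t) - Em·v(c + t) ≥ ς`, where `v(c ∓ t)` moves only the own coordinate of each slot. -/
def Sep (n N : ℕ) (kap sg : ℝ) (v : ℕ → ℝ → (ℕ → ℝ) → ℝ) : Prop :=
  ∀ Ep Em : ℕ → ℕ, (∑ j ∈ Finset.range n, (Ep j + Em j)) ≤ N →
    ∀ (c : ℕ → ℝ) (t : ℝ), 0 ≤ t → t ≤ 1 →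
      kap * t < ∑ j ∈ Finset.range n, ((Ep j : ℝ) - (Em j : ℝ)) * c j →
      sg ≤ ∑ j ∈ Finset.range n,
        ((Ep j : ℝ) * v j (c j - t) c - (Em j : ℝ) * v j (c j + t) c)

/-- Block A's target.  `Lam` and `kap` do not depend on the margin `sg`. -/
def TriExists : Prop :=
  ∀ n N : ℕ, ∃ Lam kap : ℝ, 0 < Lam ∧ 0 < kap ∧ ∀ sg : ℝ, 1 ≤ sg →
    ∃ (Q : ℝ) (v : ℕ → ℝ → (ℕ → ℝ) → ℝ), IsTri n Lam Q v ∧ Sep n N kap sg v

/-- `θ` is a coordinatewise local maximiser of `θ ↦ ⟨θ, x⟩ - g θ`. -/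
def CoordLocalMax {k : ℕ} (g : (Fin k → ℝ) → ℝ) (x θ : Fin k → ℝ) : Prop :=
  ∀ i, ∀ᶠ t in 𝓝 (0 : ℝ), t * x i ≤ g (Function.update θ i (θ i + t)) - g θ

/-- A barrier function on `ℝ^k` with margin `σ` for integer vectors of `ℓ¹` norm at most `N`. -/
structure IsBarrier (k N : ℕ) (σ : ℝ) (g : (Fin k → ℝ) → ℝ) : Prop where
  cont : Continuous g
  nonneg : ∀ θ, 0 ≤ g θ
  lower : ∃ Q : ℝ, ∀ θ i, Real.exp (θ i - Q) ≤ g θ
  upper : ∃ Q : ℝ, ∀ (θ : Fin k → ℝ) (L : ℝ), (∀ i, θ i ≤ L) → g θ ≤ k * Real.exp (L + Q)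
  sep : ∀ x θ : Fin k → ℝ, (∀ i, 0 < x i) → CoordLocalMax g x θ →
    ∀ D : Fin k → ℤ, (∑ i, |D i|) ≤ (N : ℤ) → 0 < ∑ i, (D i : ℝ) * θ i →
      σ ≤ ∑ i, (D i : ℝ) * Real.log (x i)

/-- Block B's target, Block C's hypothesis. -/
def BarrierExists : Prop := ∀ (k N : ℕ) (σ : ℝ), ∃ g, IsBarrier k N σ g

end Crest.Agent.Lib.MAK
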