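import Crest.Prelude.Def_MassAction

/-!
# S0122, block C2: the ODE layer for mass-action kinetics

* `pos_of_sol`: positivity of solutions.
* `class_of_sol`: solutions stay in the stoichiometric class.
* `sol_unique`, `forward_unique`: uniqueness.
* `exists_forward_of_invariant`: global existence in a compact invariant set.
* `BarrierHyp` with `BarrierHyp.inv` and `BarrierHyp.abs`: abstract barrier dynamics.
-/

set_option autoImplicit false
set_option linter.unusedSectionVars false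
set_option linter.unusedVariables false
set_option linter.unusedSimpArgs false

namespace Crest.Agent.Lib.MAK

open Crest.AnalysisR.MassAction Set Filter Topology

variable {d : ℕ}

/-! ### Generalities -/

/-- `x` solves `x' = f x` on `[a, b]`. -/
def SolOn (f : (Fin d → ℝ) → (Fin d → ℝ)) (x : ℝ → (Fin d → ℝ)) (a b : ℝ) : Prop :=
  ∀ t ∈ Icc a b, HasDerivWithinAt x (f (x t)) (Icc a b) t

lemma SolOn.continuousOn {f : (Fin d → ℝ) → (Fin d → ℝ)} {x : ℝ → (Fin d → ℝ)} {a b : ℝ}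
    (h : SolOn f x a b) : ContinuousOn x (Icc a b) :=
  fun t ht => (h t ht).continuousWithinAt

lemma SolOn.mono {f : (Fin d → ℝ) → (Fin d → ℝ)} {x : ℝ → (Fin d → ℝ)} {a b a' b' : ℝ}
    (h : SolOn f x a b) (ha : a ≤ a') (hb : b' ≤ b) : SolOn f x a' b' := by
  intro t ht
  have hsub : Icc a' b' ⊆ Icc a b := Icc_subset_Icc ha hb
  exact (h t (hsub ht)).mono hsub

lemma SolOn.hasDerivAt {f : (Fin d → ℝ) → (Fin d → ℝ)} {x : ℝ → (Fin d → ℝ)} {a b : ℝ}
    (h : SolOn f x a b) {t : ℝ} (ht : t ∈ Ioo a b) : HasDerivAt x (f (x t)) t :=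
  (h t ⟨ht.1.le, ht.2.le⟩).hasDerivAt (Icc_mem_nhds ht.1 ht.2)

lemma SolOn.hasDerivWithinAt_Ici {f : (Fin d → ℝ) → (Fin d → ℝ)} {x : ℝ → (Fin d → ℝ)} {a b : ℝ}
    (h : SolOn f x a b) {t : ℝ} (ht : t ∈ Ico a b) : HasDerivWithinAt x (f (x t)) (Ici t) t := by
  have h1 := h t ⟨ht.1, ht.2.le⟩
  have h2 : HasDerivWithinAt x (f (x t)) (Icc t b) t :=
    h1.mono (Icc_subset_Icc_left ht.1)
  exact h2.mono_of_mem_nhdsWithin (Icc_mem_nhdsGE ht.2)

/-- A forward solution solves the equation on each `[0, T]`. -/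
lemma solOn_of_forward {f : (Fin d → ℝ) → (Fin d → ℝ)} {x : ℝ → (Fin d → ℝ)}
    (h : IsForwardSolution f x) (T : ℝ) : SolOn f x 0 T := by
  intro t ht
  exact (h t ht.1).mono Icc_subset_Ici_self

/-- The coordinates of the solution have the expected derivative. -/
lemma coord_hasDerivWithinAt {x : ℝ → (Fin d → ℝ)} {v : Fin d → ℝ} {s : Set ℝ} {t : ℝ}
    (h : HasDerivWithinAt x v s t) (i : Fin d) :
    HasDerivWithinAt (fun u => x u i) (v i) s t :=
  (hasDerivWithinAt_pi.mp h) i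

lemma coord_hasDerivAt {x : ℝ → (Fin d → ℝ)} {v : Fin d → ℝ} {t : ℝ}
    (h : HasDerivAt x v t) (i : Fin d) :
    HasDerivAt (fun u => x u i) (v i) t :=
  (hasDerivAt_pi.mp h) i

/-! ### The field is smooth -/

lemma contDiff_field (R : Network d) (k : (Fin d → ℕ) × (Fin d → ℕ) → ℝ) {n : WithTop ℕ∞} :
    ContDiff ℝ n (field R k) := by
  have : field R k = fun x => ∑ r ∈ R, (k r * ∏ i, x i ^ (r.1 i)) • reactionVector r := rfl
  rw [this]
  have h : ∀ r : (Fin d → ℕ) × (Fin d → ℕ),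
      ContDiff ℝ n (fun x : Fin d → ℝ => k r * ∏ i, x i ^ (r.1 i)) := by
    intro r
    refine contDiff_const.mul ?_
    exact contDiff_prod fun i _ => (contDiff_apply ℝ ℝ i).pow _
  exact ContDiff.sum fun r _ => (h r).smul contDiff_const

lemma continuous_field (R : Network d) (k : (Fin d → ℕ) × (Fin d → ℕ) → ℝ) :
    Continuous (field R k) :=
  (contDiff_field R k (n := 0)).continuous

/-! ### Positivity -/

/-- The loss rate of species `i`, divided by `x i`. -/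
noncomputable def lossRate (R : Network d) (k : (Fin d → ℕ) × (Fin d → ℕ) → ℝ) (i : Fin d)
    (y : Fin d → ℝ) : ℝ :=
  ∑ r ∈ R, k r * (r.1 i : ℝ) * ∏ j, y j ^ (r.1 j - if j = i then 1 else 0)

lemma continuous_lossRate (R : Network d) (k : (Fin d → ℕ) × (Fin d → ℕ) → ℝ) (i : Fin d) :
    Continuous (lossRate R k i) := by
  unfold lossRate
  fun_prop

lemma field_apply (R : Network d) (k : (Fin d → ℕ) × (Fin d → ℕ) → ℝ) (y : Fin d → ℝ) (i : Fin d) :
    field R k y i = ∑ r ∈ R, (k r * ∏ j, y j ^ (r.1 j)) * ((r.2 i : ℝ) - (r.1 i : ℝ)) := by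
  unfold field reactionVector
  simp [Finset.sum_apply, Pi.smul_apply, smul_eq_mul]

/-- Extraction of the factor `y i` from a monomial whose exponent at `i` is positive. -/
lemma prod_pow_eq (y : Fin d → ℝ) (a : Fin d → ℕ) (i : Fin d) (hi : 1 ≤ a i) :
    ∏ j, y j ^ a j = y i * ∏ j, y j ^ (a j - if j = i then 1 else 0) := by
  rw [← Finset.mul_prod_erase Finset.univ _ (Finset.mem_univ i),
    ← Finset.mul_prod_erase Finset.univ (fun j => y j ^ (a j - if j = i then 1 else 0))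
      (Finset.mem_univ i)]
  have h1 : ∏ j ∈ Finset.univ.erase i, y j ^ (a j - if j = i then 1 else 0)
      = ∏ j ∈ Finset.univ.erase i, y j ^ a j := by
    refine Finset.prod_congr rfl fun j hj => ?_
    have : j ≠ i := Finset.ne_of_mem_erase hj
    simp [this]
  rw [h1]
  have h2 : y i ^ a i = y i * y i ^ (a i - 1) := by
    conv_lhs => rw [show a i = (a i - 1) + 1 by omega, pow_succ, mul_comm]
  simp only [if_true]
  rw [h2]
  ring

/-- The lower bound for the field on the non-negative orthant. -/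
lemma field_ge (R : Network d) (k : (Fin d → ℕ) × (Fin d → ℕ) → ℝ) (hk : ∀ r ∈ R, 0 < k r)
    (y : Fin d → ℝ) (hy : ∀ i, 0 ≤ y i) (i : Fin d) :
    - (y i * lossRate R k i y) ≤ field R k y i := by
  rw [field_apply, lossRate, Finset.mul_sum, ← Finset.sum_neg_distrib]
  refine Finset.sum_le_sum fun r hr => ?_
  have hkr := hk r hr
  have hprod : 0 ≤ ∏ j, y j ^ (r.1 j) := Finset.prod_nonneg fun j _ => pow_nonneg (hy j) _
  by_cases hi : r.1 i = 0
  · simp only [hi, Nat.cast_zero, mul_zero, zero_mul, neg_zero, sub_zero]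
    exact mul_nonneg (mul_nonneg hkr.le hprod) (Nat.cast_nonneg _)
  · have hi' : 1 ≤ r.1 i := Nat.one_le_iff_ne_zero.mpr hi
    have := prod_pow_eq y r.1 i hi'
    have h2 : 0 ≤ (r.2 i : ℝ) := Nat.cast_nonneg _
    have h3 : (k r * ∏ j, y j ^ (r.1 j)) * ((r.2 i : ℝ) - (r.1 i : ℝ))
        ≥ (k r * ∏ j, y j ^ (r.1 j)) * (- (r.1 i : ℝ)) := by
      apply mul_le_mul_of_nonneg_left _ (mul_nonneg hkr.le hprod)
      linarith
    rw [this] at h3 ⊢
    nlinarith [h3]

/-- Positivity of solutions: the coordinates cannot reach `0`. -/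
theorem pos_of_sol (R : Network d) (k : (Fin d → ℕ) × (Fin d → ℕ) → ℝ) (hk : ∀ r ∈ R, 0 < k r)
    {x : ℝ → (Fin d → ℝ)} {T : ℝ} (hx : SolOn (field R k) x 0 T) (h0 : ∀ i, 0 < x 0 i) :
    ∀ t ∈ Icc 0 T, ∀ i, 0 < x t i := by
  by_cases hT : 0 ≤ T
  swap
  · intro t ht
    exact absurd (ht.1.trans ht.2) hT
  have hc := hx.continuousOn
  -- the bound for the loss rates
  have hcontl : ContinuousOn (fun t => (fun i => lossRate R k i (x t) : Fin d → ℝ)) (Icc 0 T) := by
    refine continuousOn_pi.mpr fun i => ?_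
    exact (continuous_lossRate R k i).comp_continuousOn hc
  obtain ⟨C, hC⟩ := isCompact_Icc.exists_bound_of_continuousOn hcontl
  have hCl : ∀ t ∈ Icc 0 T, ∀ i, lossRate R k i (x t) ≤ |C| := by
    intro t ht i
    have h1 := norm_le_pi_norm (fun i => lossRate R k i (x t) : Fin d → ℝ) i
    have h2 := hC t ht
    rw [Real.norm_eq_abs] at h1
    exact (le_abs_self _).trans (h1.trans (h2.trans (le_abs_self _)))
  set C' : ℝ := |C| with hC'
  -- the closed set on which the exponential lower bound holds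
  let s : Set ℝ := {t | ∀ i, x 0 i * Real.exp (- C' * t) ≤ x t i}
  have hsub : Icc 0 T ⊆ s := by
    refine IsClosed.Icc_subset_of_forall_mem_nhdsWithin ?_ ?_ ?_
    · have : s ∩ Icc 0 T
          = Icc 0 T ∩ ⋂ i : Fin d, {t | t ∈ Icc 0 T ∧ x 0 i * Real.exp (- C' * t) ≤ x t i} := by
        ext t
        simp only [s, mem_inter_iff, mem_setOf_eq, mem_iInter]
        constructor
        · rintro ⟨h1, h2⟩
          exact ⟨h2, fun i => ⟨h2, h1 i⟩⟩
        · rintro ⟨h1, h2⟩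
          exact ⟨fun i => (h2 i).2, h1⟩
      rw [this]
      refine isClosed_Icc.inter (isClosed_iInter fun i => ?_)
      refine isClosed_Icc.isClosed_le ?_ ?_
      · fun_prop
      · exact continuousOn_pi.mp hc i
    · intro i
      simp
    · rintro t ⟨hts, htI⟩
      have htIcc : t ∈ Icc 0 T := ⟨htI.1, htI.2.le⟩
      have htpos : ∀ i, 0 < x t i := fun i =>
        lt_of_lt_of_le (mul_pos (h0 i) (Real.exp_pos _)) (hts i)
      -- positivity persists for a short time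
      have hU : IsOpen {y : Fin d → ℝ | ∀ j, 0 < y j} := by
        have : {y : Fin d → ℝ | ∀ j, 0 < y j} = ⋂ j, {y | 0 < y j} := by
          ext y; simp
        rw [this]
        exact isOpen_iInter_of_finite fun j => isOpen_lt continuous_const (continuous_apply j)
      have hev : x ⁻¹' {y : Fin d → ℝ | ∀ j, 0 < y j} ∈ 𝓝[Icc 0 T] t :=
        (hc t htIcc) (hU.mem_nhds htpos)
      obtain ⟨ε, hε, hball⟩ := Metric.mem_nhdsWithin_iff.mp hev
      set e : ℝ := min (ε / 2) ((T - t) / 2) with he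
      have he0 : 0 < e := lt_min (by linarith) (by linarith [htI.2])
      have he1 : e ≤ ε / 2 := min_le_left _ _
      have he2 : e ≤ (T - t) / 2 := min_le_right _ _
      have hin : ∀ u ∈ Icc t (t + e), u ∈ Ioo 0 T ∨ u = t := by
        intro u hu
        by_cases hut : u = t
        · exact Or.inr hut
        · left
          have : t < u := lt_of_le_of_ne hu.1 (Ne.symm hut)
          exact ⟨lt_of_le_of_lt htI.1 this, by linarith [hu.2]⟩
      have hinI : ∀ u ∈ Icc t (t + e), u ∈ Icc 0 T := fun u hu =>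
        ⟨htI.1.trans hu.1, by linarith [hu.2]⟩
      have hposu : ∀ u ∈ Icc t (t + e), ∀ j, 0 < x u j := by
        intro u hu
        have hd : u ∈ Metric.ball t ε := by
          rw [Metric.mem_ball, Real.dist_eq, abs_of_nonneg (by linarith [hu.1])]
          linarith [hu.2]
        exact hball ⟨hd, hinI u hu⟩
      have hmono : ∀ i, MonotoneOn (fun u => Real.exp (C' * u) * x u i) (Icc t (t + e)) := by
        intro i
        have hder : ∀ u ∈ Ioo t (t + e), HasDerivAt (fun u => Real.exp (C' * u) * x u i)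
            (Real.exp (C' * u) * C' * x u i + Real.exp (C' * u) * field R k (x u) i) u := by
          intro u hu
          have hu1 : u ∈ Ioo 0 T := ⟨lt_of_le_of_lt htI.1 hu.1, by linarith [hu.2]⟩
          have h1 := coord_hasDerivAt (hx.hasDerivAt hu1) i
          have h2 : HasDerivAt (fun u => Real.exp (C' * u)) (Real.exp (C' * u) * C') u := by
            have := ((hasDerivAt_id u).const_mul C').exp
            simpa using this
          exact h2.mul h1
        refine monotoneOn_of_deriv_nonneg (convex_Icc _ _) ?_ ?_ ?_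
        · refine ContinuousOn.mul (by fun_prop) ?_
          exact (continuousOn_pi.mp hc i).mono fun u hu => hinI u hu
        · rw [interior_Icc]
          exact fun u hu => (hder u hu).differentiableAt.differentiableWithinAt
        · rw [interior_Icc]
          intro u hu
          rw [(hder u hu).deriv]
          have huI : u ∈ Icc t (t + e) := ⟨hu.1.le, hu.2.le⟩
          have hy := hposu u huI
          have h3 := field_ge R k hk (x u) (fun j => (hy j).le) i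
          have h4 := hCl u (hinI u huI) i
          have h5 : x u i * lossRate R k i (x u) ≤ x u i * C' :=
            mul_le_mul_of_nonneg_left h4 (hy i).le
          have h6 : 0 ≤ C' * x u i + field R k (x u) i := by linarith
          have := mul_nonneg (Real.exp_pos (C' * u)).le h6
          linarith
      refine mem_of_superset (Ioo_mem_nhdsGT (show t < t + e by linarith)) ?_
      intro u hu i
      have huI : u ∈ Icc t (t + e) := ⟨hu.1.le, hu.2.le⟩
      have h7 := hmono i (left_mem_Icc.mpr (by linarith)) huI hu.1.le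
      simp only at h7
      have h8 := hts i
      -- `x 0 i ≤ exp (C' t) x t i ≤ exp (C' u) x u i`
      have h9 : x 0 i ≤ Real.exp (C' * t) * x t i := by
        have := mul_le_mul_of_nonneg_left h8 (Real.exp_pos (C' * t)).le
        have h10 : Real.exp (C' * t) * (x 0 i * Real.exp (-C' * t)) = x 0 i := by
          have : Real.exp (C' * t) * Real.exp (-C' * t) = 1 := by
            rw [← Real.exp_add]; simp
          calc Real.exp (C' * t) * (x 0 i * Real.exp (-C' * t))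
              = x 0 i * (Real.exp (C' * t) * Real.exp (-C' * t)) := by ring
            _ = x 0 i := by rw [this, mul_one]
        linarith
      have h11 : x 0 i ≤ Real.exp (C' * u) * x u i := h9.trans h7
      have := mul_le_mul_of_nonneg_left h11 (Real.exp_pos (-C' * u)).le
      have h12 : Real.exp (-C' * u) * (Real.exp (C' * u) * x u i) = x u i := by
        have : Real.exp (-C' * u) * Real.exp (C' * u) = 1 := by
          rw [← Real.exp_add]; simp
        calc Real.exp (-C' * u) * (Real.exp (C' * u) * x u i)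
            = (Real.exp (-C' * u) * Real.exp (C' * u)) * x u i := by ring
          _ = x u i := by rw [this, one_mul]
      rw [h12] at this
      linarith [mul_comm (x 0 i) (Real.exp (-C' * u))]
  intro t ht i
  have := hsub ht i
  have hpos : 0 < x 0 i * Real.exp (- C' * t) := mul_pos (h0 i) (Real.exp_pos _)
  linarith

/-! ### The stoichiometric class -/

lemma field_mem (R : Network d) (k : (Fin d → ℕ) × (Fin d → ℕ) → ℝ) (y : Fin d → ℝ) :
    field R k y ∈ stoichSubspace R := by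
  unfold field stoichSubspace
  refine Submodule.sum_mem _ fun r hr => Submodule.smul_mem _ _ ?_
  exact Submodule.subset_span ⟨r, by exact_mod_cast hr, rfl⟩

/-- Solutions stay in the stoichiometric class. -/
theorem class_of_sol (R : Network d) (k : (Fin d → ℕ) × (Fin d → ℕ) → ℝ)
    {x : ℝ → (Fin d → ℝ)} {T : ℝ} (hx : SolOn (field R k) x 0 T) :
    ∀ t ∈ Icc 0 T, x t - x 0 ∈ stoichSubspace R := by
  intro t ht
  by_contra hnot
  obtain ⟨φ, hφ, hφ0⟩ := Submodule.exists_dual_map_eq_bot_of_notMem hnot inferInstance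
  have hφS : ∀ v ∈ stoichSubspace R, φ v = 0 := by
    intro v hv
    have : φ v ∈ (stoichSubspace R).map φ := Submodule.mem_map_of_mem hv
    rw [hφ0] at this
    simpa using this
  let L : (Fin d → ℝ) →L[ℝ] ℝ := LinearMap.toContinuousLinearMap φ
  have hL : ∀ v, L v = φ v := fun v => rfl
  have h0mem : (0 : ℝ) ∈ Icc 0 T := ⟨le_rfl, ht.1.trans ht.2⟩
  have hsub : Icc 0 t ⊆ Icc 0 T := Icc_subset_Icc_right ht.2
  have hder : ∀ u ∈ Icc 0 t, HasDerivWithinAt (fun u => L (x u)) 0 (Icc 0 t) u := by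
    intro u hu
    have h1 := ((hx u (hsub hu)).mono hsub)
    have h2 := L.hasFDerivAt.comp_hasDerivWithinAt u h1
    have h3 : L (field R k (x u)) = 0 := by rw [hL]; exact hφS _ (field_mem R k _)
    simpa [Function.comp_def, h3] using h2
  have hb : ∀ u ∈ Ico 0 t, ‖(0 : ℝ)‖ ≤ 0 := fun _ _ => by simp
  have := norm_image_sub_le_of_norm_deriv_le_segment' hder hb t ⟨ht.1, le_rfl⟩
  simp only [zero_mul, norm_le_zero_iff, sub_eq_zero] at this
  apply hφ
  rw [map_sub, sub_eq_zero]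
  exact this

/-! ### Uniqueness -/

/-- Uniqueness of solutions of a `C¹` equation on `[0, T]`. -/
theorem sol_unique {f : (Fin d → ℝ) → (Fin d → ℝ)} (hf : ContDiff ℝ 1 f)
    {x y : ℝ → (Fin d → ℝ)} {T : ℝ} (hx : SolOn f x 0 T) (hy : SolOn f y 0 T) (h0 : x 0 = y 0) :
    ∀ t ∈ Icc 0 T, x t = y t := by
  have hcx := hx.continuousOn
  have hcy := hy.continuousOn
  -- a ball containing both trajectories
  obtain ⟨ρ₁, hρ₁⟩ := isCompact_Icc.exists_bound_of_continuousOn hcx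
  obtain ⟨ρ₂, hρ₂⟩ := isCompact_Icc.exists_bound_of_continuousOn hcy
  set ρ : ℝ := max ρ₁ ρ₂ with hρ
  have hBc : IsCompact (Metric.closedBall (0 : Fin d → ℝ) ρ) := isCompact_closedBall _ _
  have hBv : Convex ℝ (Metric.closedBall (0 : Fin d → ℝ) ρ) := convex_closedBall _ _
  obtain ⟨K, hK⟩ := (hf.contDiffOn (s := Metric.closedBall (0 : Fin d → ℝ) ρ)).exists_lipschitzOnWith
    one_ne_zero hBv hBc
  have hxB : ∀ t ∈ Ico 0 T, x t ∈ Metric.closedBall (0 : Fin d → ℝ) ρ := by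
    intro t ht
    rw [mem_closedBall_zero_iff]
    exact (hρ₁ t ⟨ht.1, ht.2.le⟩).trans (le_max_left _ _)
  have hyB : ∀ t ∈ Ico 0 T, y t ∈ Metric.closedBall (0 : Fin d → ℝ) ρ := by
    intro t ht
    rw [mem_closedBall_zero_iff]
    exact (hρ₂ t ⟨ht.1, ht.2.le⟩).trans (le_max_right _ _)
  exact ODE_solution_unique_of_mem_Icc_right (v := fun _ => f)
    (s := fun _ => Metric.closedBall (0 : Fin d → ℝ) ρ) (K := K)
    (fun t _ => hK) hcx (fun t ht => hx.hasDerivWithinAt_Ici ht) hxB hcy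
    (fun t ht => hy.hasDerivWithinAt_Ici ht) hyB h0

/-- Uniqueness of forward solutions. -/
theorem forward_unique {f : (Fin d → ℝ) → (Fin d → ℝ)} (hf : ContDiff ℝ 1 f)
    {x y : ℝ → (Fin d → ℝ)} (hx : IsForwardSolution f x) (hy : IsForwardSolution f y)
    (h0 : x 0 = y 0) : ∀ t, 0 ≤ t → x t = y t := by
  intro t ht
  exact sol_unique hf (solOn_of_forward hx t) (solOn_of_forward hy t) h0 t ⟨ht, le_rfl⟩

/-! ### Global existence in a compact invariant set -/

/-- The coordinatewise clamp to the box of radius `ρ`. -/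
noncomputable def clamp (ρ : ℝ) (y : Fin d → ℝ) : Fin d → ℝ :=
  fun i => max (-ρ) (min ρ (y i))

lemma clamp_mem {ρ : ℝ} (hρ : 0 ≤ ρ) (y : Fin d → ℝ) :
    clamp ρ y ∈ Metric.closedBall (0 : Fin d → ℝ) ρ := by
  rw [mem_closedBall_zero_iff, pi_norm_le_iff_of_nonneg hρ]
  intro i
  rw [Real.norm_eq_abs, abs_le]
  unfold clamp
  constructor
  · exact le_max_left _ _
  · exact max_le (by linarith) (min_le_left _ _)

lemma clamp_of_mem {ρ : ℝ} {y : Fin d → ℝ} (hy : y ∈ Metric.closedBall (0 : Fin d → ℝ) ρ) :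
    clamp ρ y = y := by
  rw [mem_closedBall_zero_iff] at hy
  funext i
  have h1 := (norm_le_pi_norm y i).trans hy
  rw [Real.norm_eq_abs, abs_le] at h1
  unfold clamp
  rw [min_eq_right h1.2, max_eq_right h1.1]

lemma clamp_lipschitz (ρ : ℝ) : LipschitzWith 1 (clamp (d := d) ρ) := by
  refine LipschitzWith.of_dist_le_mul fun y z => ?_
  simp only [NNReal.coe_one, one_mul]
  rw [dist_pi_le_iff dist_nonneg]
  intro i
  refine le_trans ?_ (dist_le_pi_dist y z i)
  unfold clamp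
  rw [Real.dist_eq, Real.dist_eq]
  rw [max_comm (-ρ), max_comm (-ρ)]
  have h1 := abs_max_sub_max_le_abs (min ρ (y i)) (min ρ (z i)) (-ρ)
  have h2 := abs_min_sub_min_le_max ρ (y i) ρ (z i)
  simp only [sub_self, abs_zero] at h2
  refine h1.trans (h2.trans ?_)
  exact max_le (abs_nonneg _) le_rfl

/-- Picard–Lindelöf for a bounded, globally Lipschitz autonomous field. -/
lemma exists_sol_of_lipschitz {g : (Fin d → ℝ) → (Fin d → ℝ)} {K : NNReal} (hg : LipschitzWith K g)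
    {M : ℝ} (hM0 : 0 ≤ M) (hM : ∀ y, ‖g y‖ ≤ M) {T : ℝ} (hT : 0 ≤ T) (x₀ : Fin d → ℝ) :
    ∃ α : ℝ → (Fin d → ℝ), α 0 = x₀ ∧ SolOn g α 0 T := by
  let t₀ : Icc (0 : ℝ) T := ⟨0, le_rfl, hT⟩
  have hPL : IsPicardLindelof (fun _ : ℝ => g) t₀ x₀ (Real.toNNReal (M * T)) 0
      (Real.toNNReal M) K := by
    refine ⟨?_, ?_, ?_, ?_⟩
    · intro t _
      exact hg.lipschitzOnWith
    · intro y _
      exact continuousOn_const
    · intro t _ y _
      rw [Real.coe_toNNReal _ hM0]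
      exact hM y
    · simp [t₀, Real.coe_toNNReal _ hT, Real.coe_toNNReal _ hM0, hT, Real.coe_toNNReal _ (mul_nonneg hM0 hT)]
  obtain ⟨α, h0, hα⟩ := hPL.exists_eq_forall_mem_Icc_hasDerivWithinAt₀
  exact ⟨α, h0, hα⟩

/-- Existence on `[0, T]` inside a compact invariant set. -/
theorem exists_sol_of_invariant {f : (Fin d → ℝ) → (Fin d → ℝ)} (hf : ContDiff ℝ 1 f)
    {K : Set (Fin d → ℝ)} (hK : IsCompact K)
    (hinv : ∀ T, 0 ≤ T → ∀ y : ℝ → (Fin d → ℝ), SolOn f y 0 T → y 0 ∈ K →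
      ∀ t ∈ Icc 0 T, y t ∈ K)
    {x₀ : Fin d → ℝ} (hx₀ : x₀ ∈ K) {T : ℝ} (hT : 0 ≤ T) :
    ∃ α : ℝ → (Fin d → ℝ), α 0 = x₀ ∧ SolOn f α 0 T ∧ ∀ t ∈ Icc 0 T, α t ∈ K := by
  -- the big box
  obtain ⟨R₀, hR₀⟩ := hK.isBounded.exists_norm_le
  set ρ : ℝ := |R₀| + 1 with hρ
  have hρ0 : 0 ≤ ρ := by positivity
  have hKin : ∀ y ∈ K, ‖y‖ ≤ |R₀| := fun y hy => (hR₀ y hy).trans (le_abs_self _)
  set B : Set (Fin d → ℝ) := Metric.closedBall 0 ρ with hB
  have hBc : IsCompact B := isCompact_closedBall _ _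
  have hBv : Convex ℝ B := convex_closedBall _ _
  obtain ⟨L, hL⟩ := (hf.contDiffOn (s := B)).exists_lipschitzOnWith one_ne_zero hBv hBc
  obtain ⟨M, hM⟩ := hBc.exists_bound_of_continuousOn hf.continuous.continuousOn
  -- the clamped field
  let g : (Fin d → ℝ) → (Fin d → ℝ) := fun y => f (clamp ρ y)
  have hg : LipschitzWith L g := by
    refine LipschitzWith.of_dist_le_mul fun y z => ?_
    have h1 := hL.dist_le_mul (clamp ρ y) (clamp_mem hρ0 y) (clamp ρ z) (clamp_mem hρ0 z)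
    have h2 := (clamp_lipschitz (d := d) ρ).dist_le_mul y z
    simp only [NNReal.coe_one, one_mul] at h2
    exact h1.trans (mul_le_mul_of_nonneg_left h2 L.coe_nonneg)
  have hgM : ∀ y, ‖g y‖ ≤ |M| := fun y => (hM _ (clamp_mem hρ0 y)).trans (le_abs_self _)
  obtain ⟨α, hα0, hα⟩ := exists_sol_of_lipschitz hg (abs_nonneg M) hgM hT x₀
  have hαc := hα.continuousOn
  -- where the solution stays in the box it solves the original equation
  have hsolB : ∀ t ∈ Icc 0 T, (∀ s ∈ Icc 0 t, α s ∈ B) → SolOn f α 0 t := by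
    intro t ht hin s hs
    have hsub : Icc 0 t ⊆ Icc 0 T := Icc_subset_Icc_right ht.2
    have h1 := (hα s (hsub hs)).mono hsub
    have h2 : g (α s) = f (α s) := by
      simp only [g]
      rw [clamp_of_mem (hin s hs)]
    rwa [h2] at h1
  have h00 : (0 : ℝ) ∈ Icc 0 T := ⟨le_rfl, hT⟩
  -- the set of times up to which the solution is in `K`
  let s : Set ℝ := {t | ∀ u ∈ Icc 0 t, α u ∈ K}
  have hsub : Icc 0 T ⊆ s := by
    refine IsClosed.Icc_subset_of_forall_mem_nhdsWithin ?_ ?_ ?_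
    · -- closedness: by invariance, or directly
      have hcl : s ∩ Icc 0 T = {t | t ∈ Icc 0 T ∧ ∀ u ∈ Icc 0 t, α u ∈ K} := by
        ext t; simp only [s, mem_inter_iff, mem_setOf_eq]; tauto
      rw [hcl]
      refine isClosed_of_closure_subset fun t ht => ?_
      have htI : t ∈ Icc 0 T := by
        have : closure {t | t ∈ Icc 0 T ∧ ∀ u ∈ Icc 0 t, α u ∈ K} ⊆ Icc 0 T :=
          closure_minimal (fun u hu => hu.1) isClosed_Icc
        exact this ht
      refine ⟨htI, fun u hu => ?_⟩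
      by_cases hut : u < t
      · obtain ⟨v, hv, hlt⟩ : ∃ v ∈ {t | t ∈ Icc 0 T ∧ ∀ u ∈ Icc 0 t, α u ∈ K}, u < v := by
          have h1 : Ioi u ∈ 𝓝 t := Ioi_mem_nhds hut
          obtain ⟨v, hv1, hv2⟩ := mem_closure_iff_nhds.mp ht _ h1
          exact ⟨v, hv2, hv1⟩
        exact hv.2 u ⟨hu.1, hlt.le⟩
      · have hut' : u = t := le_antisymm hu.2 (not_lt.mp hut)
        subst hut'
        -- `α u` is a limit of points of `K`
        have hKcl : IsClosed K := hK.isClosed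
        have hsubcl : closure {t | t ∈ Icc 0 T ∧ ∀ u ∈ Icc 0 t, α u ∈ K} ⊆ Icc 0 T :=
          closure_minimal (fun u hu => hu.1) isClosed_Icc
        have hmem : α u ∈ closure K := by
          have hcw := hαc u htI
          have h2 : α u ∈ closure (α '' {t | t ∈ Icc 0 T ∧ ∀ u ∈ Icc 0 t, α u ∈ K}) := by
            have hsubset : {t | t ∈ Icc 0 T ∧ ∀ u ∈ Icc 0 t, α u ∈ K} ⊆ Icc 0 T := fun u hu => hu.1
            exact (ContinuousWithinAt.mono hcw hsubset).mem_closure_image ht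
          refine closure_mono ?_ h2
          rintro _ ⟨w, hw, rfl⟩
          exact hw.2 w ⟨hw.1.1, le_rfl⟩
        rwa [hKcl.closure_eq] at hmem
    · intro u hu
      have : u = 0 := le_antisymm hu.2 hu.1
      rw [this, hα0]
      exact hx₀
    · rintro t ⟨hts, htI⟩
      have htIcc : t ∈ Icc 0 T := ⟨htI.1, htI.2.le⟩
      have htK : α t ∈ K := hts t ⟨htI.1, le_rfl⟩
      -- the solution remains in the open box for a short time
      have hU : Metric.ball (0 : Fin d → ℝ) ρ ∈ 𝓝 (α t) := by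
        refine Metric.isOpen_ball.mem_nhds ?_
        rw [mem_ball_zero_iff]
        have := hKin _ htK
        linarith
      have hev : α ⁻¹' Metric.ball (0 : Fin d → ℝ) ρ ∈ 𝓝[Icc 0 T] t := (hαc t htIcc) hU
      obtain ⟨ε, hε, hball⟩ := Metric.mem_nhdsWithin_iff.mp hev
      set e : ℝ := min (ε / 2) ((T - t) / 2) with he
      have he0 : 0 < e := lt_min (by linarith) (by linarith [htI.2])
      have he1 : e ≤ ε / 2 := min_le_left _ _
      have he2 : e ≤ (T - t) / 2 := min_le_right _ _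
      refine mem_of_superset (Ioo_mem_nhdsGT (show t < t + e by linarith)) ?_
      intro u hu
      have huT : u ∈ Icc 0 T := ⟨htI.1.trans hu.1.le, by linarith [hu.2]⟩
      have hinB : ∀ v ∈ Icc 0 u, α v ∈ B := by
        intro v hv
        by_cases hvt : v ≤ t
        · have := hKin _ (hts v ⟨hv.1, hvt⟩)
          rw [hB, mem_closedBall_zero_iff]
          linarith
        · push Not at hvt
          have hd : v ∈ Metric.ball t ε := by
            rw [Metric.mem_ball, Real.dist_eq, abs_of_pos (by linarith)]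
            linarith [hu.2, hv.2]
          have := hball ⟨hd, ⟨hv.1, hv.2.trans huT.2⟩⟩
          exact Metric.ball_subset_closedBall this
      have hsol := hsolB u huT hinB
      have h0K : α 0 ∈ K := by rw [hα0]; exact hx₀
      exact fun v hv => hinv u huT.1 α hsol h0K v hv
  refine ⟨α, hα0, ?_, fun t ht => hsub ht t ⟨ht.1, le_rfl⟩⟩
  refine hsolB T ⟨hT, le_rfl⟩ fun v hv => ?_
  have := hKin _ (hsub (⟨hT, le_rfl⟩ : T ∈ Icc 0 T) v hv)
  rw [hB, mem_closedBall_zero_iff]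
  linarith

/-- Global existence: if `K` is compact and forward invariant for solutions, then from every
point of `K` there is a forward solution staying in `K`. -/
theorem exists_forward_of_invariant {f : (Fin d → ℝ) → (Fin d → ℝ)} (hf : ContDiff ℝ 1 f)
    {K : Set (Fin d → ℝ)} (hK : IsCompact K)
    (hinv : ∀ T, 0 ≤ T → ∀ y : ℝ → (Fin d → ℝ), SolOn f y 0 T → y 0 ∈ K →
      ∀ t ∈ Icc 0 T, y t ∈ K)
    {x₀ : Fin d → ℝ} (hx₀ : x₀ ∈ K) :
    ∃ x : ℝ → (Fin d → ℝ), IsForwardSolution f x ∧ x 0 = x₀ ∧ ∀ t, 0 ≤ t → x t ∈ K := by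
  have hex : ∀ n : ℕ, ∃ α : ℝ → (Fin d → ℝ), α 0 = x₀ ∧ SolOn f α 0 n ∧ ∀ t ∈ Icc (0 : ℝ) n, α t ∈ K :=
    fun n => exists_sol_of_invariant hf hK hinv hx₀ (Nat.cast_nonneg n)
  choose α hα0 hαs hαK using hex
  have hagree : ∀ n m : ℕ, n ≤ m → ∀ t ∈ Icc (0 : ℝ) n, α n t = α m t := by
    intro n m hnm t ht
    have hmn : (n : ℝ) ≤ m := by exact_mod_cast hnm
    exact sol_unique hf (hαs n) ((hαs m).mono le_rfl hmn) (by rw [hα0, hα0]) t ht
  let idx : ℝ → ℕ := fun t => ⌈t⌉₊ + 1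
  have hidx : ∀ t : ℝ, t < (idx t : ℝ) := by
    intro t
    have := Nat.le_ceil t
    simp only [idx]
    push_cast
    linarith
  let x : ℝ → (Fin d → ℝ) := fun t => α (idx t) t
  have hxα : ∀ (n : ℕ) (t : ℝ), 0 ≤ t → t ≤ n → x t = α n t := by
    intro n t ht0 htn
    by_cases h : idx t ≤ n
    · exact hagree _ _ h t ⟨ht0, (hidx t).le⟩
    · push Not at h
      exact (hagree _ _ h.le t ⟨ht0, htn⟩).symm
  refine ⟨x, ?_, ?_, ?_⟩
  · intro t ht
    set n := idx t + 1 with hn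
    have htn : t < (n : ℝ) := by
      have := hidx t
      rw [hn]; push_cast; linarith
    have hmem : t ∈ Icc (0 : ℝ) n := ⟨ht, htn.le⟩
    have h1 := hαs n t hmem
    have h2 : x t = α n t := hxα n t ht htn.le
    rw [h2]
    have h3 : HasDerivWithinAt (α n) (f (α n t)) (Ici 0) t :=
      h1.mono_of_mem_nhdsWithin (by
        have h5 : Ici 0 ∩ Iic (n : ℝ) ∈ 𝓝[Ici 0] t :=
          inter_mem_nhdsWithin _ (Iic_mem_nhds htn)
        refine mem_of_superset h5 ?_
        rintro u ⟨hu1, hu2⟩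
        exact ⟨hu1, hu2⟩)
    refine h3.congr_of_eventuallyEq ?_ h2
    filter_upwards [inter_mem_nhdsWithin (Ici (0 : ℝ)) (Iic_mem_nhds htn)] with u hu
    exact hxα n u hu.1 hu.2
  · have h := hxα 0 0 le_rfl (by simp)
    rw [h, hα0]
  · intro t ht
    have hn : t ≤ (idx t : ℝ) := (hidx t).le
    exact hαK _ t ⟨ht, hn⟩

/-! ### Abstract barrier dynamics -/

/-- The standard dot product. -/
noncomputable def dot (a b : Fin d → ℝ) : ℝ := ∑ i, a i * b i

lemma continuous_dot : Continuous fun p : (Fin d → ℝ) × (Fin d → ℝ) => dot p.1 p.2 := by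
  unfold dot
  fun_prop

lemma dot_sub_right (a b c : Fin d → ℝ) : dot a (b - c) = dot a b - dot a c := by
  unfold dot
  rw [← Finset.sum_sub_distrib]
  refine Finset.sum_congr rfl fun i _ => ?_
  simp only [Pi.sub_apply]
  ring

lemma dot_add_right (a b c : Fin d → ℝ) : dot a (b + c) = dot a b + dot a c := by
  unfold dot
  rw [← Finset.sum_add_distrib]
  refine Finset.sum_congr rfl fun i _ => ?_
  simp only [Pi.add_apply]
  ring

lemma dot_smul_right (a b : Fin d → ℝ) (c : ℝ) : dot a (c • b) = c * dot a b := by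
  unfold dot
  rw [Finset.mul_sum]
  refine Finset.sum_congr rfl fun i _ => ?_
  simp only [Pi.smul_apply, smul_eq_mul]
  ring

lemma abs_dot_le (a b : Fin d → ℝ) : |dot a b| ≤ (d : ℝ) * ‖a‖ * ‖b‖ := by
  unfold dot
  refine (Finset.abs_sum_le_sum_abs _ _).trans ?_
  have h : ∀ i ∈ (Finset.univ : Finset (Fin d)), |a i * b i| ≤ ‖a‖ * ‖b‖ := by
    intro i _
    rw [abs_mul]
    have h1 := norm_le_pi_norm a i
    have h2 := norm_le_pi_norm b i
    rw [Real.norm_eq_abs] at h1 h2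
    exact mul_le_mul h1 h2 (abs_nonneg _) (norm_nonneg _)
  have := Finset.sum_le_sum h
  simp only [Finset.sum_const, Finset.card_univ, Fintype.card_fin, nsmul_eq_mul] at this
  linarith

/-- `ν` maximises `ν ↦ ν·x - γ ν` on `𝒩`. -/
def IsMaxAt (𝒩 : Set (Fin d → ℝ)) (γ : (Fin d → ℝ) → ℝ) (ν x : Fin d → ℝ) : Prop :=
  ν ∈ 𝒩 ∧ ∀ ν' ∈ 𝒩, dot ν' x - γ ν' ≤ dot ν x - γ ν

/-- All constraints `ν·x - γ ν ≤ L`, `ν ∈ 𝒩`, hold at `x`. -/
def ConAt (𝒩 : Set (Fin d → ℝ)) (γ : (Fin d → ℝ) → ℝ) (L : ℝ) (x : Fin d → ℝ) : Prop :=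
  ∀ ν ∈ 𝒩, dot ν x - γ ν ≤ L

lemma exists_of_not_conAt {𝒩 : Set (Fin d → ℝ)} {γ : (Fin d → ℝ) → ℝ} {L : ℝ} {x : Fin d → ℝ}
    (h : ¬ ConAt 𝒩 γ L x) : ∃ ν' ∈ 𝒩, L < dot ν' x - γ ν' := by
  unfold ConAt at h
  push Not at h
  exact h

lemma isClosed_conAt (𝒩 : Set (Fin d → ℝ)) (γ : (Fin d → ℝ) → ℝ) (L : ℝ) :
    IsClosed {x | ConAt 𝒩 γ L x} := by
  have : {x | ConAt 𝒩 γ L x} = ⋂ ν ∈ 𝒩, {x | dot ν x - γ ν ≤ L} := by
    ext x
    simp [ConAt]
  rw [this]
  refine isClosed_biInter fun ν _ => isClosed_le ?_ continuous_const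
  have h1 : Continuous fun x : Fin d → ℝ => dot ν x :=
    continuous_dot.comp (continuous_const.prodMk continuous_id)
  exact h1.sub continuous_const

/-- Hypotheses of the abstract barrier dynamics. -/
structure BarrierHyp (f : (Fin d → ℝ) → (Fin d → ℝ)) (𝒩 : Set (Fin d → ℝ))
    (γ : (Fin d → ℝ) → ℝ) (L : ℝ) (Γ Good : Set (Fin d → ℝ)) (R₀ : ℝ) : Prop where
  hf : Continuous f
  h𝒩 : IsClosed 𝒩
  hγ : Continuous γ
  hΓ : IsCompact Γ
  hGood : IsClosed Good
  hsub : Good ⊆ Γ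
  hex : ∀ x ∈ Γ, ∃ ν, IsMaxAt 𝒩 γ ν x
  hbd : ∀ x ∈ Γ, ∀ ν, IsMaxAt 𝒩 γ ν x → ‖ν‖ ≤ R₀
  sign : ∀ x ∈ Good, ∀ ν, IsMaxAt 𝒩 γ ν x → L ≤ dot ν x - γ ν → dot ν (f x) < 0

namespace BarrierHyp

variable {f : (Fin d → ℝ) → (Fin d → ℝ)} {𝒩 : Set (Fin d → ℝ)} {γ : (Fin d → ℝ) → ℝ} {L : ℝ}
  {Γ Good : Set (Fin d → ℝ)} {R₀ : ℝ}

/-- Uniform negativity by compactness. -/
lemma exists_delta (H : BarrierHyp f 𝒩 γ L Γ Good R₀) :
    ∃ δ : ℝ, 0 < δ ∧ ∀ x ∈ Good, ∀ ν, IsMaxAt 𝒩 γ ν x → L ≤ dot ν x - γ ν → dot ν (f x) ≤ -δ := by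
  let P : Set ((Fin d → ℝ) × (Fin d → ℝ)) :=
    (Good ×ˢ Metric.closedBall (0 : Fin d → ℝ) R₀) ∩
      ({p | p.2 ∈ 𝒩} ∩ ({p | ∀ ν' ∈ 𝒩, dot ν' p.1 - γ ν' ≤ dot p.2 p.1 - γ p.2} ∩
        {p | L ≤ dot p.2 p.1 - γ p.2}))
  have hGc : IsCompact Good := H.hΓ.of_isClosed_subset H.hGood H.hsub
  have hval : Continuous fun p : (Fin d → ℝ) × (Fin d → ℝ) => dot p.2 p.1 - γ p.2 :=
    (continuous_dot.comp (continuous_snd.prodMk continuous_fst)).sub (H.hγ.comp continuous_snd)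
  have hPc : IsCompact P := by
    refine (hGc.prod (isCompact_closedBall _ _)).inter_right ?_
    refine (H.h𝒩.preimage continuous_snd).inter (IsClosed.inter ?_ ?_)
    · have : {p : (Fin d → ℝ) × (Fin d → ℝ) | ∀ ν' ∈ 𝒩, dot ν' p.1 - γ ν' ≤ dot p.2 p.1 - γ p.2}
          = ⋂ ν' ∈ 𝒩, {p | dot ν' p.1 - γ ν' ≤ dot p.2 p.1 - γ p.2} := by
        ext p; simp
      rw [this]
      refine isClosed_biInter fun ν' _ => isClosed_le ?_ hval
      have h1 : Continuous fun p : (Fin d → ℝ) × (Fin d → ℝ) => dot ν' p.1 :=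
        continuous_dot.comp (continuous_const.prodMk continuous_fst)
      exact h1.sub continuous_const
    · exact isClosed_le continuous_const hval
  have hg : Continuous fun p : (Fin d → ℝ) × (Fin d → ℝ) => dot p.2 (f p.1) :=
    continuous_dot.comp (continuous_snd.prodMk (H.hf.comp continuous_fst))
  have hmem : ∀ x ∈ Good, ∀ ν, IsMaxAt 𝒩 γ ν x → L ≤ dot ν x - γ ν → (x, ν) ∈ P := by
    intro x hx ν hν hL
    refine ⟨⟨hx, ?_⟩, hν.1, hν.2, hL⟩
    rw [mem_closedBall_zero_iff]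
    exact H.hbd x (H.hsub hx) ν hν
  by_cases hne : P.Nonempty
  · obtain ⟨p, hp, hmax⟩ := hPc.exists_isMaxOn hne hg.continuousOn
    have hpneg : dot p.2 (f p.1) < 0 := H.sign p.1 hp.1.1 p.2 ⟨hp.2.1, hp.2.2.1⟩ hp.2.2.2
    refine ⟨- dot p.2 (f p.1), by linarith, fun x hx ν hν hL => ?_⟩
    have := hmax (hmem x hx ν hν hL)
    simp only [mem_setOf_eq] at this
    linarith
  · refine ⟨1, one_pos, fun x hx ν hν hL => ?_⟩
    exact absurd ⟨_, hmem x hx ν hν hL⟩ hne

/-- One decay step. -/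
lemma exists_step (H : BarrierHyp f 𝒩 γ L Γ Good R₀) :
    ∃ δ h : ℝ, 0 < δ ∧ 0 < h ∧ ∀ (x : ℝ → (Fin d → ℝ)) (t t' : ℝ), t < t' → t' ≤ t + h →
      SolOn f x t t' → (∀ s ∈ Icc t t', x s ∈ Γ) → x t' ∈ Good →
      ∀ ν, IsMaxAt 𝒩 γ ν (x t') → L ≤ dot ν (x t') - γ ν →
        dot ν (x t') ≤ dot ν (x t) - δ * (t' - t) / 2 := by
  obtain ⟨δ, hδ, hneg⟩ := H.exists_delta
  set B : ℝ := (d : ℝ) * |R₀| + 1 with hB
  have hB0 : 0 < B := by positivity
  set ε : ℝ := δ / (2 * B) with hε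
  have hε0 : 0 < ε := by positivity
  have hunif : UniformContinuousOn f Γ := H.hΓ.uniformContinuousOn_of_continuous H.hf.continuousOn
  obtain ⟨η, hη, hfη⟩ := Metric.uniformContinuousOn_iff.mp hunif ε hε0
  obtain ⟨M, hM⟩ := H.hΓ.exists_bound_of_continuousOn H.hf.continuousOn
  set M' : ℝ := |M| + 1 with hM'
  have hM'0 : 0 < M' := by positivity
  have hMΓ : ∀ y ∈ Γ, ‖f y‖ ≤ M' := fun y hy =>
    (hM y hy).trans ((le_abs_self _).trans (by linarith))
  set h : ℝ := η / (2 * M') with hh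
  have hh0 : 0 < h := by positivity
  refine ⟨δ, h, hδ, hh0, ?_⟩
  intro x t t' htt' ht'h hsol hΓx hG ν hνmax hνL
  have htt'le : t ≤ t' := htt'.le
  have ht'mem : t' ∈ Icc t t' := ⟨htt'le, le_rfl⟩
  have htmem : t ∈ Icc t t' := ⟨le_rfl, htt'le⟩
  -- the trajectory moves slowly
  have hslow : ∀ s ∈ Icc t t', dist (x s) (x t') < η := by
    intro s hs
    have hder : ∀ u ∈ Icc t t', HasDerivWithinAt x (f (x u)) (Icc t t') u := hsol
    have hb : ∀ u ∈ Icc t t', ‖f (x u)‖ ≤ M' := fun u hu => hMΓ _ (hΓx u hu)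
    have := (convex_Icc t t').norm_image_sub_le_of_norm_hasDerivWithin_le hder hb hs ht'mem
    rw [dist_eq_norm, norm_sub_rev]
    refine lt_of_le_of_lt this ?_
    rw [Real.norm_eq_abs, abs_of_nonneg (by linarith [hs.2])]
    have h1 : t' - s ≤ h := by linarith [hs.1]
    have h2 : M' * (t' - s) ≤ M' * h := mul_le_mul_of_nonneg_left h1 hM'0.le
    have h3 : M' * h = η / 2 := by rw [hh]; field_simp
    linarith
  -- the error term
  set fs : Fin d → ℝ := f (x t') with hfs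
  let y : ℝ → (Fin d → ℝ) := fun s => x s - s • fs
  have hyder : ∀ u ∈ Icc t t', HasDerivWithinAt y (f (x u) - fs) (Icc t t') u := by
    intro u hu
    have h1 : HasDerivWithinAt (fun s : ℝ => s • fs) fs (Icc t t') u := by
      simpa using (hasDerivWithinAt_id u (Icc t t')).smul_const fs
    exact (hsol u hu).sub h1
  have hyb : ∀ u ∈ Icc t t', ‖f (x u) - fs‖ ≤ ε := by
    intro u hu
    have := hfη (x u) (hΓx u hu) (x t') (hΓx t' ht'mem) (hslow u hu)
    rw [dist_eq_norm] at this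
    exact this.le
  have hE := (convex_Icc t t').norm_image_sub_le_of_norm_hasDerivWithin_le hyder hyb htmem ht'mem
  have htpos : 0 < t' - t := by linarith
  have hnormdiff : ‖t' - t‖ = t' - t := by
    rw [Real.norm_eq_abs, abs_of_pos htpos]
  rw [hnormdiff] at hE
  -- the computation of the difference
  have hdiff : x t' - x t = (t' - t) • fs + (y t' - y t) := by
    simp only [y]
    rw [sub_smul]
    abel
  have hνb : ‖ν‖ ≤ R₀ := H.hbd _ (hΓx t' ht'mem) ν hνmax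
  have hνneg := hneg _ hG ν hνmax hνL
  have herr : dot ν (y t' - y t) ≤ δ / 2 * (t' - t) := by
    have h1 := (le_abs_self _).trans (abs_dot_le ν (y t' - y t))
    have h2 : (d : ℝ) * ‖ν‖ ≤ B := by
      have : ‖ν‖ ≤ |R₀| := hνb.trans (le_abs_self _)
      have h3 : (d : ℝ) * ‖ν‖ ≤ (d : ℝ) * |R₀| :=
        mul_le_mul_of_nonneg_left this (Nat.cast_nonneg _)
      rw [hB]; linarith
    have h4 : (d : ℝ) * ‖ν‖ * ‖y t' - y t‖ ≤ B * (ε * (t' - t)) :=
      mul_le_mul h2 hE (norm_nonneg _) hB0.le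
    have h5 : B * (ε * (t' - t)) = δ / 2 * (t' - t) := by
      rw [hε]; field_simp
    linarith
  have hmain : dot ν (x t') - dot ν (x t) = (t' - t) * dot ν fs + dot ν (y t' - y t) := by
    rw [← dot_sub_right, hdiff, dot_add_right, dot_smul_right]
  have h6 : (t' - t) * dot ν fs ≤ (t' - t) * (-δ) := mul_le_mul_of_nonneg_left hνneg htpos.le
  have h7 : dot ν (x t') - dot ν (x t) ≤ - (δ * (t' - t) / 2) := by
    rw [hmain]
    nlinarith
  linarith

/-- Invariance of the constraints along solutions in `Good`. -/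
theorem inv (H : BarrierHyp f 𝒩 γ L Γ Good R₀) {x : ℝ → (Fin d → ℝ)} {a b : ℝ}
    (hx : SolOn f x a b) (hG : ∀ s ∈ Icc a b, x s ∈ Good) (h0 : ConAt 𝒩 γ L (x a)) :
    ∀ s ∈ Icc a b, ConAt 𝒩 γ L (x s) := by
  obtain ⟨δ, h, hδ, hh, hstep⟩ := H.exists_step
  let S : Set ℝ := x ⁻¹' {y | ConAt 𝒩 γ L y}
  have hsub : Icc a b ⊆ S := by
    refine IsClosed.Icc_subset_of_forall_mem_nhdsWithin ?_ h0 ?_
    · rw [inter_comm]
      exact hx.continuousOn.preimage_isClosed_of_isClosed isClosed_Icc (isClosed_conAt 𝒩 γ L)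
    · rintro t ⟨htS, htI⟩
      refine mem_of_superset (Ioo_mem_nhdsGT (show t < min b (t + h) from
        lt_min htI.2 (by linarith))) ?_
      intro t' ht'
      have ht'1 : t' ≤ b := (ht'.2.trans_le (min_le_left _ _)).le
      have ht'2 : t' ≤ t + h := (ht'.2.trans_le (min_le_right _ _)).le
      have htt' : t < t' := ht'.1
      have hsubI : Icc t t' ⊆ Icc a b := Icc_subset_Icc htI.1 ht'1
      have ht'I : t' ∈ Icc a b := hsubI ⟨htt'.le, le_rfl⟩
      by_contra hnot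
      have hnot' : ¬ ConAt 𝒩 γ L (x t') := hnot
      obtain ⟨ν', hν', hν'L⟩ := exists_of_not_conAt hnot'
      obtain ⟨ν, hνmax⟩ := H.hex _ (H.hsub (hG t' ht'I))
      have hνL : L < dot ν (x t') - γ ν := hν'L.trans_le (hνmax.2 ν' hν')
      have hst := hstep x t t' htt' ht'2 (hx.mono htI.1 ht'1)
        (fun s hs => H.hsub (hG s (hsubI hs))) (hG t' ht'I) ν hνmax hνL.le
      have hcon : dot ν (x t) - γ ν ≤ L := htS ν hνmax.1
      have : 0 < δ * (t' - t) / 2 := by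
        have : 0 < t' - t := by linarith
        positivity
      linarith
  exact fun s hs => hsub hs

/-- Absorption: a solution that stays in `Good` eventually satisfies the constraints. -/
theorem abs (H : BarrierHyp f 𝒩 γ L Γ Good R₀) {x : ℝ → (Fin d → ℝ)} {T₀ : ℝ}
    (hx : ∀ s, T₀ ≤ s → HasDerivWithinAt x (f (x s)) (Ici T₀) s)
    (hG : ∀ s, T₀ ≤ s → x s ∈ Good) :
    ∃ T₁, T₀ ≤ T₁ ∧ ∀ s, T₁ ≤ s → ConAt 𝒩 γ L (x s) := by
  have hsol : ∀ a b, T₀ ≤ a → SolOn f x a b := by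
    intro a b ha t ht
    exact (hx t (ha.trans ht.1)).mono fun u hu => ha.trans hu.1
  obtain ⟨δ, h, hδ, hh, hstep⟩ := H.exists_step
  -- first find a time at which the constraints hold
  have hfirst : ∃ s₁, T₀ ≤ s₁ ∧ ConAt 𝒩 γ L (x s₁) := by
    by_contra hnone
    push Not at hnone
    let τ : ℕ → ℝ := fun n => T₀ + n * h
    have hτ : ∀ n, T₀ ≤ τ n := fun n => by
      simp only [τ]
      have : 0 ≤ (n : ℝ) * h := by positivity
      linarith
    have hchoice : ∀ n, ∃ ν, IsMaxAt 𝒩 γ ν (x (τ n)) := fun n => H.hex _ (H.hsub (hG _ (hτ n)))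
    choose ν hν using hchoice
    let V : ℕ → ℝ := fun n => dot (ν n) (x (τ n)) - γ (ν n)
    have hVL : ∀ n, L < V n := by
      intro n
      have h1 := hnone (τ n) (hτ n)
      obtain ⟨ν', hν', hν'L⟩ := exists_of_not_conAt h1
      exact hν'L.trans_le ((hν n).2 ν' hν')
    have hVstep : ∀ n, V (n + 1) ≤ V n - δ * h / 2 := by
      intro n
      have hτs : τ (n + 1) = τ n + h := by
        simp only [τ]; push_cast; ring
      have hlt : τ n < τ (n + 1) := by rw [hτs]; linarith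
      have hst := hstep x (τ n) (τ (n + 1)) hlt hτs.le (hsol _ _ (hτ n))
        (fun s hs => H.hsub (hG s ((hτ n).trans hs.1))) (hG _ (hτ _)) (ν (n + 1)) (hν (n + 1))
        (hVL (n + 1)).le
      have h2 := (hν n).2 (ν (n + 1)) (hν (n + 1)).1
      have h3 : τ (n + 1) - τ n = h := by rw [hτs]; ring
      rw [h3] at hst
      simp only [V]
      linarith
    have hVn : ∀ n : ℕ, V n ≤ V 0 - n * (δ * h / 2) := by
      intro n
      induction n with
      | zero => simp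
      | succ n ih =>
        have := hVstep n
        push_cast
        linarith
    obtain ⟨n, hn⟩ := exists_nat_gt ((V 0 - L) / (δ * h / 2))
    have hpos : 0 < δ * h / 2 := by positivity
    rw [div_lt_iff₀ hpos] at hn
    have := hVn n
    have := hVL n
    linarith
  obtain ⟨s₁, hs₁, hcon⟩ := hfirst
  refine ⟨s₁, hs₁, fun s hs => ?_⟩
  exact H.inv (hsol s₁ s hs₁) (fun u hu => hG u (hs₁.trans hu.1)) hcon s ⟨hs, le_rfl⟩

end BarrierHyp

/-! ### The exact API requested for `Cons.lean` -/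

theorem solution_pos (R : Network d) (k : (Fin d → ℕ) × (Fin d → ℕ) → ℝ)
    (hk : ∀ r ∈ R, 0 < k r)
    (x : ℝ → Fin d → ℝ) (T : ℝ)
    (hx : ∀ t ∈ Icc 0 T, HasDerivWithinAt x (field R k (x t)) (Icc 0 T) t)
    (h0 : ∀ i, 0 < x 0 i) : ∀ t ∈ Icc 0 T, ∀ i, 0 < x t i :=
  pos_of_sol R k hk hx h0

theorem solution_class (R : Network d) (k : (Fin d → ℕ) × (Fin d → ℕ) → ℝ)
    (x : ℝ → Fin d → ℝ) (T : ℝ)
    (hx : ∀ t ∈ Icc 0 T, HasDerivWithinAt x (field R k (x t)) (Icc 0 T) t) :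
    ∀ t ∈ Icc 0 T, x t - x 0 ∈ stoichSubspace R :=
  class_of_sol R k hx

theorem solution_unique (R : Network d) (k : (Fin d → ℕ) × (Fin d → ℕ) → ℝ)
    (x x' : ℝ → Fin d → ℝ) (hx : IsForwardSolution (field R k) x)
    (hx' : IsForwardSolution (field R k) x') (h0 : x 0 = x' 0) :
    ∀ t, 0 ≤ t → x t = x' t :=
  forward_unique (contDiff_field R k) hx hx' h0

theorem exists_global_solution (R : Network d) (k : (Fin d → ℕ) × (Fin d → ℕ) → ℝ)
    (K : Set (Fin d → ℝ)) (hK : IsCompact K)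
    (hinv : ∀ (x : ℝ → Fin d → ℝ) (T : ℝ), 0 ≤ T →
      (∀ t ∈ Icc 0 T, HasDerivWithinAt x (field R k (x t)) (Icc 0 T) t) →
      x 0 ∈ K → ∀ t ∈ Icc 0 T, x t ∈ K)
    (x₀ : Fin d → ℝ) (hx₀ : x₀ ∈ K) :
    ∃ x : ℝ → Fin d → ℝ, IsForwardSolution (field R k) x ∧ x 0 = x₀ ∧ ∀ t, 0 ≤ t → x t ∈ K :=
  exists_forward_of_invariant (contDiff_field R k) hK
    (fun T hT y hy hy0 => hinv y T hT hy hy0) hx₀

/-- `ν` is a maximiser of `ν ↦ ν·x - γ ν` on `𝒩`. -/
abbrev IsMax (𝒩 : Set (Fin d → ℝ)) (γ : (Fin d → ℝ) → ℝ) (ν x : Fin d → ℝ) : Prop :=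
  IsMaxAt 𝒩 γ ν x

/-- The constraint `ν·x - γ ν ≤ L` for all `ν ∈ 𝒩`. -/
abbrev Con (𝒩 : Set (Fin d → ℝ)) (γ : (Fin d → ℝ) → ℝ) (L : ℝ) (x : Fin d → ℝ) : Prop :=
  ConAt 𝒩 γ L x

/-- Hypotheses of the abstract barrier dynamics. -/
structure BarrierData (f : (Fin d → ℝ) → (Fin d → ℝ)) (𝒩 : Set (Fin d → ℝ))
    (γ : (Fin d → ℝ) → ℝ) (L : ℝ) (Γ Good : Set (Fin d → ℝ)) : Prop where
  hf : Continuous f
  h𝒩 : IsClosed 𝒩
  hγ : Continuous γ
  hΓ : IsCompact Γ
  hGood : Good ⊆ Γ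
  hGoodc : IsClosed Good
  hex : ∀ x ∈ Γ, ∃ ν, IsMax 𝒩 γ ν x
  hbd : ∃ R₀ : ℝ, ∀ x ∈ Γ, ∀ ν, IsMax 𝒩 γ ν x → ‖ν‖ ≤ R₀
  hsign : ∀ x ∈ Good, ∀ ν, IsMax 𝒩 γ ν x → L ≤ dot ν x - γ ν → dot ν (f x) < 0

lemma BarrierData.exists_hyp {f : (Fin d → ℝ) → (Fin d → ℝ)} {𝒩 : Set (Fin d → ℝ)}
    {γ : (Fin d → ℝ) → ℝ} {L : ℝ} {Γ Good : Set (Fin d → ℝ)}
    (h : BarrierData f 𝒩 γ L Γ Good) : ∃ R₀, BarrierHyp f 𝒩 γ L Γ Good R₀ := by
  obtain ⟨R₀, hR₀⟩ := h.hbd
  exact ⟨R₀, ⟨h.hf, h.h𝒩, h.hγ, h.hΓ, h.hGoodc, h.hGood, h.hex, hR₀, h.hsign⟩⟩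

theorem barrier_inv {f : (Fin d → ℝ) → (Fin d → ℝ)} {𝒩 : Set (Fin d → ℝ)}
    {γ : (Fin d → ℝ) → ℝ} {L : ℝ} {Γ Good : Set (Fin d → ℝ)}
    (h : BarrierData f 𝒩 γ L Γ Good) (x : ℝ → Fin d → ℝ) (a b : ℝ) (hab : a ≤ b)
    (hx : ∀ t ∈ Icc a b, HasDerivWithinAt x (f (x t)) (Icc a b) t)
    (hgood : ∀ t ∈ Icc a b, x t ∈ Good) (h0 : Con 𝒩 γ L (x a)) :
    ∀ t ∈ Icc a b, Con 𝒩 γ L (x t) := by
  obtain ⟨R₀, H⟩ := h.exists_hyp
  exact H.inv hx hgood h0

theorem barrier_abs {f : (Fin d → ℝ) → (Fin d → ℝ)} {𝒩 : Set (Fin d → ℝ)}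
    {γ : (Fin d → ℝ) → ℝ} {L : ℝ} {Γ Good : Set (Fin d → ℝ)}
    (h : BarrierData f 𝒩 γ L Γ Good) (x : ℝ → Fin d → ℝ) (T₀ : ℝ)
    (hx : ∀ t, T₀ ≤ t → HasDerivWithinAt x (f (x t)) (Ici T₀) t)
    (hgood : ∀ t, T₀ ≤ t → x t ∈ Good) :
    ∃ T₁, T₀ ≤ T₁ ∧ ∀ t, T₁ ≤ t → Con 𝒩 γ L (x t) := by
  obtain ⟨R₀, H⟩ := h.exists_hyp
  exact H.abs hx hgood

end Crest.Agent.Lib.MAK
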