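import Mathlib
import Crest.Prelude.Def_MassAction

/-!
# S0122 block C1: the sign of the flux through a tropical barrier

`flux_sign`: for a weakly reversible network with positive rates there is `κ ≥ 1` such that,
if `θ` is "tropically aligned" with `log x` with margin `log κ` on the sources of the network,
then `⟨θ, field x⟩ ≤ 0`, strictly unless `θ` annihilates all reaction vectors.

The proof is a charging argument: every reaction `r` going up along `ℓ = ⟨θ, ·⟩` has a return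
path from `r.2` to `r.1`, whose descending steps cover the interval `[ℓ r.1, ℓ r.2)`.
Their sources lie strictly above `r.1`, hence carry at least `κ/ρ` times the flux of `r`.
-/

set_option autoImplicit false

namespace Crest.Agent.Lib.MAK

open Crest.AnalysisR.MassAction MeasureTheory

/-- A path from above `τ` to at most `τ` crosses `τ`. -/
lemma exists_crossing {α : Type*} (ℓ : α → ℝ) (rel : α → α → Prop) {a b : α}
    (h : Relation.ReflTransGen rel a b) {τ : ℝ} (ha : τ < ℓ a) (hb : ℓ b ≤ τ) :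
    ∃ u v, rel u v ∧ ℓ v ≤ τ ∧ τ < ℓ u := by
  induction h with
  | refl => exact absurd hb (not_le.mpr ha)
  | @tail c b' _ hcb ih =>
    by_cases hc : ℓ c ≤ τ
    · exact ih hc
    · exact ⟨c, b', hcb, hb, not_le.mp hc⟩

/-- The descending steps available on the way from `a` down to `b` have total length at least
`ℓ a - ℓ b`. -/
lemma le_sum_descending {α : Type*} [DecidableEq α] (R : Finset (α × α)) (ℓ : α → ℝ) {a b : α}
    (h : Relation.ReflTransGen (fun a b => (a, b) ∈ R) a b) :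
    ℓ a - ℓ b ≤ ∑ r ∈ R.filter (fun r => ℓ r.2 < ℓ r.1 ∧ ℓ b < ℓ r.1), (ℓ r.1 - ℓ r.2) := by
  classical
  set F := R.filter (fun r => ℓ r.2 < ℓ r.1 ∧ ℓ b < ℓ r.1) with hF
  have hsub : Set.Ico (ℓ b) (ℓ a) ⊆ ⋃ r ∈ F, Set.Ico (ℓ r.2) (ℓ r.1) := by
    intro τ hτ
    obtain ⟨u, v, huv, hv, hu⟩ := exists_crossing ℓ _ h hτ.2 hτ.1
    refine Set.mem_biUnion (x := (u, v)) ?_ ⟨hv, hu⟩
    simp only [hF, Finset.coe_filter, Set.mem_ofPred_eq]
    exact ⟨huv, lt_of_le_of_lt hv hu, lt_of_le_of_lt hτ.1 hu⟩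
  have hnn : ∀ r ∈ F, 0 ≤ ℓ r.1 - ℓ r.2 := by
    intro r hr
    have := (Finset.mem_filter.mp hr).2.1
    linarith
  have hvol : volume (Set.Ico (ℓ b) (ℓ a)) ≤ ∑ r ∈ F, volume (Set.Ico (ℓ r.2) (ℓ r.1)) :=
    (measure_mono hsub).trans (measure_biUnion_finset_le _ _)
  simp only [Real.volume_Ico] at hvol
  rw [← ENNReal.ofReal_sum_of_nonneg hnn] at hvol
  have hsum : 0 ≤ ∑ r ∈ F, (ℓ r.1 - ℓ r.2) := Finset.sum_nonneg hnn
  by_contra hcon
  push Not at hcon
  have hlt : ENNReal.ofReal (∑ r ∈ F, (ℓ r.1 - ℓ r.2)) < ENNReal.ofReal (ℓ a - ℓ b) :=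
    (ENNReal.ofReal_lt_ofReal_iff (lt_of_le_of_lt hsum hcon)).mpr hcon
  exact absurd hvol (not_le.mpr hlt)

variable {d : ℕ}

/-- The pairing of a linear form with the field, as a sum over reactions. -/
lemma sum_mul_field (R : Network d) (k : (Fin d → ℕ) × (Fin d → ℕ) → ℝ) (x θ : Fin d → ℝ) :
    ∑ i, θ i * field R k x i =
      ∑ r ∈ R, (k r * ∏ i, x i ^ (r.1 i)) * ∑ i, θ i * reactionVector r i := by
  simp only [field, Finset.sum_apply, Pi.smul_apply, smul_eq_mul, Finset.mul_sum]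
  rw [Finset.sum_comm]
  refine Finset.sum_congr rfl fun r _ => Finset.sum_congr rfl fun i _ => ?_
  ring

/-- **Flux sign.** -/
theorem flux_sign (R : Network d) (hR : IsWeaklyReversible R)
    (k : (Fin d → ℕ) × (Fin d → ℕ) → ℝ) (hk : ∀ r ∈ R, 0 < k r) :
    ∃ κ : ℝ, 1 ≤ κ ∧ ∀ x θ : Fin d → ℝ, (∀ i, 0 < x i) →
      (∀ r ∈ R, ∀ r' ∈ R, 0 < ∑ i, θ i * ((r.1 i : ℝ) - r'.1 i) →
        Real.log κ ≤ ∑ i, Real.log (x i) * ((r.1 i : ℝ) - r'.1 i)) →
      (∑ i, θ i * field R k x i ≤ 0) ∧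
        ((∃ r ∈ R, ∑ i, θ i * reactionVector r i ≠ 0) → ∑ i, θ i * field R k x i < 0) := by
  classical
  -- the constants
  set ρ : ℝ := 1 + ∑ r ∈ R, ∑ r' ∈ R, k r / k r' with hρdef
  have hsumnn : 0 ≤ ∑ r ∈ R, ∑ r' ∈ R, k r / k r' :=
    Finset.sum_nonneg fun r hr => Finset.sum_nonneg fun r' hr' =>
      (div_pos (hk r hr) (hk r' hr')).le
  have hρ1 : 1 ≤ ρ := by rw [hρdef]; linarith
  have hρ : ∀ r ∈ R, ∀ r' ∈ R, k r ≤ ρ * k r' := by
    intro r hr r' hr'
    have h1 : k r / k r' ≤ ∑ r' ∈ R, k r / k r' :=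
      Finset.single_le_sum (f := fun r' => k r / k r')
        (fun r'' hr'' => (div_pos (hk r hr) (hk r'' hr'')).le) hr'
    have h2 : ∑ r' ∈ R, k r / k r' ≤ ∑ r ∈ R, ∑ r' ∈ R, k r / k r' :=
      Finset.single_le_sum (f := fun r => ∑ r' ∈ R, k r / k r')
        (fun r'' hr'' => Finset.sum_nonneg fun r3 hr3 =>
          (div_pos (hk r'' hr'') (hk r3 hr3)).le) hr
    have h3 : k r / k r' ≤ ρ := by rw [hρdef]; linarith
    have := hk r' hr'
    rwa [div_le_iff₀ this] at h3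
  set n : ℝ := (R.card : ℝ) with hn
  have hn0 : 0 ≤ n := by rw [hn]; positivity
  set κ : ℝ := 2 * n * ρ + 1 with hκdef
  have hκ1 : 1 ≤ κ := by
    rw [hκdef]
    have : 0 ≤ 2 * n * ρ := by positivity
    linarith
  have hκ0 : 0 < κ := by linarith
  refine ⟨κ, hκ1, ?_⟩
  intro x θ hx hsep
  -- notation
  set ℓ : (Fin d → ℕ) → ℝ := fun c => ∑ i, θ i * (c i : ℝ) with hℓ
  set mon : (Fin d → ℕ) → ℝ := fun c => ∏ i, x i ^ (c i) with hmon
  have hmonpos : ∀ c, 0 < mon c := fun c => Finset.prod_pos fun i _ => pow_pos (hx i) _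
  set w : (Fin d → ℕ) × (Fin d → ℕ) → ℝ := fun r => k r * mon r.1 with hw
  have hwpos : ∀ r ∈ R, 0 < w r := fun r hr => mul_pos (hk r hr) (hmonpos _)
  have hre : ∀ r : (Fin d → ℕ) × (Fin d → ℕ), ∑ i, θ i * reactionVector r i = ℓ r.2 - ℓ r.1 := by
    intro r
    simp only [hℓ, reactionVector, mul_sub, Finset.sum_sub_distrib]
  have hlogmon : ∀ c, Real.log (mon c) = ∑ i, Real.log (x i) * (c i : ℝ) := by
    intro c
    simp only [hmon]
    rw [Real.log_prod (fun i _ => (pow_pos (hx i) _).ne')]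
    refine Finset.sum_congr rfl fun i _ => ?_
    rw [Real.log_pow]; ring
  -- the comparison of monomials
  have hcomp : ∀ r ∈ R, ∀ r' ∈ R, ℓ r.1 < ℓ r'.1 → κ * w r ≤ ρ * w r' := by
    intro r hr r' hr' hlt
    have h0 : 0 < ∑ i, θ i * ((r'.1 i : ℝ) - r.1 i) := by
      have : ∑ i, θ i * ((r'.1 i : ℝ) - r.1 i) = ℓ r'.1 - ℓ r.1 := by
        simp only [hℓ, mul_sub, Finset.sum_sub_distrib]
      rw [this]; linarith
    have h1 := hsep r' hr' r hr h0
    have h2 : ∑ i, Real.log (x i) * ((r'.1 i : ℝ) - r.1 i) =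
        Real.log (mon r'.1) - Real.log (mon r.1) := by
      rw [hlogmon, hlogmon, ← Finset.sum_sub_distrib]
      exact Finset.sum_congr rfl fun i _ => by ring
    rw [h2] at h1
    have h3 : Real.log (κ * mon r.1) ≤ Real.log (mon r'.1) := by
      rw [Real.log_mul hκ0.ne' (hmonpos _).ne']; linarith
    have h4 : κ * mon r.1 ≤ mon r'.1 :=
      (Real.log_le_log_iff (mul_pos hκ0 (hmonpos _)) (hmonpos _)).mp h3
    have hkr := hk r hr
    calc κ * w r = k r * (κ * mon r.1) := by simp only [hw]; ring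
      _ ≤ k r * mon r'.1 := by gcongr
      _ ≤ (ρ * k r') * mon r'.1 := by
          have := hρ r hr r' hr'
          have hm := hmonpos r'.1
          gcongr
      _ = ρ * w r' := by simp only [hw]; ring
  -- the outgoing flux
  set Ex := R.filter (fun r => ℓ r.2 < ℓ r.1) with hEx
  set X : ℝ := ∑ r ∈ Ex, w r * (ℓ r.1 - ℓ r.2) with hX
  have hExpos : ∀ r ∈ Ex, 0 < w r * (ℓ r.1 - ℓ r.2) := by
    intro r hr
    obtain ⟨hrR, hlt⟩ := Finset.mem_filter.mp hr
    exact mul_pos (hwpos r hrR) (by linarith)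
  have hX0 : 0 ≤ X := Finset.sum_nonneg fun r hr => (hExpos r hr).le
  -- the charging estimate for an entering reaction
  have hcharge : ∀ r ∈ R, ℓ r.1 < ℓ r.2 → κ * (w r * (ℓ r.2 - ℓ r.1)) ≤ ρ * X := by
    intro r hr hlt
    have hpath := hR r hr
    have hcov := le_sum_descending R ℓ hpath
    set F := R.filter (fun r' => ℓ r'.2 < ℓ r'.1 ∧ ℓ r.1 < ℓ r'.1) with hFdef
    have hFsub : F ⊆ Ex := by
      intro r' hr'
      obtain ⟨h1, h2, _⟩ := Finset.mem_filter.mp hr'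
      exact Finset.mem_filter.mpr ⟨h1, h2⟩
    have hwr := hwpos r hr
    calc κ * (w r * (ℓ r.2 - ℓ r.1)) = κ * w r * (ℓ r.2 - ℓ r.1) := by ring
      _ ≤ κ * w r * ∑ r' ∈ F, (ℓ r'.1 - ℓ r'.2) := by gcongr
      _ = ∑ r' ∈ F, κ * w r * (ℓ r'.1 - ℓ r'.2) := by rw [Finset.mul_sum]
      _ ≤ ∑ r' ∈ F, ρ * (w r' * (ℓ r'.1 - ℓ r'.2)) := by
          refine Finset.sum_le_sum fun r' hr' => ?_
          obtain ⟨h1, h2, h3⟩ := Finset.mem_filter.mp hr'
          have h4 := hcomp r hr r' h1 h3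
          have h5 : 0 ≤ ℓ r'.1 - ℓ r'.2 := by linarith
          calc κ * w r * (ℓ r'.1 - ℓ r'.2) ≤ ρ * w r' * (ℓ r'.1 - ℓ r'.2) := by gcongr
            _ = ρ * (w r' * (ℓ r'.1 - ℓ r'.2)) := by ring
      _ = ρ * ∑ r' ∈ F, w r' * (ℓ r'.1 - ℓ r'.2) := by rw [Finset.mul_sum]
      _ ≤ ρ * X := by
          have hρ0 : 0 ≤ ρ := by linarith
          refine mul_le_mul_of_nonneg_left ?_ hρ0
          exact Finset.sum_le_sum_of_subset_of_nonneg hFsub fun r' hr' _ => (hExpos r' hr').le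
  -- the pointwise bound
  have hpt : ∀ r ∈ R, κ * (w r * (ℓ r.2 - ℓ r.1)) ≤
      ρ * X - κ * (if r ∈ Ex then w r * (ℓ r.1 - ℓ r.2) else 0) := by
    intro r hr
    have hρ0 : 0 ≤ ρ * X := by
      have : 0 ≤ ρ := by linarith
      positivity
    by_cases h : r ∈ Ex
    · rw [if_pos h]
      have : κ * (w r * (ℓ r.2 - ℓ r.1)) = - (κ * (w r * (ℓ r.1 - ℓ r.2))) := by ring
      rw [this]; linarith
    · rw [if_neg h]
      have hnot : ¬ ℓ r.2 < ℓ r.1 := fun hc => h (Finset.mem_filter.mpr ⟨hr, hc⟩)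
      rcases lt_or_eq_of_le (not_lt.mp hnot) with hlt | heq
      · have := hcharge r hr hlt
        simpa using this
      · rw [heq]
        simpa using hρ0
  set S : ℝ := ∑ r ∈ R, w r * (ℓ r.2 - ℓ r.1) with hS
  have hfieldS : ∑ i, θ i * field R k x i = S := by
    rw [sum_mul_field]
    refine Finset.sum_congr rfl fun r _ => ?_
    rw [hre]
  have hmain : κ * S ≤ n * (ρ * X) - κ * X := by
    have h1 : κ * S = ∑ r ∈ R, κ * (w r * (ℓ r.2 - ℓ r.1)) := by
      rw [hS, Finset.mul_sum]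
    have h2 : ∑ r ∈ R, κ * (w r * (ℓ r.2 - ℓ r.1)) ≤
        ∑ r ∈ R, (ρ * X - κ * (if r ∈ Ex then w r * (ℓ r.1 - ℓ r.2) else 0)) :=
      Finset.sum_le_sum hpt
    have h3 : ∑ r ∈ R, (ρ * X - κ * (if r ∈ Ex then w r * (ℓ r.1 - ℓ r.2) else 0)) =
        n * (ρ * X) - κ * X := by
      rw [Finset.sum_sub_distrib, Finset.sum_const, nsmul_eq_mul, ← Finset.mul_sum]
      have hX' : ∑ r ∈ R, (if r ∈ Ex then w r * (ℓ r.1 - ℓ r.2) else 0) = X := by
        rw [Finset.sum_ite_mem, Finset.inter_eq_right.mpr (Finset.filter_subset _ _)]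
      rw [hX']
    rw [h1]; linarith [h2, h3.le]
  have hS' : κ * S ≤ - (κ * X) / 2 := by
    have h : n * (ρ * X) ≤ κ * X / 2 := by
      have : κ * X / 2 = n * (ρ * X) + X / 2 := by rw [hκdef]; ring
      rw [this]; linarith
    linarith
  have hS2 : S ≤ - X / 2 := by
    have : κ * S ≤ κ * (- X / 2) := by
      calc κ * S ≤ - (κ * X) / 2 := hS'
        _ = κ * (- X / 2) := by ring
    exact le_of_mul_le_mul_left this hκ0
  rw [hfieldS]
  refine ⟨by linarith, ?_⟩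
  rintro ⟨r, hr, hne⟩
  rw [hre] at hne
  -- some exit reaction exists
  have hExne : ∃ r' ∈ Ex, True := by
    rcases lt_or_gt_of_ne hne with hlt | hgt
    · have : ℓ r.2 < ℓ r.1 := by linarith
      exact ⟨r, Finset.mem_filter.mpr ⟨hr, this⟩, trivial⟩
    · have hlt : ℓ r.1 < ℓ r.2 := by linarith
      obtain ⟨u, v, huv, hv, hu⟩ := exists_crossing ℓ _ (hR r hr) hlt le_rfl
      exact ⟨(u, v), Finset.mem_filter.mpr ⟨huv, lt_of_le_of_lt hv hu⟩, trivial⟩
  obtain ⟨r', hr', -⟩ := hExne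
  have hXpos : 0 < X := Finset.sum_pos' (fun r hr => (hExpos r hr).le) ⟨r', hr', hExpos r' hr'⟩
  linarith

end Crest.Agent.Lib.MAK
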