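import Mathlib
import Crest.Prelude.Def_MassAction
import Crest.Agent.Lib.MAK.Defs
import Crest.Agent.Lib.MAK.Flux
import Crest.Agent.Lib.MAK.Dyn

/-!
# S0122 block C3, basic lemmas on constraints and maximisers
-/

set_option autoImplicit false

namespace Crest.Agent.Lib.MAK

open Crest.AnalysisR.MassAction Set Filter Topology

variable {d : ℕ}

lemma dot_def (ν x : Fin d → ℝ) : dot ν x = ∑ i, ν i * x i := rfl

lemma continuous_dot_left (x : Fin d → ℝ) : Continuous (fun ν : Fin d → ℝ => dot ν x) := by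
  unfold dot; fun_prop

lemma continuous_dot_right (ν : Fin d → ℝ) : Continuous (fun x : Fin d → ℝ => dot ν x) := by
  unfold dot; fun_prop

lemma dot_zero_left (x : Fin d → ℝ) : dot 0 x = 0 := by simp [dot]

lemma continuous_field' (R : Network d) (k : (Fin d → ℕ) × (Fin d → ℕ) → ℝ) :
    Continuous (field R k) := by
  unfold field
  refine continuous_finsetSum _ fun r _ => ?_
  exact (continuous_const.mul (continuous_finsetProd _ fun i _ =>
    (continuous_apply i).pow _)).smul continuous_const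

lemma isClosed_con (𝒩 : Set (Fin d → ℝ)) (γ : (Fin d → ℝ) → ℝ) (L : ℝ) :
    IsClosed {x | Con 𝒩 γ L x} := isClosed_conAt 𝒩 γ L

lemma convex_con (𝒩 : Set (Fin d → ℝ)) (γ : (Fin d → ℝ) → ℝ) (L : ℝ) :
    Convex ℝ {x | Con 𝒩 γ L x} := by
  intro x hx y hy a b ha hb hab ν hν
  have h1 := hx ν hν
  have h2 := hy ν hν
  rw [dot_add_right, dot_smul_right, dot_smul_right]
  have hab' : b = 1 - a := by linarith
  subst hab'
  nlinarith [mul_le_mul_of_nonneg_left h1 ha, mul_le_mul_of_nonneg_left h2 hb]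

/-- Uniform two-sided bounds on a compact subset of the open orthant. -/
lemma exists_bounds {Γ : Set (Fin d → ℝ)} (hΓ : IsCompact Γ) (hpos : ∀ x ∈ Γ, ∀ i, 0 < x i) :
    ∃ m A : ℝ, 0 < m ∧ 0 < A ∧ ∀ x ∈ Γ, ∀ i, m ≤ x i ∧ x i ≤ A := by
  have hlow : ∀ i : Fin d, ∃ m : ℝ, 0 < m ∧ ∀ x ∈ Γ, m ≤ x i := by
    intro i
    rcases Γ.eq_empty_or_nonempty with h | h
    · exact ⟨1, one_pos, by simp [h]⟩
    · obtain ⟨x₀, hx₀, hmin⟩ := hΓ.exists_isMinOn h (continuous_apply i).continuousOn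
      exact ⟨x₀ i, hpos x₀ hx₀ i, fun x hx => hmin hx⟩
  choose m hm hm' using hlow
  obtain ⟨C, hC⟩ := hΓ.isBounded.exists_norm_le
  have hsum : 0 ≤ ∑ i, (m i)⁻¹ := Finset.sum_nonneg fun i _ => (inv_pos.mpr (hm i)).le
  refine ⟨(1 + ∑ i, (m i)⁻¹)⁻¹, |C| + 1, inv_pos.mpr (by linarith),
    by positivity, fun x hx i => ⟨?_, ?_⟩⟩
  · refine le_trans ?_ (hm' i x hx)
    have h1 : (m i)⁻¹ ≤ ∑ i, (m i)⁻¹ :=
      Finset.single_le_sum (f := fun i => (m i)⁻¹)
        (fun j _ => (inv_pos.mpr (hm j)).le) (Finset.mem_univ i)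
    rw [inv_le_comm₀ (by linarith) (hm i)]
    linarith
  · have h1 : x i ≤ ‖x‖ := (le_abs_self _).trans (norm_le_pi_norm x i)
    have h2 := hC x hx
    have h3 := le_abs_self C
    linarith

/-- A maximiser exists when the relevant superlevel set is bounded. -/
lemma exists_isMax_of_bound {𝒩 : Set (Fin d → ℝ)} (h𝒩 : IsClosed 𝒩) {γ : (Fin d → ℝ) → ℝ}
    (hγ : Continuous γ) (x ν₀ : Fin d → ℝ) (hν₀ : ν₀ ∈ 𝒩) (R₀ : ℝ)
    (hb : ∀ ν ∈ 𝒩, dot ν₀ x - γ ν₀ ≤ dot ν x - γ ν → ‖ν‖ ≤ R₀) :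
    ∃ ν, IsMax 𝒩 γ ν x := by
  have hS : IsCompact (𝒩 ∩ Metric.closedBall 0 R₀) :=
    (isCompact_closedBall 0 R₀).inter_left h𝒩
  have hν₀S : ν₀ ∈ 𝒩 ∩ Metric.closedBall 0 R₀ :=
    ⟨hν₀, by simpa using hb ν₀ hν₀ le_rfl⟩
  have hcont : Continuous fun ν : Fin d → ℝ => dot ν x - γ ν :=
    (continuous_dot_left x).sub hγ
  obtain ⟨ν, hν, hmax⟩ := hS.exists_isMaxOn ⟨ν₀, hν₀S⟩ hcont.continuousOn
  refine ⟨ν, hν.1, fun ν' hν' => ?_⟩
  by_cases hin : ν' ∈ Metric.closedBall (0 : Fin d → ℝ) R₀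
  · exact hmax ⟨hν', hin⟩
  · have hnot : ¬ dot ν₀ x - γ ν₀ ≤ dot ν' x - γ ν' := fun h => hin (by simpa using hb ν' hν' h)
    have h1 : dot ν₀ x - γ ν₀ ≤ dot ν x - γ ν := hmax hν₀S
    linarith [not_le.mp hnot]

/-- Coercivity of `ν·x - g ν` on the whole space, uniformly on a box. -/
lemma upper_bound_max (g : (Fin d → ℝ) → ℝ) (Q : ℝ) (hQ : ∀ θ i, Real.exp (θ i - Q) ≤ g θ)
    (hg0 : ∀ θ, 0 ≤ g θ) (m A : ℝ) (hm : 0 < m) (hA : 0 < A) :
    ∃ R₀ : ℝ, ∀ x : Fin d → ℝ, (∀ i, m ≤ x i ∧ x i ≤ A) → ∀ ν : Fin d → ℝ,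
      dot 0 x - g 0 ≤ dot ν x - g ν → ‖ν‖ ≤ R₀ := by
  classical
  set a : ℝ := (A + 1) * ((d : ℝ) + 1) with ha
  have hd0 : (0 : ℝ) ≤ d := Nat.cast_nonneg d
  have hapos : 0 < a := by rw [ha]; positivity
  set c : ℝ := max (Q + Real.log a - 1) 0 with hc
  have hc0 : 0 ≤ c := le_max_right _ _
  -- coordinatewise control by `g`
  have hcoord : ∀ (ν : Fin d → ℝ) i, max (ν i) 0 ≤ g ν / a + c := by
    intro ν i
    have hg := hg0 ν
    have hgdiv : 0 ≤ g ν / a := div_nonneg hg hapos.le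
    refine max_le ?_ (by linarith)
    have h1 := hQ ν i
    have h2 : ν i - Q - Real.log a + 1 ≤ Real.exp (ν i - Q - Real.log a) := by
      have := Real.add_one_le_exp (ν i - Q - Real.log a)
      linarith
    have h3 : Real.exp (ν i - Q - Real.log a) = Real.exp (ν i - Q) / a := by
      rw [sub_eq_add_neg (ν i - Q), Real.exp_add, Real.exp_neg, Real.exp_log hapos]
      rfl
    rw [h3] at h2
    have h4 : Real.exp (ν i - Q) / a ≤ g ν / a := by gcongr
    have h5 : Q + Real.log a - 1 ≤ c := le_max_left _ _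
    linarith
  set C₃ : ℝ := g 0 + (A + 1) * d * c with hC₃
  have hC₃0 : 0 ≤ C₃ := by
    have := hg0 0
    rw [hC₃]; positivity
  refine ⟨C₃ + C₃ / m, fun x hx ν hval => ?_⟩
  set pos : Fin d → ℝ := fun i => max (ν i) 0 with hpos
  set neg : Fin d → ℝ := fun i => max (-ν i) 0 with hneg
  have hpos0 : ∀ i, 0 ≤ pos i := fun i => le_max_right _ _
  have hneg0 : ∀ i, 0 ≤ neg i := fun i => le_max_right _ _
  have hdec : ∀ i, ν i = pos i - neg i := by
    intro i
    simp only [hpos, hneg]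
    rcases le_total (ν i) 0 with h | h
    · rw [max_eq_right h, max_eq_left (by linarith)]; ring
    · rw [max_eq_left h, max_eq_right (by linarith)]; ring
  set p : ℝ := ∑ i, pos i with hp
  set n : ℝ := ∑ i, neg i with hn
  have hp0 : 0 ≤ p := Finset.sum_nonneg fun i _ => hpos0 i
  have hn0 : 0 ≤ n := Finset.sum_nonneg fun i _ => hneg0 i
  -- the value
  have hdot : dot ν x ≤ A * p - m * n := by
    rw [hp, hn, Finset.mul_sum, Finset.mul_sum, ← Finset.sum_sub_distrib]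
    refine Finset.sum_le_sum fun i _ => ?_
    rw [hdec i, sub_mul]
    have h1 := (hx i).1
    have h2 := (hx i).2
    have h3 := hpos0 i
    have h4 := hneg0 i
    have h5 : pos i * x i ≤ A * pos i := by rw [mul_comm]; exact mul_le_mul_of_nonneg_right h2 h3
    have h6 : m * neg i ≤ neg i * x i := by rw [mul_comm]; exact mul_le_mul_of_nonneg_left h1 h4
    linarith
  have hpbound : (A + 1) * p ≤ g ν + (A + 1) * d * c := by
    have h1 : p ≤ d * (g ν / a + c) := by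
      calc p ≤ ∑ _i : Fin d, (g ν / a + c) := Finset.sum_le_sum fun i _ => hcoord ν i
        _ = d * (g ν / a + c) := by simp; ring
    have h2 : (A + 1) * p ≤ (A + 1) * (d * (g ν / a + c)) := by
      have : 0 ≤ A + 1 := by linarith
      exact mul_le_mul_of_nonneg_left h1 this
    have h3 : (A + 1) * (d * (g ν / a + c)) =
        (d / (d + 1)) * g ν + (A + 1) * d * c := by
      rw [ha]; field_simp
    have h4 : (d / ((d : ℝ) + 1)) * g ν ≤ g ν := by
      have h5 : (d : ℝ) / (d + 1) ≤ 1 := by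
        rw [div_le_one (by positivity)]; linarith
      have := hg0 ν
      nlinarith
    linarith
  rw [dot_zero_left] at hval
  have hkey : p + m * n ≤ C₃ := by
    rw [hC₃]
    nlinarith [hval, hdot, hpbound]
  have hp' : p ≤ C₃ := by nlinarith [mul_nonneg hm.le hn0]
  have hn' : n ≤ C₃ / m := by
    rw [le_div_iff₀ hm]
    nlinarith
  refine (pi_norm_le_iff_of_nonneg (by positivity)).mpr fun i => ?_
  rw [Real.norm_eq_abs, abs_le]
  have hpi : pos i ≤ p := Finset.single_le_sum (f := pos) (fun j _ => hpos0 j) (Finset.mem_univ i)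
  have hni : neg i ≤ n := Finset.single_le_sum (f := neg) (fun j _ => hneg0 j) (Finset.mem_univ i)
  have hdi := hdec i
  have h1 := hpos0 i
  have h2 := hneg0 i
  have h3 : 0 ≤ C₃ / m := by positivity
  constructor <;> linarith

end Crest.Agent.Lib.MAK
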