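import Crest.Agent.Lib.MAK.ConsBasic

/-!
# S0122 block C3: the lower constraints attached to a set of species
-/

set_option autoImplicit false

namespace Crest.Agent.Lib.MAK

open Crest.AnalysisR.MassAction Set Filter Topology

variable {d : ℕ}

/-- The flux property of `flux_sign`. -/
def FluxProp (R : Network d) (k : (Fin d → ℕ) × (Fin d → ℕ) → ℝ) (κ : ℝ) : Prop :=
  ∀ x θ : Fin d → ℝ, (∀ i, 0 < x i) →
    (∀ r ∈ R, ∀ r' ∈ R, 0 < ∑ i, θ i * ((r.1 i : ℝ) - r'.1 i) →
      Real.log κ ≤ ∑ i, Real.log (x i) * ((r.1 i : ℝ) - r'.1 i)) →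
    (∑ i, θ i * field R k x i ≤ 0) ∧
      ((∃ r ∈ R, ∑ i, θ i * reactionVector r i ≠ 0) → ∑ i, θ i * field R k x i < 0)

/-- A bound for the `ℓ¹` norm of differences of sources. -/
def netN (R : Network d) : ℕ := 2 * ∑ r ∈ R, ∑ i, r.1 i

lemma netN_spec (R : Network d) {r r' : (Fin d → ℕ) × (Fin d → ℕ)} (hr : r ∈ R) (hr' : r' ∈ R) :
    ∑ i, |((r.1 i : ℤ) - (r'.1 i : ℤ))| ≤ (netN R : ℤ) := by
  have h1 : ∀ r ∈ R, ∑ i, r.1 i ≤ ∑ r ∈ R, ∑ i, r.1 i := fun r hr =>
    Finset.single_le_sum (f := fun r : (Fin d → ℕ) × (Fin d → ℕ) => ∑ i, r.1 i)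
      (fun _ _ => Nat.zero_le _) hr
  have h2 : ∑ i, |((r.1 i : ℤ) - (r'.1 i : ℤ))| ≤ ∑ i, ((r.1 i : ℤ) + (r'.1 i : ℤ)) := by
    refine Finset.sum_le_sum fun i _ => ?_
    rw [abs_le]
    constructor <;> omega
  have h3 := h1 r hr
  have h4 := h1 r' hr'
  have h5 : ∑ i, ((r.1 i : ℤ) + (r'.1 i : ℤ)) = ((∑ i, r.1 i : ℕ) : ℤ) + ((∑ i, r'.1 i : ℕ) : ℤ) := by
    push_cast
    rw [Finset.sum_add_distrib]
  have h6 : (netN R : ℤ) = 2 * ((∑ r ∈ R, ∑ i, r.1 i : ℕ) : ℤ) := by
    simp [netN]
  omega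

lemma netN_spec_real (R : Network d) {r r' : (Fin d → ℕ) × (Fin d → ℕ)} (hr : r ∈ R)
    (hr' : r' ∈ R) : ∑ i, |((r.1 i : ℝ) - (r'.1 i : ℝ))| ≤ (netN R : ℝ) := by
  have := netN_spec R hr hr'
  exact_mod_cast this

/-- A linear form killing all reaction vectors is constant on a stoichiometric class. -/
lemma dot_eq_of_class (R : Network d) (ν x x0 : Fin d → ℝ) (h : x - x0 ∈ stoichSubspace R)
    (hν : ∀ r ∈ R, dot ν (reactionVector r) = 0) : dot ν x = dot ν x0 := by
  have key : ∀ y ∈ stoichSubspace R, dot ν y = 0 := by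
    intro y hy
    induction hy using Submodule.span_induction with
    | mem y hy =>
      obtain ⟨r, hr, rfl⟩ := hy
      exact hν r hr
    | zero => simp [dot]
    | add x y _ _ hx hy => rw [dot_add_right, hx, hy, add_zero]
    | smul a x _ hx => rw [dot_smul_right, hx, mul_zero]
  have := key _ h
  rw [dot_sub_right] at this
  linarith

/-- Changing one coordinate of a linear form. -/
lemma dot_update (ν x : Fin d → ℝ) (i : Fin d) (v : ℝ) :
    dot (Function.update ν i v) x = dot ν x + (v - ν i) * x i := by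
  classical
  have h : dot (Function.update ν i v) x - dot ν x = (v - ν i) * x i := by
    simp only [dot]
    rw [← Finset.sum_sub_distrib, Finset.sum_eq_single i]
    · simp only [Function.update_self]; ring
    · intro j _ hj
      rw [Function.update_of_ne hj]; ring
    · simp
  linarith

/-- The admissible normals attached to `T`. -/
def negSet (T : Finset (Fin d)) : Set (Fin d → ℝ) :=
  {ν | (∀ i, i ∉ T → ν i = 0) ∧ ∀ i ∈ T, ν i ≤ -1}

/-- The restricted barrier. -/
noncomputable def resG {t : ℕ} (g : (Fin t → ℝ) → ℝ) (T : Finset (Fin d)) (hT : T.card = t)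
    (ν : Fin d → ℝ) : ℝ := g (fun a => ν (T.orderEmbOfFin hT a))

lemma isClosed_negSet (T : Finset (Fin d)) : IsClosed (negSet T) := by
  have : negSet T = (⋂ i, ⋂ _ : i ∉ T, {ν : Fin d → ℝ | ν i = 0}) ∩
      (⋂ i, ⋂ _ : i ∈ T, {ν : Fin d → ℝ | ν i ≤ -1}) := by
    ext ν; simp [negSet]
  rw [this]
  refine IsClosed.inter (isClosed_iInter fun i => isClosed_iInter fun _ => ?_)
    (isClosed_iInter fun i => isClosed_iInter fun _ => ?_)
  · exact isClosed_eq (continuous_apply i) continuous_const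
  · exact isClosed_le (continuous_apply i) continuous_const

lemma continuous_resG {t : ℕ} {g : (Fin t → ℝ) → ℝ} (hg : Continuous g) (T : Finset (Fin d))
    (hT : T.card = t) : Continuous (resG g T hT) := by
  unfold resG
  exact hg.comp (continuous_pi fun a => continuous_apply _)

lemma sum_orderEmb {t : ℕ} (T : Finset (Fin d)) (hT : T.card = t) (h : Fin d → ℝ) :
    ∑ a, h (T.orderEmbOfFin hT a) = ∑ i ∈ T, h i := by
  conv_rhs => rw [← Finset.map_orderEmbOfFin_univ T hT, Finset.sum_map]
  rfl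

lemma dot_of_off {t : ℕ} (T : Finset (Fin d)) (hT : T.card = t) {ν : Fin d → ℝ}
    (hν : ∀ i, i ∉ T → ν i = 0) (y : Fin d → ℝ) :
    dot ν y = ∑ a, ν (T.orderEmbOfFin hT a) * y (T.orderEmbOfFin hT a) := by
  rw [sum_orderEmb T hT (fun i => ν i * y i), dot]
  symm
  refine Finset.sum_subset (Finset.subset_univ _) fun i _ hi => ?_
  rw [hν i hi, zero_mul]

lemma negSet_nonpos {T : Finset (Fin d)} {ν : Fin d → ℝ} (hν : ν ∈ negSet T) (i : Fin d) :
    ν i ≤ 0 := by
  by_cases hi : i ∈ T
  · have := hν.2 i hi; linarith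
  · rw [hν.1 i hi]

/-- Each coordinate of `ν ∈ negSet T` is controlled by the value of `ν·y`. -/
lemma dot_le_coord {T : Finset (Fin d)} {ν y : Fin d → ℝ} (hν : ν ∈ negSet T)
    (hy : ∀ i, 0 < y i) (i : Fin d) : dot ν y ≤ ν i * y i := by
  have h : ∀ j ∈ Finset.univ, 0 ≤ -(ν j * y j) := fun j _ => by
    have h1 := negSet_nonpos hν j
    have h2 := hy j
    nlinarith
  have h1 := Finset.single_le_sum h (Finset.mem_univ i)
  simp only [Finset.sum_neg_distrib] at h1
  simp only [dot]
  linarith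

lemma dot_le_neg {T : Finset (Fin d)} {ν y : Fin d → ℝ} (hν : ν ∈ negSet T)
    (hy : ∀ i, 0 < y i) {a : Fin d} (ha : a ∈ T) : dot ν y ≤ - y a := by
  have h1 := dot_le_coord hν hy a
  have h2 := hν.2 a ha
  have h3 := hy a
  nlinarith

/-- The constant admissible normal. -/
noncomputable def negConst (T : Finset (Fin d)) (L : ℝ) : Fin d → ℝ :=
  by classical exact fun i => if i ∈ T then -L else 0

lemma negConst_mem (T : Finset (Fin d)) {L : ℝ} (hL : 1 ≤ L) : negConst T L ∈ negSet T := by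
  classical
  refine ⟨fun i hi => ?_, fun i hi => ?_⟩
  · simp [negConst, hi]
  · simp only [negConst, hi, if_true]; linarith

lemma dot_negConst (T : Finset (Fin d)) (L : ℝ) (y : Fin d → ℝ) :
    dot (negConst T L) y = - (L * ∑ i ∈ T, y i) := by
  classical
  rw [dot, Finset.mul_sum, ← Finset.sum_neg_distrib]
  symm
  apply Finset.sum_subset_zero_on_sdiff (Finset.subset_univ T)
  · intro i hi
    have : i ∉ T := by simpa using hi
    simp [negConst, this]
  · intro i hi
    simp [negConst, hi]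

/-- Existence and uniform bounds of maximisers for the constraint attached to `T`. -/
lemma negSet_bound {t : ℕ} (g : (Fin t → ℝ) → ℝ) (hg0 : ∀ θ, 0 ≤ g θ) (T : Finset (Fin d))
    (hT : T.card = t) (m A : ℝ) (hm : 0 < m) (hA : 0 < A) :
    ∃ R₀ : ℝ, ∀ x : Fin d → ℝ, (∀ i, m ≤ x i ∧ x i ≤ A) → ∀ ν ∈ negSet T,
      dot (negConst T 1) x - resG g T hT (negConst T 1) ≤ dot ν x - resG g T hT ν → ‖ν‖ ≤ R₀ := by
  set γ₀ := resG g T hT (negConst T 1) with hγ₀
  have hγ0 : 0 ≤ γ₀ := hg0 _
  refine ⟨((d : ℝ) * A + γ₀) / m, fun x hx ν hν hval => ?_⟩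
  have hxpos : ∀ i, 0 < x i := fun i => lt_of_lt_of_le hm (hx i).1
  have hγν : 0 ≤ resG g T hT ν := hg0 _
  have hsum : ∑ i ∈ T, x i ≤ (d : ℝ) * A := by
    calc ∑ i ∈ T, x i ≤ ∑ i, x i :=
          Finset.sum_le_sum_of_subset_of_nonneg (Finset.subset_univ T)
            fun i _ _ => (hxpos i).le
      _ ≤ ∑ _i : Fin d, A := Finset.sum_le_sum fun i _ => (hx i).2
      _ = (d : ℝ) * A := by simp
  have h1 : - (dot ν x) ≤ (d : ℝ) * A + γ₀ := by
    rw [dot_negConst] at hval
    simp only [one_mul] at hval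
    linarith
  have hd0 : 0 ≤ (d : ℝ) * A + γ₀ := by positivity
  refine (pi_norm_le_iff_of_nonneg (by positivity)).mpr fun i => ?_
  rw [Real.norm_eq_abs, abs_of_nonpos (negSet_nonpos hν i), le_div_iff₀ hm]
  have h2 := dot_le_coord hν hxpos i
  have h3 := negSet_nonpos hν i
  have h4 := (hx i).1
  nlinarith

/-- **The sign of the flux at an active point of the constraint attached to `T`.** -/
lemma sign_neg {t : ℕ} (R : Network d) (k : (Fin d → ℕ) × (Fin d → ℕ) → ℝ) (κ : ℝ)
    (hκ : FluxProp R k κ) (x0 : Fin d → ℝ) {σ : ℝ} {g : (Fin t → ℝ) → ℝ}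
    (hg : IsBarrier t (netN R) σ g) (T : Finset (Fin d)) (hT : T.card = t) (ht : 1 ≤ t)
    {C Q B η m₀ : ℝ} (hQ : ∀ θ i, Real.exp (θ i - Q) ≤ g θ) (hC0 : 0 < C)
    (hCe : C < Real.exp (-1 - Q)) (hCη : C < η) (hCm : C < m₀) (hη : 0 < η)
    (hσ : σ = Real.log κ + (netN R : ℝ) * (|Real.log B| + |Real.log η|))
    (hm₀ : ∀ i, m₀ ≤ x0 i) (hx0 : ∀ i, 0 < x0 i)
    {x : Fin d → ℝ} (hxpos : ∀ i, 0 < x i) (hcls : x - x0 ∈ stoichSubspace R)
    (hub : ∀ i, x i ≤ B)
    (hlb : ∀ T' : Finset (Fin d), t + 1 ≤ T'.card → ∃ a ∈ T', η ≤ x a)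
    {ν : Fin d → ℝ} (hν : IsMax (negSet T) (resG g T hT) ν x)
    (hval : -C ≤ dot ν x - resG g T hT ν) :
    dot ν (field R k x) < 0 := by
  classical
  set e := T.orderEmbOfFin hT with he
  set θ : Fin t → ℝ := fun a => ν (e a) with hθ
  have hνm := hν.1
  have hγ0 : 0 ≤ resG g T hT ν := hg.nonneg _
  have hdotnp : dot ν x ≤ 0 := by
    refine Finset.sum_nonpos fun i _ => ?_
    exact mul_nonpos_of_nonpos_of_nonneg (negSet_nonpos hνm i) (hxpos i).le
  have hdotC : -C ≤ dot ν x := by linarith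
  have hgC : g θ ≤ C := by
    have : resG g T hT ν = g θ := rfl
    linarith
  -- the coordinates in `T` are small and strictly interior
  have hsmall : ∀ a ∈ T, x a ≤ C := by
    intro a ha
    have := dot_le_neg hνm hxpos ha
    linarith
  have hint : ∀ a, θ a < -1 := by
    intro a
    have h1 := hQ θ a
    have h2 : Real.exp (θ a - Q) < Real.exp (-1 - Q) := by linarith
    have h3 := Real.exp_lt_exp.mp h2
    linarith
  -- the coordinates outside `T` are bounded below
  have hout : ∀ i, i ∉ T → η ≤ x i := by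
    intro i hi
    obtain ⟨a, ha, hxa⟩ := hlb (insert i T) (by rw [Finset.card_insert_of_notMem hi, hT])
    rcases Finset.mem_insert.mp ha with rfl | haT
    · exact hxa
    · have := hsmall a haT
      linarith
  -- local maximality
  have hCLM : CoordLocalMax g (fun a => x (e a)) θ := by
    intro a
    have hev : ∀ᶠ τ in 𝓝 (0 : ℝ), τ < -1 - θ a :=
      eventually_lt_nhds (by have := hint a; linarith)
    refine hev.mono fun τ hτ => ?_
    set ν' := Function.update ν (e a) (ν (e a) + τ) with hν'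
    have hν'm : ν' ∈ negSet T := by
      refine ⟨fun i hi => ?_, fun i hi => ?_⟩
      · have hne : i ≠ e a := by
          rintro rfl
          exact hi (Finset.orderEmbOfFin_mem T hT a)
        rw [hν', Function.update_of_ne hne]
        exact hνm.1 i hi
      · by_cases hia : i = e a
        · subst hia
          rw [hν', Function.update_self]
          have : θ a = ν (e a) := rfl
          linarith
        · rw [hν', Function.update_of_ne hia]
          exact hνm.2 i hi
    have hmax := hν.2 ν' hν'm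
    rw [hν', dot_update] at hmax
    have hres : resG g T hT (Function.update ν (e a) (ν (e a) + τ)) =
        g (Function.update θ a (θ a + τ)) := by
      unfold resG
      congr 1
      funext b
      by_cases hb : b = a
      · subst hb
        simp [hθ, he]
      · have hne : e b ≠ e a := fun h => hb (e.injective h)
        rw [Function.update_of_ne hne, Function.update_of_ne hb]
    rw [hres] at hmax
    have hres2 : resG g T hT ν = g θ := rfl
    rw [hres2] at hmax
    have : ν (e a) + τ - ν (e a) = τ := by ring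
    rw [this] at hmax
    linarith
  -- the tropical alignment
  have halign : ∀ r ∈ R, ∀ r' ∈ R, 0 < ∑ i, ν i * ((r.1 i : ℝ) - r'.1 i) →
      Real.log κ ≤ ∑ i, Real.log (x i) * ((r.1 i : ℝ) - r'.1 i) := by
    intro r hr r' hr' h0
    set δ : Fin d → ℝ := fun i => (r.1 i : ℝ) - r'.1 i with hδ
    set D : Fin t → ℤ := fun a => (r.1 (e a) : ℤ) - (r'.1 (e a) : ℤ) with hD
    have hDcast : ∀ a, (D a : ℝ) = δ (e a) := by
      intro a; simp [hD, hδ]
    have hD1 : ∑ a, |D a| ≤ (netN R : ℤ) := by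
      have h1 : ∑ a, |D a| = ∑ i ∈ T, |((r.1 i : ℤ) - (r'.1 i : ℤ))| := by
        conv_rhs => rw [← Finset.map_orderEmbOfFin_univ T hT, Finset.sum_map]
        rfl
      rw [h1]
      refine le_trans ?_ (netN_spec R hr hr')
      exact Finset.sum_le_sum_of_subset_of_nonneg (Finset.subset_univ T)
        fun i _ _ => abs_nonneg _
    have h0' : 0 < ∑ a, (D a : ℝ) * θ a := by
      have h1 : ∑ i, ν i * δ i = ∑ a, ν (e a) * δ (e a) := dot_of_off T hT hνm.1 δ
      have h2 : ∑ a, (D a : ℝ) * θ a = ∑ a, ν (e a) * δ (e a) := by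
        refine Finset.sum_congr rfl fun a _ => ?_
        rw [hDcast]; ring
      rw [h2, ← h1]
      exact h0
    have hsep := hg.sep (fun a => x (e a)) θ (fun a => hxpos _) hCLM D hD1 h0'
    -- split the sum
    have hsplit : ∑ i, Real.log (x i) * δ i =
        ∑ a, (D a : ℝ) * Real.log (x (e a)) + ∑ i ∈ Tᶜ, Real.log (x i) * δ i := by
      rw [← Finset.sum_add_sum_compl T (fun i => Real.log (x i) * δ i)]
      congr 1
      rw [← sum_orderEmb T hT (fun i => Real.log (x i) * δ i)]
      refine Finset.sum_congr rfl fun a _ => ?_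
      rw [hDcast]; ring
    set W : ℝ := |Real.log B| + |Real.log η| with hW
    have hW0 : 0 ≤ W := by positivity
    have hoff : - (W * (netN R : ℝ)) ≤ ∑ i ∈ Tᶜ, Real.log (x i) * δ i := by
      have h1 : ∀ i ∈ Tᶜ, - (W * |δ i|) ≤ Real.log (x i) * δ i := by
        intro i hi
        have hi' : i ∉ T := by simpa using hi
        have h2 := hout i hi'
        have h3 := hub i
        have h4 : |Real.log (x i)| ≤ W := by
          rw [abs_le]
          have h5 : Real.log η ≤ Real.log (x i) := Real.log_le_log hη h2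
          have h6 : Real.log (x i) ≤ Real.log B := Real.log_le_log (hxpos i) h3
          have h7 := neg_abs_le (Real.log η)
          have h8 := le_abs_self (Real.log B)
          have h9 := abs_nonneg (Real.log η)
          have h10 := abs_nonneg (Real.log B)
          rw [hW]
          constructor <;> linarith
        have h11 : |Real.log (x i) * δ i| ≤ W * |δ i| := by
          rw [abs_mul]
          exact mul_le_mul_of_nonneg_right h4 (abs_nonneg _)
        have h12 := neg_abs_le (Real.log (x i) * δ i)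
        linarith
      have h2 := Finset.sum_le_sum h1
      rw [Finset.sum_neg_distrib, ← Finset.mul_sum] at h2
      have h3 : ∑ i ∈ Tᶜ, |δ i| ≤ (netN R : ℝ) := by
        refine le_trans ?_ (netN_spec_real R hr hr')
        exact Finset.sum_le_sum_of_subset_of_nonneg (Finset.subset_univ _)
          fun i _ _ => abs_nonneg _
      have h4 : W * ∑ i ∈ Tᶜ, |δ i| ≤ W * (netN R : ℝ) :=
        mul_le_mul_of_nonneg_left h3 hW0
      linarith
    rw [hsplit]
    rw [hσ] at hsep
    have : (netN R : ℝ) * W = W * (netN R : ℝ) := mul_comm _ _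
    linarith
  have hfl := (hκ x ν hxpos halign).2
  refine hfl ?_
  by_contra hcon
  push Not at hcon
  have hcon' : ∀ r ∈ R, dot ν (reactionVector r) = 0 := hcon
  have heq := dot_eq_of_class R ν x x0 hcls hcon'
  have hTne : T.Nonempty := by
    rw [← Finset.card_pos, hT]; omega
  obtain ⟨a, ha⟩ := hTne
  have h1 := dot_le_neg hνm hx0 ha
  have h2 := hm₀ a
  linarith

end Crest.Agent.Lib.MAK
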