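import Mathlib

/-!
# Abstract node systems on the line

A node system: finitely many nodes with position `p`, height `h`, and "top/bottom" functions.
`F` is the monotone interpolation of the lower envelope `L` and the upper envelope `U`.
-/

set_option autoImplicit false

noncomputable section

open scoped Classical

namespace Crest.Agent.Lib.MAK

variable {ι : Type}

/-- A node system on the line. -/
structure NS (ι : Type) where
  s : Finset ι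
  p : ι → ℝ
  h : ι → ℝ
  T : ι → ℝ → ℝ
  B : ι → ℝ → ℝ
  Q : ℝ
  low : ℝ → ι → Prop

namespace NS

variable (N : NS ι)

/-- nodes below `z`. -/
def Lo (z : ℝ) : Finset ι := N.s.filter (fun Y => N.low z Y)
/-- nodes above `z`. -/
def Up (z : ℝ) : Finset ι := N.s.filter (fun Y => ¬ N.low z Y)

/-- lower envelope. -/
def L (z : ℝ) : ℝ := (N.Lo z).fold max (z - N.Q) (fun Y => N.T Y z)
/-- upper envelope. -/
def U (z : ℝ) : ℝ := (N.Up z).fold min (z + N.Q) (fun Y => N.B Y z)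

/-- largest position below `z`. -/
def aL (z : ℝ) : ℝ := if hz : (N.Lo z).Nonempty then (N.Lo z).sup' hz N.p else z
/-- smallest position above `z`. -/
def aU (z : ℝ) : ℝ := if hz : (N.Up z).Nonempty then (N.Up z).inf' hz N.p else z

/-- interpolation weight. -/
def w (z : ℝ) : ℝ :=
  if (N.Up z).Nonempty then
    (if (N.Lo z).Nonempty then (z - N.aL z) / (N.aU z - N.aL z) else 1)
  else 0

/-- the interpolated function. -/
def F (z : ℝ) : ℝ := N.L z + N.w z * (N.U z - N.L z)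

/-- Axioms of a node system with jump `μ`. -/
structure Good (μ : ℝ) : Prop where
  ne : N.s.Nonempty
  hQ : 0 ≤ N.Q
  hμ : 0 ≤ μ
  low1 : ∀ z Y, N.p Y < z → N.low z Y
  low2 : ∀ z Y, z < N.p Y → ¬ N.low z Y
  low3 : ∀ z Y Y', N.p Y = N.p Y' → (N.low z Y ↔ N.low z Y')
  T_ge : ∀ Y ∈ N.s, ∀ z, N.p Y ≤ z → N.h Y + μ ≤ N.T Y z
  B_le : ∀ Y ∈ N.s, ∀ z, z ≤ N.p Y → N.B Y z ≤ N.h Y - μ
  T_mono : ∀ Y ∈ N.s, ∀ z z', N.p Y ≤ z → z ≤ z' → N.T Y z ≤ N.T Y z'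
  B_mono : ∀ Y ∈ N.s, ∀ z z', z ≤ z' → z' ≤ N.p Y → N.B Y z ≤ N.B Y z'
  T_rail : ∀ Y ∈ N.s, ∀ z, N.p Y ≤ z → N.T Y z ≤ z + N.Q
  B_rail : ∀ Y ∈ N.s, ∀ z, z ≤ N.p Y → z - N.Q ≤ N.B Y z
  compat : ∀ Y ∈ N.s, ∀ Y' ∈ N.s, ∀ z, N.p Y ≤ z → z ≤ N.p Y' → N.p Y < N.p Y' →
    N.T Y z ≤ N.B Y' z

variable {N}

lemma mem_Lo {z : ℝ} {Y : ι} : Y ∈ N.Lo z ↔ Y ∈ N.s ∧ N.low z Y := by
  simp [Lo]

lemma mem_Up {z : ℝ} {Y : ι} : Y ∈ N.Up z ↔ Y ∈ N.s ∧ ¬ N.low z Y := by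
  simp [Up]

lemma rail_le_L (z : ℝ) : z - N.Q ≤ N.L z := by
  unfold L
  rw [Finset.le_fold_max]
  exact Or.inl le_rfl

lemma T_le_L {z : ℝ} {Y : ι} (hY : Y ∈ N.Lo z) : N.T Y z ≤ N.L z := by
  unfold L
  rw [Finset.le_fold_max]
  exact Or.inr ⟨Y, hY, le_rfl⟩

lemma L_le {z c : ℝ} (h1 : z - N.Q ≤ c) (h2 : ∀ Y ∈ N.Lo z, N.T Y z ≤ c) : N.L z ≤ c := by
  unfold L
  rw [Finset.fold_max_le]
  exact ⟨h1, h2⟩

lemma U_le_rail (z : ℝ) : N.U z ≤ z + N.Q := by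
  unfold U
  rw [Finset.fold_min_le]
  exact Or.inl le_rfl

lemma U_le_B {z : ℝ} {Y : ι} (hY : Y ∈ N.Up z) : N.U z ≤ N.B Y z := by
  unfold U
  rw [Finset.fold_min_le]
  exact Or.inr ⟨Y, hY, le_rfl⟩

lemma le_U {z c : ℝ} (h1 : c ≤ z + N.Q) (h2 : ∀ Y ∈ N.Up z, c ≤ N.B Y z) : c ≤ N.U z := by
  unfold U
  rw [Finset.le_fold_min]
  exact ⟨h1, h2⟩

lemma aL_spec {z : ℝ} (hz : (N.Lo z).Nonempty) :
    (∃ A ∈ N.Lo z, N.p A = N.aL z) ∧ ∀ Y ∈ N.Lo z, N.p Y ≤ N.aL z := by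
  have : N.aL z = (N.Lo z).sup' hz N.p := by simp [aL, hz]
  rw [this]
  constructor
  · obtain ⟨A, hA, hA'⟩ := Finset.exists_mem_eq_sup' hz N.p
    exact ⟨A, hA, hA'.symm⟩
  · intro Y hY
    exact Finset.le_sup' N.p hY

lemma aU_spec {z : ℝ} (hz : (N.Up z).Nonempty) :
    (∃ B ∈ N.Up z, N.p B = N.aU z) ∧ ∀ Y ∈ N.Up z, N.aU z ≤ N.p Y := by
  have : N.aU z = (N.Up z).inf' hz N.p := by simp [aU, hz]
  rw [this]
  constructor
  · obtain ⟨A, hA, hA'⟩ := Finset.exists_mem_eq_inf' hz N.p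
    exact ⟨A, hA, hA'.symm⟩
  · intro Y hY
    exact Finset.inf'_le N.p hY

section good

variable {μ : ℝ} (hG : N.Good μ)
include hG

lemma p_le_of_Lo {z : ℝ} {Y : ι} (hY : Y ∈ N.Lo z) : N.p Y ≤ z := by
  by_contra hc
  exact hG.low2 z Y (not_le.mp hc) (mem_Lo.mp hY).2

lemma le_p_of_Up {z : ℝ} {Y : ι} (hY : Y ∈ N.Up z) : z ≤ N.p Y := by
  by_contra hc
  exact (mem_Up.mp hY).2 (hG.low1 z Y (not_le.mp hc))

lemma gap_pos {z : ℝ} {A Y : ι} (hA : A ∈ N.Lo z) (hY : Y ∈ N.Up z) : N.p A < N.p Y := by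
  have h1 := p_le_of_Lo hG hA
  have h2 := le_p_of_Up hG hY
  rcases lt_or_eq_of_le (h1.trans h2) with h | h
  · exact h
  · exfalso
    exact (mem_Up.mp hY).2 ((hG.low3 z A Y h).mp (mem_Lo.mp hA).2)

lemma T_le_B {z : ℝ} {A Y : ι} (hA : A ∈ N.Lo z) (hY : Y ∈ N.Up z) : N.T A z ≤ N.B Y z :=
  hG.compat A (mem_Lo.mp hA).1 Y (mem_Up.mp hY).1 z (p_le_of_Lo hG hA) (le_p_of_Up hG hY)
    (gap_pos hG hA hY)

lemma L_le_U (z : ℝ) : N.L z ≤ N.U z := by
  have hQ := hG.hQ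
  apply L_le
  · apply le_U
    · linarith
    · intro Y hY
      exact hG.B_rail Y (mem_Up.mp hY).1 z (le_p_of_Up hG hY)
  · intro A hA
    apply le_U
    · exact hG.T_rail A (mem_Lo.mp hA).1 z (p_le_of_Lo hG hA)
    · intro Y hY
      exact T_le_B hG hA hY

lemma w_cases (z : ℝ) :
    (¬ (N.Up z).Nonempty ∧ N.w z = 0) ∨ ((N.Up z).Nonempty ∧ ¬ (N.Lo z).Nonempty ∧ N.w z = 1) ∨
    ((N.Up z).Nonempty ∧ (N.Lo z).Nonempty ∧ N.w z = (z - N.aL z) / (N.aU z - N.aL z)) := by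
  by_cases h1 : (N.Up z).Nonempty
  · by_cases h2 : (N.Lo z).Nonempty
    · exact Or.inr (Or.inr ⟨h1, h2, by simp [w, h1, h2]⟩)
    · exact Or.inr (Or.inl ⟨h1, h2, by simp [w, h1, h2]⟩)
  · exact Or.inl ⟨h1, by simp [w, h1]⟩

lemma aL_le {z : ℝ} (hz : (N.Lo z).Nonempty) : N.aL z ≤ z := by
  obtain ⟨⟨A, hA, hA'⟩, -⟩ := aL_spec hz
  rw [← hA']
  exact p_le_of_Lo hG hA

lemma le_aU {z : ℝ} (hz : (N.Up z).Nonempty) : z ≤ N.aU z := by
  obtain ⟨⟨A, hA, hA'⟩, -⟩ := aU_spec hz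
  rw [← hA']
  exact le_p_of_Up hG hA

lemma aL_lt_aU {z : ℝ} (h1 : (N.Lo z).Nonempty) (h2 : (N.Up z).Nonempty) : N.aL z < N.aU z := by
  obtain ⟨⟨A, hA, hA'⟩, -⟩ := aL_spec h1
  obtain ⟨⟨B, hB, hB'⟩, -⟩ := aU_spec h2
  rw [← hA', ← hB']
  exact gap_pos hG hA hB

lemma w_nonneg (z : ℝ) : 0 ≤ N.w z := by
  rcases w_cases hG z with ⟨_, h⟩ | ⟨_, _, h⟩ | ⟨h1, h2, h⟩
  · rw [h]
  · rw [h]; norm_num
  · rw [h]
    exact div_nonneg (by linarith [aL_le hG h2]) (by linarith [aL_lt_aU hG h2 h1])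

lemma w_le_one (z : ℝ) : N.w z ≤ 1 := by
  rcases w_cases hG z with ⟨_, h⟩ | ⟨_, _, h⟩ | ⟨h1, h2, h⟩
  · rw [h]; norm_num
  · rw [h]
  · rw [h]
    rw [div_le_one (by linarith [aL_lt_aU hG h2 h1])]
    linarith [le_aU hG h1]

lemma L_le_F (z : ℝ) : N.L z ≤ N.F z := by
  unfold F
  have := mul_nonneg (w_nonneg hG z) (sub_nonneg.mpr (L_le_U hG z))
  linarith

lemma F_le_U (z : ℝ) : N.F z ≤ N.U z := by
  unfold F
  have := mul_nonneg (sub_nonneg.mpr (w_le_one hG z)) (sub_nonneg.mpr (L_le_U hG z))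
  nlinarith

lemma abs_F_sub_le (z : ℝ) : |N.F z - z| ≤ N.Q := by
  rw [abs_le]
  constructor
  · linarith [L_le_F hG z, rail_le_L (N := N) z]
  · linarith [F_le_U hG z, U_le_rail (N := N) z]

end good

/-- Comparison of two node systems under a "cone move". -/
theorem F_le_of_cone {N N' : NS ι} {μ μ' : ℝ} (hG : N.Good μ) (hG' : N'.Good μ')
    (hs : N.s = N'.s) (hQ : N.Q = N'.Q) {z z' : ℝ} (hz : z ≤ z')
    (h_low : ∀ Y ∈ N.s, N.low z Y → N'.low z' Y)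
    (hT : ∀ Y ∈ N.s, N.low z Y → N.T Y z ≤ N'.T Y z')
    (hB : ∀ Y ∈ N.s, ¬ N'.low z' Y → N.B Y z ≤ N'.B Y z')
    (hX : ∀ Y ∈ N.s, ¬ N.low z Y → N'.low z' Y → N.B Y z ≤ N'.T Y z')
    (hp : ∀ Y ∈ N.s, N'.p Y - N.p Y ≤ z' - z) :
    N.F z ≤ N'.F z' := by
  by_cases hcross : ∃ Y ∈ N.s, ¬ N.low z Y ∧ N'.low z' Y
  · obtain ⟨Y, hY, h1, h2⟩ := hcross
    calc N.F z ≤ N.U z := F_le_U hG z
      _ ≤ N.B Y z := U_le_B (mem_Up.mpr ⟨hY, h1⟩)
      _ ≤ N'.T Y z' := hX Y hY h1 h2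
      _ ≤ N'.L z' := T_le_L (mem_Lo.mpr ⟨hs ▸ hY, h2⟩)
      _ ≤ N'.F z' := L_le_F hG' z'
  · push Not at hcross
    have hiff : ∀ Y ∈ N.s, (N.low z Y ↔ N'.low z' Y) :=
      fun Y hY => ⟨h_low Y hY, fun h => by
        by_contra hc
        exact hcross Y hY hc h⟩
    have hLo : N.Lo z = N'.Lo z' := by
      ext Y
      rw [mem_Lo, mem_Lo, ← hs]
      constructor
      · rintro ⟨h1, h2⟩; exact ⟨h1, (hiff Y h1).mp h2⟩
      · rintro ⟨h1, h2⟩; exact ⟨h1, (hiff Y h1).mpr h2⟩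
    have hUp : N.Up z = N'.Up z' := by
      ext Y
      rw [mem_Up, mem_Up, ← hs]
      constructor
      · rintro ⟨h1, h2⟩; exact ⟨h1, fun h => h2 ((hiff Y h1).mpr h)⟩
      · rintro ⟨h1, h2⟩; exact ⟨h1, fun h => h2 ((hiff Y h1).mp h)⟩
    have hL : N.L z ≤ N'.L z' := by
      apply L_le
      · have := rail_le_L (N := N') z'
        rw [hQ]; linarith
      · intro Y hY
        exact (hT Y (mem_Lo.mp hY).1 (mem_Lo.mp hY).2).trans
          (T_le_L (by rw [← hLo]; exact hY))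
    have hU : N.U z ≤ N'.U z' := by
      apply le_U
      · have := U_le_rail (N := N) z
        rw [← hQ]; linarith
      · intro Y hY
        have hY' : Y ∈ N.Up z := by rw [hUp]; exact hY
        exact (U_le_B hY').trans (hB Y (mem_Up.mp hY').1 (mem_Up.mp hY).2)
    have hw : N.w z ≤ N'.w z' := by
      rcases w_cases hG z with ⟨h1, h⟩ | ⟨h1, h2, h⟩ | ⟨h1, h2, h⟩
      · rw [h]; exact w_nonneg hG' z'
      · rw [h]
        rcases w_cases hG' z' with ⟨h1', _⟩ | ⟨_, _, h'⟩ | ⟨_, h2', _⟩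
        · exact absurd (hUp ▸ h1) h1'
        · rw [h']
        · exact absurd (hLo ▸ h2') h2
      · rcases w_cases hG' z' with ⟨h1', _⟩ | ⟨_, h2', _⟩ | ⟨h1', h2', h'⟩
        · exact absurd (hUp ▸ h1) h1'
        · exact absurd (hLo ▸ h2) h2'
        · rw [h, h']
          have h3 : N.aL z < N.aU z := aL_lt_aU hG h2 h1
          have h3' : N'.aL z' < N'.aU z' := aL_lt_aU hG' h2' h1'
          have h4 : N'.aL z' ≤ N.aL z + (z' - z) := by
            obtain ⟨⟨A, hA, hA'⟩, -⟩ := aL_spec h2'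
            rw [← hA']
            have hA2 : A ∈ N.Lo z := by rw [hLo]; exact hA
            have := (aL_spec h2).2 A hA2
            linarith [hp A (mem_Lo.mp hA2).1]
          have h5 : N'.aU z' ≤ N.aU z + (z' - z) := by
            obtain ⟨⟨A, hA, hA'⟩, -⟩ := aU_spec h1
            rw [← hA']
            have hA2 : A ∈ N'.Up z' := by rw [← hUp]; exact hA
            have := (aU_spec h1').2 A hA2
            linarith [hp A (mem_Up.mp hA).1]
          rw [div_le_div_iff₀ (by linarith) (by linarith)]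
          have h6 := aL_le hG h2
          have h7 := le_aU hG' h1'
          have h8 := aL_le hG' h2'
          have h9 := le_aU hG h1
          nlinarith [mul_le_mul (show z - N.aL z ≤ z' - N'.aL z' by linarith)
            (show N'.aU z' - z' ≤ N.aU z - z by linarith)
            (by linarith) (by linarith)]
    unfold F
    have a1 := w_nonneg hG z
    have a2 := w_le_one hG' z'
    have a3 := L_le_U hG' z'
    have e1 : N.L z + N.w z * (N.U z - N.L z) = (1 - N.w z) * N.L z + N.w z * N.U z := by ring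
    have e2 : N'.L z' + N'.w z' * (N'.U z' - N'.L z') =
        (1 - N.w z) * N'.L z' + N.w z * N'.U z' + (N'.w z' - N.w z) * (N'.U z' - N'.L z') := by
      ring
    rw [e1, e2]
    have a4 : 0 ≤ 1 - N.w z := by linarith
    have a5 := mul_le_mul_of_nonneg_left hL a4
    have a6 := mul_le_mul_of_nonneg_left hU a1
    have a7 := mul_nonneg (sub_nonneg.mpr hw) (sub_nonneg.mpr a3)
    linarith

/-- `F` is monotone. -/
theorem F_mono {μ : ℝ} (hG : N.Good μ) {z z' : ℝ} (hz : z ≤ z') : N.F z ≤ N.F z' := by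
  refine F_le_of_cone hG hG rfl rfl hz ?_ ?_ ?_ ?_ ?_
  · intro Y _ hl
    rcases eq_or_lt_of_le hz with rfl | hlt
    · exact hl
    · by_cases hp : N.p Y ≤ z
      · exact hG.low1 z' Y (lt_of_le_of_lt hp hlt)
      · exact absurd hl (hG.low2 z Y (not_le.mp hp))
  · intro Y hY hl
    by_cases hp : N.p Y ≤ z
    · exact hG.T_mono Y hY z z' hp hz
    · exact absurd hl (hG.low2 z Y (not_le.mp hp))
  · intro Y hY hl
    by_cases hp : z' ≤ N.p Y
    · exact hG.B_mono Y hY z z' hz hp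
    · exact absurd (hG.low1 z' Y (not_le.mp hp)) hl
  · intro Y hY h1 h2
    have h3 : z ≤ N.p Y := by
      by_contra hc
      exact h1 (hG.low1 z Y (not_le.mp hc))
    have h4 : N.p Y ≤ z' := by
      by_contra hc
      exact hG.low2 z' Y (not_le.mp hc) h2
    have := hG.B_le Y hY z h3
    have := hG.T_ge Y hY z' h4
    have := hG.hμ
    linarith
  · intro Y _
    linarith

end NS

end Crest.Agent.Lib.MAK
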