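import Crest.Agent.Lib.MAK.Step3

/-!
# Existence of triangular maps: `TriExists`
-/

set_option autoImplicit false

noncomputable section

namespace Crest.Agent.Lib.MAK

open Finset

namespace Slots

lemma PP_mono {S : Slots} {n W W₁ : ℕ} {A A₁ sg sg₁ kap : ℝ} (hS : S.Good n)
    (h : S.PP n W₁ A₁ sg₁ kap) (hW : W ≤ W₁) (hA : A ≤ A₁) (hsg : sg ≤ sg₁) :
    S.PP n W A sg kap := by
  intro E hE c r hr hlt
  have hE' : ∑ j ∈ range n, |E j| ≤ (W₁ : ℤ) := hE.trans (by exact_mod_cast hW)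
  have h1 := h E hE' c r hr hlt
  have h2 := mul_le_mul_of_nonneg_right hA (Osc_nonneg hS c hr)
  linarith

lemma base_exists (W : ℕ) (A sg : ℝ) : ∃ (S : Slots) (kap : ℝ), 0 < kap ∧ S.Good 0 ∧
    S.PP 0 W A sg kap := by
  refine ⟨⟨fun _ z _ => z, fun _ => 0, fun _ => 0⟩, 1, one_pos, ⟨?_, ?_, ?_, ?_⟩, ?_⟩
  · intro j hj; omega
  · intro j hj; omega
  · intro j hj; omega
  · intro j hj; omega
  · intro E _ c r hr hlt
    simp at hlt
    linarith

lemma int_dvd_factorial {W : ℕ} {e : ℤ} (he : e ≠ 0) (hW : |e| ≤ W) : e ∣ ((W.factorial : ℕ) : ℤ) := by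
  have h1 : e.natAbs ≤ W := by
    have h0 : ((e.natAbs : ℕ) : ℤ) = |e| := Int.natCast_natAbs e
    have : ((e.natAbs : ℕ) : ℤ) ≤ (W : ℤ) := by rw [h0]; exact hW
    exact_mod_cast this
  have h2 : 0 < e.natAbs := Int.natAbs_pos.mpr he
  have h3 : e.natAbs ∣ W.factorial := Nat.dvd_factorial h2 h1
  exact Int.natAbs_dvd.mp (by exact_mod_cast h3)

set_option maxHeartbeats 4000000 in
/-- The inductive step. -/
theorem step_exists (n : ℕ)
    (ih : ∀ (W : ℕ) (A sg : ℝ), ∃ (S : Slots) (kap : ℝ), 0 < kap ∧ S.Good n ∧ S.PP n W A sg kap)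
    (W : ℕ) (A sg : ℝ) (hW1 : 1 ≤ W) (hA1 : 1 ≤ A) (hsg1 : 1 ≤ sg) :
    ∃ (S : Slots) (kap : ℝ), 0 < kap ∧ S.Good (n + 1) ∧ S.PP (n + 1) W A sg kap := by
  -- constants of the lower level
  obtain ⟨Wr, hWr⟩ : ∃ Wr : ℝ, Wr = (W : ℝ) := ⟨_, rfl⟩
  have hWr1 : 1 ≤ Wr := by rw [hWr]; exact_mod_cast hW1
  obtain ⟨a, ha⟩ : ∃ a : ℝ, a = 3 * A + Wr := ⟨_, rfl⟩
  obtain ⟨μ, hμ⟩ : ∃ μ : ℝ, μ = 3 * sg := ⟨_, rfl⟩
  have hμ0 : 0 < μ := by rw [hμ]; linarith
  obtain ⟨ε, hε⟩ : ∃ ε : ℝ, ε = 1 / (21 * A + 14) := ⟨_, rfl⟩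
  have hden : 0 < 21 * A + 14 := by linarith
  have hε0 : 0 < ε := by rw [hε]; positivity
  have hε1 : ε ≤ 1 := by
    rw [hε, div_le_one hden]
    linarith
  have hAε : 21 * A * ε ≤ 1 := by
    rw [hε, mul_one_div, div_le_one hden]
    linarith
  obtain ⟨qi, hqi⟩ : ∃ qi : ℤ, qi = ((W.factorial : ℕ) : ℤ) := ⟨_, rfl⟩
  have hqi0 : 0 < qi := by
    rw [hqi]
    exact_mod_cast Nat.factorial_pos W
  obtain ⟨q, hq⟩ : ∃ q : ℝ, q = (qi : ℝ) := ⟨_, rfl⟩
  have hq1 : 1 ≤ q := by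
    rw [hq]
    exact_mod_cast hqi0
  obtain ⟨M, hM⟩ : ∃ M : ℤ, M = qi * (W : ℤ) := ⟨_, rfl⟩
  have hM0 : 0 ≤ M := by rw [hM]; positivity
  obtain ⟨m', hm'⟩ : ∃ m' : ℕ, m' = ⌈14 / ε⌉₊ + 16 := ⟨_, rfl⟩
  have hm16 : 16 ≤ m' := by omega
  have hm14 : 14 ≤ ε * (m' : ℝ) := by
    have h1 : 14 / ε ≤ (⌈14 / ε⌉₊ : ℝ) := Nat.le_ceil _
    have h2 : (⌈14 / ε⌉₊ : ℝ) ≤ (m' : ℝ) := by
      rw [hm']
      push_cast
      linarith
    have h3 : 14 / ε ≤ (m' : ℝ) := h1.trans h2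
    rw [div_le_iff₀ hε0] at h3
    linarith
  obtain ⟨W', hW'⟩ : ∃ W' : ℕ, (W' : ℤ) = (W : ℤ) + (2 + 2 * (m' : ℤ)) * M :=
    ⟨((W : ℤ) + (2 + 2 * (m' : ℤ)) * M).toNat, Int.toNat_of_nonneg (by positivity)⟩
  have hbpos : 0 < a + Wr := by rw [ha]; linarith
  obtain ⟨A', hA'⟩ : ∃ A' : ℝ, A' = 3 * A + q * (a + Wr) * (8 + 14 / ε) + 2 * (a + Wr) * q :=
    ⟨_, rfl⟩
  obtain ⟨sg', hsg'⟩ : ∃ sg' : ℝ, sg' = 3 * sg + q * (14 * μ / ε) + 2 * μ * q := ⟨_, rfl⟩
  have hq0 : 0 < q := by linarith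
  have hqb : 0 < q * (a + Wr) := mul_pos hq0 hbpos
  have h14 : 0 ≤ 14 / ε := by positivity
  -- the induction hypothesis
  obtain ⟨S, kap, hkap, hS, hPP⟩ := ih W' A' sg'
  have hCb := Cbar_nonneg hS
  have hQb := Qbar_nonneg hS
  have hVb : 0 ≤ S.Vbar n := by
    apply Finset.sum_nonneg
    intro j hj
    have hj' := Finset.mem_range.mp hj
    have := C_pos hS hj'
    have := hS.Q_nonneg j hj'
    linarith
  have ha0 : 0 < a := by rw [ha]; linarith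
  obtain ⟨kp, hkp⟩ : ∃ kp : ℝ, kp = 2 * kap + 4 * ((Wr + 2 * a) * S.Cbar n) + 1 := ⟨_, rfl⟩
  have hWa : 0 ≤ Wr + 2 * a := by linarith
  have hkp0 : 0 < kp := by
    rw [hkp]
    have := mul_nonneg hWa hCb
    linarith
  obtain ⟨Qn, hQn⟩ : ∃ Qn : ℝ, Qn = Wr * S.Qbar n + 2 * (a + Wr) * S.Qbar n + μ := ⟨_, rfl⟩
  have hQn0 : 0 ≤ Qn := by
    rw [hQn]
    have h1 : 0 ≤ Wr * S.Qbar n := by positivity
    have h2 : 0 ≤ 2 * (a + Wr) * S.Qbar n := by positivity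
    linarith
  obtain ⟨L, hL⟩ : ∃ L : ℝ, L = Wr + 2 * kp := ⟨_, rfl⟩
  obtain ⟨T, hT⟩ : ∃ T : ℝ, T = (Wr + 2 * a) * S.Vbar n := ⟨_, rfl⟩
  have hT0 : 0 ≤ T := by rw [hT]; positivity
  have hεμ : 0 < ε * μ := mul_pos hε0 hμ0
  obtain ⟨K, hK⟩ : ∃ K : ℕ, K = ⌈2 * T / (ε * μ)⌉₊ + 1 := ⟨_, rfl⟩
  have hK0 : 0 < K := by omega
  have hK0' : (0 : ℝ) < (K : ℝ) := by exact_mod_cast hK0
  have hVe : (Wr + 2 * a) * S.Vbar n / K ≤ ε * μ / 2 := by
    rw [← hT, div_le_iff₀ hK0']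
    have h1 : 2 * T / (ε * μ) ≤ (⌈2 * T / (ε * μ)⌉₊ : ℝ) := Nat.le_ceil _
    have h2 : (⌈2 * T / (ε * μ)⌉₊ : ℝ) ≤ (K : ℝ) := by
      rw [hK]
      push_cast
      linarith
    have h3 := h1.trans h2
    rw [div_le_iff₀ hεμ] at h3
    linarith
  obtain ⟨K₆, hK₆⟩ : ∃ K₆ : ℝ, K₆ = 2 * Qn / (ε * μ) + 1 := ⟨_, rfl⟩
  have hK₆1 : 1 ≤ K₆ := by
    rw [hK₆]
    have : 0 ≤ 2 * Qn / (ε * μ) := by positivity
    linarith
  have hQ6 : 2 * Qn ≤ K₆ * (ε * μ) := by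
    rw [hK₆, add_mul, div_mul_cancel₀ _ hεμ.ne']
    linarith
  obtain ⟨Ka, hKa⟩ : ∃ Ka : ℝ, Ka = 1 + 2 * Qn / μ := ⟨_, rfl⟩
  have hKa0 : 0 ≤ Ka := by
    rw [hKa]
    have : 0 ≤ 2 * Qn / μ := by positivity
    linarith
  obtain ⟨K₁, hK₁⟩ : ∃ K₁ : ℝ, K₁ = Ka / ε + (2 * (K : ℝ) + 1) * Ka + ((m' : ℝ) + 1) * K₆ +
      (2 * (K : ℝ) + 1) * (2 * (K : ℝ) + 1) + 1 := ⟨_, rfl⟩
  have hpa : 0 ≤ Ka / ε := by positivity
  have hpb : 0 ≤ (2 * (K : ℝ) + 1) * Ka := by positivity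
  have hpc : 0 ≤ ((m' : ℝ) + 1) * K₆ := by positivity
  have hpd : 0 ≤ (2 * (K : ℝ) + 1) * (2 * (K : ℝ) + 1) := by positivity
  have C : Ctx S n W' A' sg' kap q a Wr kp K μ Qn M m' ε K₆ K₁ :=
    { hS := hS
      hPP := hPP
      hq := hq1
      hWr := hWr1
      haW := by rw [ha]; linarith
      hkp := hkp0
      hK := hK0
      hμ := hμ0
      hM0 := hM0
      hMW := by
        rw [hW']
        have : (0 : ℤ) ≤ (W : ℤ) := by positivity
        linarith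
      hMq := by
        rw [hM, hq, hWr]
        push_cast
        exact le_rfl
      hk1 := by
        have h1 : 2 * kap < kp := by
          rw [hkp]
          have := mul_nonneg hWa hCb
          linarith
        have h2 : 1 * kp ≤ q * kp := mul_le_mul_of_nonneg_right hq1 hkp0.le
        linarith
      hsg := by
        rw [hsg']
        have h1 : 0 ≤ q * (14 * μ / ε) := by positivity
        linarith
      hA := by
        rw [hA']
        have h1 : 0 ≤ q * (a + Wr) * (8 + 14 / ε) := by positivity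
        linarith
      hkk := by
        rw [hkp]
        linarith
      hQ := by rw [hQn]
      hε0 := hε0
      hε1 := hε1
      hVe := hVe
      hK₆ := hK₆1
      hQ6 := hQ6
      hm16 := hm16
      hm14 := hm14
      hA8 := by
        rw [le_div_iff₀ hqb, hA']
        have h1 : q * (a + Wr) * (8 + 14 / ε) = 8 * (q * (a + Wr)) + q * (a + Wr) * (14 / ε) := by
          ring
        have h2 : 0 ≤ q * (a + Wr) * (14 / ε) := by positivity
        have h3 : 0 ≤ 2 * (a + Wr) * q := by positivity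
        linarith
      hA14 := by
        rw [← mul_div_assoc, le_div_iff₀ hqb, hA']
        have h1 : ε * (q * (a + Wr) * (14 / ε)) = 14 * (q * (a + Wr)) := by
          field_simp
        have h2 : 0 ≤ ε * (3 * A) := by positivity
        have h3 : 0 ≤ ε * (2 * (a + Wr) * q) := by positivity
        have h4 : 0 ≤ ε * (q * (a + Wr) * 8) := by positivity
        nlinarith
      hsg2 := by
        rw [← mul_div_assoc, le_div_iff₀ hq0, hsg']
        have h1 : ε * (q * (14 * μ / ε)) = 14 * μ * q := by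
          field_simp
        have h2 : 0 ≤ ε * (3 * sg) := by positivity
        have h3 : 0 ≤ ε * (2 * μ * q) := by positivity
        nlinarith
      hK₁a := by
        rw [← hKa, hK₁]
        have h1 : ε * (Ka / ε) = Ka := by field_simp
        have h2 : 0 ≤ ε * ((2 * (K : ℝ) + 1) * Ka + ((m' : ℝ) + 1) * K₆ +
            (2 * (K : ℝ) + 1) * (2 * (K : ℝ) + 1) + 1) := by positivity
        nlinarith
      hK₁b := by
        rw [← hKa, hK₁]
        linarith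
      hK₁c := by
        rw [hK₁]
        linarith
      hK₁d := by
        rw [hK₁]
        linarith }
  -- the big constant
  obtain ⟨S', hS'⟩ : ∃ S', S' = S.ext n (Ctx.vnew S n q a kp K μ Qn M) L Qn := ⟨_, rfl⟩
  obtain ⟨kap', hkap'⟩ : ∃ kap' : ℝ, kap' =
      |sg + A * (2 * S'.Cbar (n + 1) + 2 * S'.Qbar (n + 1)) + (W : ℝ) * S'.Qbar (n + 1)| +
      |Wr * kp| + |Wr * ((2 * K₁ + 1) * (1 + L))| +
      |2 * (1 + L) * (1 + ((W : ℤ) : ℝ) * S.Qbar n / sg') / ε| +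
      |(m' : ℝ) * q * K₆ * (2 * (1 + L))| +
      |kap * (2 * ((2 * (K : ℝ) + 1) * (2 * (1 + L)) / kp))| + |kap| + 1 := ⟨_, rfl⟩
  have hkappos : 0 < kap' := by
    rw [hkap']
    positivity
  have hLle : Wr + 2 * kp ≤ L := by rw [hL]
  have hL0 : 0 ≤ L := by
    rw [hL]
    linarith
  have hgood : S'.Good (n + 1) := by
    rw [hS']
    exact ext_good hS hL0 hQn0 (fun z z' c c' hz => C.vnew_cone hLle z z' c c' hz)
      (fun z c => C.vnew_bound z c)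
  refine ⟨S', kap', hkappos, hgood, ?_⟩
  have hW'W : (W : ℤ) + 2 * (m' : ℤ) * M ≤ W' := by
    rw [hW']
    nlinarith
  have hpp := C.step_PP (L := L) (W := W) (A := A) (sg := sg) (kap' := kap') (qi := qi) hLle
    hq.symm hqi0 (fun e he hle => by rw [hqi]; exact int_dvd_factorial he hle) hM hWr hW'W
    (by linarith) (by linarith) (by rw [ha]; linarith) (by rw [hμ])
    hAε
    (by
      rw [hA']
      have h1 : 0 ≤ q * (a + Wr) * (8 + 14 / ε) := by positivity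
      have h2 : 0 ≤ 2 * (a + Wr) * q := by positivity
      linarith)
    (by
      rw [hsg']
      have h1 : 0 ≤ q * (14 * μ / ε) := by positivity
      have h2 : 0 ≤ 2 * μ * q := by positivity
      linarith)
    (by
      rw [← hS', hkap']
      have := le_abs_self (sg + A * (2 * S'.Cbar (n + 1) + 2 * S'.Qbar (n + 1)) +
        (W : ℝ) * S'.Qbar (n + 1))
      have h1 : 0 ≤ |Wr * kp| + |Wr * ((2 * K₁ + 1) * (1 + L))| +
        |2 * (1 + L) * (1 + ((W : ℤ) : ℝ) * S.Qbar n / sg') / ε| +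
        |(m' : ℝ) * q * K₆ * (2 * (1 + L))| +
        |kap * (2 * ((2 * (K : ℝ) + 1) * (2 * (1 + L)) / kp))| + |kap| := by positivity
      linarith)
    (by
      rw [hkap']
      have := le_abs_self (Wr * kp)
      have h1 := abs_nonneg (sg + A * (2 * S'.Cbar (n + 1) + 2 * S'.Qbar (n + 1)) +
        (W : ℝ) * S'.Qbar (n + 1))
      have h2 : 0 ≤ |Wr * ((2 * K₁ + 1) * (1 + L))| +
        |2 * (1 + L) * (1 + ((W : ℤ) : ℝ) * S.Qbar n / sg') / ε| +
        |(m' : ℝ) * q * K₆ * (2 * (1 + L))| +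
        |kap * (2 * ((2 * (K : ℝ) + 1) * (2 * (1 + L)) / kp))| + |kap| := by positivity
      linarith)
    (by
      rw [hkap']
      have := le_abs_self (Wr * ((2 * K₁ + 1) * (1 + L)))
      have h1 := abs_nonneg (sg + A * (2 * S'.Cbar (n + 1) + 2 * S'.Qbar (n + 1)) +
        (W : ℝ) * S'.Qbar (n + 1))
      have h2 := abs_nonneg (Wr * kp)
      have h3 : 0 ≤ |2 * (1 + L) * (1 + ((W : ℤ) : ℝ) * S.Qbar n / sg') / ε| +
        |(m' : ℝ) * q * K₆ * (2 * (1 + L))| +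
        |kap * (2 * ((2 * (K : ℝ) + 1) * (2 * (1 + L)) / kp))| + |kap| := by positivity
      linarith)
    (by
      rw [hkap']
      have := le_abs_self (2 * (1 + L) * (1 + ((W : ℤ) : ℝ) * S.Qbar n / sg') / ε)
      have h1 := abs_nonneg (sg + A * (2 * S'.Cbar (n + 1) + 2 * S'.Qbar (n + 1)) +
        (W : ℝ) * S'.Qbar (n + 1))
      have h2 := abs_nonneg (Wr * kp)
      have h3 := abs_nonneg (Wr * ((2 * K₁ + 1) * (1 + L)))
      have h4 : 0 ≤ |(m' : ℝ) * q * K₆ * (2 * (1 + L))| +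
        |kap * (2 * ((2 * (K : ℝ) + 1) * (2 * (1 + L)) / kp))| + |kap| := by positivity
      linarith)
    (by
      rw [hkap']
      have := le_abs_self ((m' : ℝ) * q * K₆ * (2 * (1 + L)))
      have h1 := abs_nonneg (sg + A * (2 * S'.Cbar (n + 1) + 2 * S'.Qbar (n + 1)) +
        (W : ℝ) * S'.Qbar (n + 1))
      have h2 := abs_nonneg (Wr * kp)
      have h3 := abs_nonneg (Wr * ((2 * K₁ + 1) * (1 + L)))
      have h4 := abs_nonneg (2 * (1 + L) * (1 + ((W : ℤ) : ℝ) * S.Qbar n / sg') / ε)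
      have h5 : 0 ≤ |kap * (2 * ((2 * (K : ℝ) + 1) * (2 * (1 + L)) / kp))| + |kap| := by positivity
      linarith)
    (by
      rw [hkap']
      have := le_abs_self (kap * (2 * ((2 * (K : ℝ) + 1) * (2 * (1 + L)) / kp)))
      have h1 := abs_nonneg (sg + A * (2 * S'.Cbar (n + 1) + 2 * S'.Qbar (n + 1)) +
        (W : ℝ) * S'.Qbar (n + 1))
      have h2 := abs_nonneg (Wr * kp)
      have h3 := abs_nonneg (Wr * ((2 * K₁ + 1) * (1 + L)))
      have h4 := abs_nonneg (2 * (1 + L) * (1 + ((W : ℤ) : ℝ) * S.Qbar n / sg') / ε)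
      have h5 := abs_nonneg ((m' : ℝ) * q * K₆ * (2 * (1 + L)))
      have h6 := abs_nonneg kap
      linarith)
    (by
      rw [hkap']
      have := le_abs_self kap
      have h1 := abs_nonneg (sg + A * (2 * S'.Cbar (n + 1) + 2 * S'.Qbar (n + 1)) +
        (W : ℝ) * S'.Qbar (n + 1))
      have h2 := abs_nonneg (Wr * kp)
      have h3 := abs_nonneg (Wr * ((2 * K₁ + 1) * (1 + L)))
      have h4 := abs_nonneg (2 * (1 + L) * (1 + ((W : ℤ) : ℝ) * S.Qbar n / sg') / ε)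
      have h5 := abs_nonneg ((m' : ℝ) * q * K₆ * (2 * (1 + L)))
      have h6 := abs_nonneg (kap * (2 * ((2 * (K : ℝ) + 1) * (2 * (1 + L)) / kp)))
      linarith)
  rw [hS']
  exact hpp

/-- **Existence of all levels.** -/
theorem level_exists : ∀ (n W : ℕ) (A sg : ℝ), ∃ (S : Slots) (kap : ℝ), 0 < kap ∧ S.Good n ∧
    S.PP n W A sg kap := by
  intro n
  induction n with
  | zero => exact base_exists
  | succ n ih =>
    intro W A sg
    obtain ⟨S, kap, h1, h2, h3⟩ := step_exists n ih (W + 1) (max A 1) (max sg 1) (by omega)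
      (le_max_right _ _) (le_max_right _ _)
    exact ⟨S, kap, h1, h2, PP_mono h2 h3 (by omega) (le_max_left _ _) (le_max_left _ _)⟩

end Slots

end Crest.Agent.Lib.MAK
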