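import Crest.Agent.Lib.MAK.Top
import Crest.Agent.Lib.MAK.Anchor2

/-!
# The node system of a triangular family at a point
-/

set_option autoImplicit false

noncomputable section

namespace Crest.Agent.Lib.MAK

open Finset

namespace Slots

variable {S : Slots} {n : ℕ} {q a W kp μ Qn Lam : ℝ} {K : ℕ}

/-- Top function of a node. -/
def Top (S : Slots) (n : ℕ) (q a kp : ℝ) (K : ℕ) (μ : ℝ) (Y : ℕ → ℤ) (c : ℕ → ℝ) (z : ℝ) : ℝ :=
  Avg K (S.Gp n q a Y c) ((z - pos n q Y c) / kp) + μ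

section top

variable (hS : S.Good n) (hq : 0 < q) (ha : 0 ≤ a) (hkp : 0 < kp) (hK : 0 < K)
include hS hq ha hkp hK

lemma Top_ge (Y : ℕ → ℤ) (c : ℕ → ℝ) {z : ℝ} (hz : pos n q Y c ≤ z) :
    S.ht n q Y c + a * S.Osc n c ((z - pos n q Y c) / kp) + μ ≤ S.Top n q a kp K μ Y c z := by
  unfold Top
  have hρ : 0 ≤ (z - pos n q Y c) / kp := div_nonneg (by linarith) hkp.le
  have h1 := Gp_ge hS Y c hρ hq (a := a)
  have h2 := Avg_ge hK (f := S.Gp n q a Y c)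
    (fun r r' _ hr => Gp_mono hS ha hq Y c hr) hρ
  linarith

lemma Top_le {Y : ℕ → ℤ} (hY : NodeOK n q W Y) (c : ℕ → ℝ) {z : ℝ} (hz : pos n q Y c ≤ z) :
    S.Top n q a kp K μ Y c z ≤
      S.ht n q Y c + (a + W) * S.Osc n c (2 * ((z - pos n q Y c) / kp)) + μ := by
  unfold Top
  have hρ : 0 ≤ (z - pos n q Y c) / kp := div_nonneg (by linarith) hkp.le
  have h1 := Gp_le (a := a) hS hY c (show 0 ≤ 2 * ((z - pos n q Y c) / kp) by positivity) hq
  have h2 := Avg_le hK (f := S.Gp n q a Y c)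
    (fun r r' _ hr => Gp_mono hS ha hq Y c hr) hρ
  linarith

lemma Top_mono (Y : ℕ → ℤ) (c : ℕ → ℝ) {z z' : ℝ} (hz : z ≤ z') :
    S.Top n q a kp K μ Y c z ≤ S.Top n q a kp K μ Y c z' := by
  unfold Top
  have : Avg K (S.Gp n q a Y c) ((z - pos n q Y c) / kp) ≤
      Avg K (S.Gp n q a Y c) ((z' - pos n q Y c) / kp) := by
    apply Avg_mono2 hK
    intro i _
    apply Gp_mono hS ha hq
    apply mul_le_mul_of_nonneg_right _ (by have := sc_ge_one K i; linarith)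
    exact div_le_div_of_nonneg_right (by linarith) hkp.le
  linarith

omit hq ha hkp hK in
lemma ht_sub_pos (hq : 0 < q) {Y : ℕ → ℤ} (hY : NodeOK n q W Y) (c : ℕ → ℝ) :
    |S.ht n q Y c - pos n q Y c| ≤ W * S.Qbar n := by
  unfold ht pos
  rw [← sub_div, abs_div, abs_of_pos hq, div_le_iff₀ hq, ← Finset.sum_sub_distrib]
  have e : W * S.Qbar n * q = ∑ j ∈ range n, (q * W) * S.Q j := by
    unfold Qbar
    rw [← Finset.mul_sum]
    ring
  rw [e]
  refine (Finset.abs_sum_le_sum_abs _ _).trans ?_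
  apply Finset.sum_le_sum
  intro j hj
  have hj' := Finset.mem_range.mp hj
  have h0 := hS.Q_nonneg j hj'
  have h1 : |(Y j : ℝ) * S.V j c - (Y j : ℝ) * c j| = |(Y j : ℝ)| * |S.V j c - c j| := by
    rw [← mul_sub, abs_mul]
  rw [h1]
  exact mul_le_mul (hY j hj') (hS.bound j hj' _ _) (abs_nonneg _)
    (le_trans (abs_nonneg _) (hY j hj'))

lemma Top_rail {Y : ℕ → ℤ} (hY : NodeOK n q W Y) (c : ℕ → ℝ) {z : ℝ} (hz : pos n q Y c ≤ z)
    (hW : 0 ≤ W) (hk : 4 * (a + W) * S.Cbar n ≤ kp)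
    (hQ : W * S.Qbar n + 2 * (a + W) * S.Qbar n + μ ≤ Qn) :
    S.Top n q a kp K μ Y c z ≤ z + Qn := by
  have h1 := Top_le (μ := μ) hS hq ha hkp hK hY c hz
  have h2 := (abs_le.mp (ht_sub_pos hS hq hY c)).2
  have h3 := Osc_le hS c (2 * ((z - pos n q Y c) / kp))
  have hρ : 0 ≤ (z - pos n q Y c) / kp := div_nonneg (by linarith) hkp.le
  obtain ⟨ρ, hρdef⟩ : ∃ ρ, ρ = (z - pos n q Y c) / kp := ⟨_, rfl⟩
  rw [← hρdef] at h1 h3 hρ
  have e : z - pos n q Y c = kp * ρ := by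
    rw [hρdef]; field_simp
  have h4 : (a + W) * S.Osc n c (2 * ρ) ≤ (a + W) * (2 * S.Cbar n * (2 * ρ) + 2 * S.Qbar n) :=
    mul_le_mul_of_nonneg_left h3 (by linarith)
  have h5 : 4 * (a + W) * S.Cbar n * ρ ≤ kp * ρ := mul_le_mul_of_nonneg_right hk hρ
  nlinarith

lemma Top_tel (hW : 0 ≤ W) {Y : ℕ → ℤ} (hY : NodeOK n q W Y) (c : ℕ → ℝ) {z z' : ℝ}
    (hz : pos n q Y c ≤ z) (hzz : z ≤ z') (hclose : 2 * K * (z' - z) ≤ z - pos n q Y c)
    (hk : 4 * ((W + 2 * a) * S.Cbar n) ≤ kp) :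
    S.Top n q a kp K μ Y c z' - S.Top n q a kp K μ Y c z ≤
      (W + 2 * a) * S.Vbar n / K + (z' - z) / 2 := by
  unfold Top
  have hρ : 0 ≤ (z - pos n q Y c) / kp := div_nonneg (by linarith) hkp.le
  have hβ0 := bet_nonneg hS ha hq Y
  have hβ1 := bet_le hS ha hq hY
  have hρρ : (z - pos n q Y c) / kp ≤ (z' - pos n q Y c) / kp :=
    div_le_div_of_nonneg_right (by linarith) hkp.le
  have ed : (z' - pos n q Y c) / kp - (z - pos n q Y c) / kp = (z' - z) / kp := by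
    field_simp; ring
  have hcl : 2 * (K : ℝ) * ((z' - pos n q Y c) / kp - (z - pos n q Y c) / kp) ≤
      (z - pos n q Y c) / kp := by
    rw [ed, ← mul_div_assoc]
    exact div_le_div_of_nonneg_right hclose hkp.le
  have := Avg_tel hK (f := S.Gp n q a Y c) (fh := S.Gh n q a Y c) (β := S.bet n q a Y)
    (Var := (W + 2 * a) * S.Vbar n)
    (fun r => Gp_split Y c r hq) hβ0 (fun r r' _ hr => Gh_mono hS ha hq Y c hr)
    (fun r hr => Gh_var hS ha hq hW hY c hr) hρ hρρ hcl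
  rw [ed] at this
  have h2 : 2 * S.bet n q a Y * ((z' - z) / kp) ≤ (z' - z) / 2 := by
    have h3 : 0 ≤ z' - z := by linarith
    rw [← mul_div_assoc, div_le_div_iff₀ hkp (by norm_num)]
    have h4 : 4 * S.bet n q a Y ≤ kp := by linarith
    nlinarith
  linarith

omit hS hq ha hkp hK in
lemma pos_lip (hq : 0 < q) {Y : ℕ → ℤ} (hY : NodeOK n q W Y) (c c' : ℕ → ℝ) :
    |pos n q Y c' - pos n q Y c| ≤ W * dist1 n c c' := by
  unfold pos dist1
  rw [← sub_div, abs_div, abs_of_pos hq, div_le_iff₀ hq, ← Finset.sum_sub_distrib]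
  have e : W * (∑ i ∈ range n, |c i - c' i|) * q = ∑ j ∈ range n, (q * W) * |c j - c' j| := by
    rw [← Finset.mul_sum]
    ring
  rw [e]
  refine (Finset.abs_sum_le_sum_abs _ _).trans ?_
  apply Finset.sum_le_sum
  intro j hj
  have hj' := Finset.mem_range.mp hj
  have h1 : |(Y j : ℝ) * c' j - (Y j : ℝ) * c j| = |(Y j : ℝ)| * |c j - c' j| := by
    rw [← mul_sub, abs_mul, abs_sub_comm (c' j)]
  rw [h1]
  exact mul_le_mul_of_nonneg_right (hY j hj') (abs_nonneg _)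

lemma Top_cone (hW : 0 ≤ W) {Y : ℕ → ℤ} (hY : NodeOK n q W Y) (c c' : ℕ → ℝ) {z z' : ℝ}
    (hz : pos n q Y c ≤ z) (hzz : z + Lam * dist1 n c c' ≤ z') (hLam : W + kp ≤ Lam) :
    S.Top n q a kp K μ Y c z ≤ S.Top n q a kp K μ Y c' z' := by
  unfold Top
  have hd0 := dist1_nonneg n c c'
  have hlip := (abs_le.mp (pos_lip hq hY c c')).2
  have hρ : 0 ≤ (z - pos n q Y c) / kp := div_nonneg (by linarith) hkp.le
  have hρ' : (z - pos n q Y c) / kp + dist1 n c c' ≤ (z' - pos n q Y c') / kp := by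
    rw [div_add' _ _ _ hkp.ne']
    apply div_le_div_of_nonneg_right _ hkp.le
    nlinarith
  have : Avg K (S.Gp n q a Y c) ((z - pos n q Y c) / kp) ≤
      Avg K (S.Gp n q a Y c') ((z' - pos n q Y c') / kp) := by
    apply Avg_mono2 hK
    intro i _
    apply Gp_cone hS ha hq
    have h1 := sc_ge_one K i
    nlinarith
  linarith

omit hq ha hkp hK in
lemma ht_cross (hq : 0 < q) {Y : ℕ → ℤ} (hY : NodeOK n q W Y) (c c' : ℕ → ℝ) {r : ℝ} (hr0 : 0 ≤ r)
    (hr : dist1 n c c' ≤ r) : |S.ht n q Y c - S.ht n q Y c'| ≤ W * S.Osc n c r := by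
  unfold ht Osc
  rw [← sub_div, abs_div, abs_of_pos hq, div_le_iff₀ hq, ← Finset.sum_sub_distrib]
  have e : W * (∑ j ∈ range n, (S.Hp j c r - S.Hm j c r)) * q =
      ∑ j ∈ range n, (q * W) * (S.Hp j c r - S.Hm j c r) := by
    rw [← Finset.mul_sum]
    ring
  rw [e]
  refine (Finset.abs_sum_le_sum_abs _ _).trans ?_
  apply Finset.sum_le_sum
  intro j hj
  have hj' := Finset.mem_range.mp hj
  have hd : (0 : ℝ) + dist1 (j + 1) c' c ≤ r := by
    have := dist1_mono (Nat.succ_le_of_lt hj') c' c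
    rw [dist1_comm n c' c] at this
    linarith
  have h1 := Hp_cone hS hj' c' c hd
  have h2 := Hm_cone hS hj' c' c hd
  rw [Hp_zero] at h1
  rw [Hm_zero] at h2
  have h3 := V_le_Hp hS hj' c hr0
  have h4 := Hm_le_V hS hj' c hr0
  have h5 : |(Y j : ℝ) * S.V j c - (Y j : ℝ) * S.V j c'| = |(Y j : ℝ)| * |S.V j c - S.V j c'| := by
    rw [← mul_sub, abs_mul]
  have h6 : |S.V j c - S.V j c'| ≤ S.Hp j c r - S.Hm j c r := by
    rw [abs_le]
    constructor <;> linarith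
  rw [h5]
  exact mul_le_mul (hY j hj') h6 (abs_nonneg _) (le_trans (abs_nonneg _) (hY j hj'))

lemma Top_cross (hW : W ≤ a) (hWn : 0 ≤ W) (hμ : 0 ≤ μ) {Y : ℕ → ℤ} (hY : NodeOK n q W Y)
    (c c' : ℕ → ℝ) {z z' : ℝ}
    (h1 : z ≤ pos n q Y c) (h2 : pos n q Y c' ≤ z') (hzz : z + Lam * dist1 n c c' ≤ z')
    (hLam : W + 2 * kp ≤ Lam) :
    - S.Top n q a kp K μ (-Y) c (-z) ≤ S.Top n q a kp K μ Y c' z' := by
  have hp : pos n q (-Y) c ≤ -z := by rw [pos_neg]; linarith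
  have a1 := Top_ge (μ := μ) hS hq ha hkp hK (-Y) c hp
  have a2 := Top_ge (μ := μ) hS hq ha hkp hK Y c' h2
  rw [ht_neg, pos_neg] at a1
  have e : -z - - pos n q Y c = pos n q Y c - z := by ring
  rw [e] at a1
  have hd0 := dist1_nonneg n c c'
  have hlip := (abs_le.mp (pos_lip hq hY c c')).2
  obtain ⟨ρ, hρdef⟩ : ∃ ρ, ρ = (pos n q Y c - z) / kp := ⟨_, rfl⟩
  obtain ⟨ρ', hρ'def⟩ : ∃ ρ', ρ' = (z' - pos n q Y c') / kp := ⟨_, rfl⟩
  rw [← hρdef] at a1
  rw [← hρ'def] at a2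
  have hρ0 : 0 ≤ ρ := by rw [hρdef]; exact div_nonneg (by linarith) hkp.le
  have hρ'0 : 0 ≤ ρ' := by rw [hρ'def]; exact div_nonneg (by linarith) hkp.le
  have hsum : 2 * dist1 n c c' ≤ ρ + ρ' := by
    rw [hρdef, hρ'def, ← add_div, le_div_iff₀ hkp]
    have : (W + 2 * kp) * dist1 n c c' ≤ Lam * dist1 n c c' :=
      mul_le_mul_of_nonneg_right hLam hd0
    nlinarith
  by_cases hcase : dist1 n c c' ≤ ρ
  · have b1 := (abs_le.mp (ht_cross hS hq hY c c' hρ0 hcase)).2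
    have b2 : W * S.Osc n c ρ ≤ a * S.Osc n c ρ :=
      mul_le_mul_of_nonneg_right hW (Osc_nonneg hS c hρ0)
    have b3 := mul_nonneg ha (Osc_nonneg hS c' hρ'0)
    linarith
  · have hcase' : dist1 n c' c ≤ ρ' := by
      rw [dist1_comm]
      linarith [not_le.mp hcase]
    have b1 := (abs_le.mp (ht_cross hS hq hY c' c hρ'0 hcase')).1
    have b2 : W * S.Osc n c' ρ' ≤ a * S.Osc n c' ρ' :=
      mul_le_mul_of_nonneg_right hW (Osc_nonneg hS c' hρ'0)
    have b3 := mul_nonneg ha (Osc_nonneg hS c hρ0)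
    linarith

end top

/-- The node system of the family at the point `c`. -/
def nsAt (S : Slots) (n : ℕ) (q a kp : ℝ) (K : ℕ) (μ Qn : ℝ) (s : Finset (ℕ → ℤ)) (c : ℕ → ℝ) :
    NS (ℕ → ℤ) where
  s := s
  p := fun Y => pos n q Y c
  h := fun Y => S.ht n q Y c
  T := fun Y z => S.Top n q a kp K μ Y c z
  B := fun Y z => - S.Top n q a kp K μ (-Y) c (-z)
  Q := Qn
  low := fun z Y => pos n q Y c ≤ z

end Slots

end Crest.Agent.Lib.MAK
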