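import Crest.Agent.Lib.MAK.Node

/-!
# Validity and certificates of the node system, from the separation property of the upper slots
-/

set_option autoImplicit false

noncomputable section

namespace Crest.Agent.Lib.MAK

open Finset

lemma finite_box (M : ℤ) (n : ℕ) :
    {Y : ℕ → ℤ | (∀ j, n ≤ j → Y j = 0) ∧ ∀ j < n, |Y j| ≤ M}.Finite := by
  classical
  induction n with
  | zero =>
    apply Set.Finite.subset (Set.finite_singleton (0 : ℕ → ℤ))
    rintro Y ⟨h1, _⟩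
    simp only [Set.mem_singleton_iff]
    funext j
    exact h1 j (Nat.zero_le j)
  | succ n ih =>
    have h2 : (Set.Icc (-M) M : Set ℤ).Finite := Set.finite_Icc _ _
    apply Set.Finite.subset ((ih.prod h2).image
      (fun p : (ℕ → ℤ) × ℤ => Function.update p.1 n p.2))
    rintro Y ⟨h1, h3⟩
    refine ⟨(Function.update Y n 0, Y n), ⟨⟨?_, ?_⟩, ?_⟩, ?_⟩
    · intro j hj
      by_cases hjn : j = n
      · subst hjn; simp
      · show Function.update Y n 0 j = 0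
        rw [Function.update_of_ne hjn]
        exact h1 j (by omega)
    · intro j hj
      show |Function.update Y n 0 j| ≤ M
      rw [Function.update_of_ne (by omega)]
      exact h3 j (by omega)
    · exact abs_le.mp (h3 n (by omega))
    · funext j
      by_cases hjn : j = n
      · subst hjn; simp
      · simp [Function.update_of_ne hjn]

/-- The set of nodes: integer vectors supported in the first `n` slots of `ℓ¹` norm `≤ M`. -/
def nodes (n : ℕ) (M : ℤ) : Finset (ℕ → ℤ) :=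
  ((finite_box M n).subset (t := {Y : ℕ → ℤ | (∀ j, n ≤ j → Y j = 0) ∧
    ∑ j ∈ range n, |Y j| ≤ M}) (by
      rintro Y ⟨h1, h2⟩
      refine ⟨h1, fun j hj => ?_⟩
      have h3 : |Y j| ≤ ∑ j ∈ range n, |Y j| :=
        Finset.single_le_sum (f := fun j => |Y j|) (fun _ _ => abs_nonneg _)
          (Finset.mem_range.mpr hj)
      exact h3.trans h2)).toFinset

lemma mem_nodes {n : ℕ} {M : ℤ} {Y : ℕ → ℤ} :
    Y ∈ nodes n M ↔ (∀ j, n ≤ j → Y j = 0) ∧ ∑ j ∈ range n, |Y j| ≤ M := by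
  simp [nodes]

lemma nodes_neg {n : ℕ} {M : ℤ} {Y : ℕ → ℤ} (h : Y ∈ nodes n M) : -Y ∈ nodes n M := by
  rw [mem_nodes] at h ⊢
  refine ⟨fun j hj => by simp [h.1 j hj], ?_⟩
  simpa using h.2

lemma nodes_zero {n : ℕ} {M : ℤ} (hM : 0 ≤ M) : (0 : ℕ → ℤ) ∈ nodes n M := by
  rw [mem_nodes]
  simpa using hM

namespace Slots

variable {S : Slots} {n : ℕ} {q a W kp μ Qn : ℝ} {K : ℕ}

lemma nodeOK_of_mem {M : ℤ} (hMq : (M : ℝ) ≤ q * W) {Y : ℕ → ℤ} (hY : Y ∈ nodes n M) :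
    NodeOK n q W Y := by
  intro j hj
  have h1 : |Y j| ≤ ∑ j ∈ range n, |Y j| :=
    Finset.single_le_sum (f := fun j => |Y j|) (fun _ _ => abs_nonneg _)
      (Finset.mem_range.mpr hj)
  have h2 : |Y j| ≤ M := h1.trans (mem_nodes.mp hY).2
  have h3 : |(Y j : ℝ)| ≤ (M : ℝ) := by exact_mod_cast h2
  exact h3.trans hMq

/-- combination lemma: separation for an integer combination of nodes -/
lemma sum_comb (u v : ℕ → ℝ) (Y : ℕ → ℤ) (al : ℤ) (f : ℕ → ℝ) :
    (∑ j ∈ range n, ((al * Y j : ℤ) : ℝ) * f j) = (al : ℝ) * ∑ j ∈ range n, (Y j : ℝ) * f j := by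
  rw [Finset.mul_sum]
  apply Finset.sum_congr rfl
  intro j _
  push_cast
  ring

theorem nsAt_good (hS : S.Good n) (hq : 0 < q) (hWn : 0 ≤ W) (haW : W ≤ a) (hkp : 0 < kp)
    (hK : 0 < K) (hμ : 0 ≤ μ) {s : Finset (ℕ → ℤ)}
    (hnode : ∀ Y ∈ s, NodeOK n q W Y) (hsym : ∀ Y ∈ s, -Y ∈ s) (hne : s.Nonempty)
    (hk : 4 * ((W + 2 * a) * S.Cbar n) ≤ kp) (hQ : W * S.Qbar n + 2 * (a + W) * S.Qbar n + μ ≤ Qn)
    (c : ℕ → ℝ)
    (hcompat : ∀ Y ∈ s, ∀ Y' ∈ s, ∀ z, pos n q Y c ≤ z → z ≤ pos n q Y' c →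
      pos n q Y c < pos n q Y' c →
      S.Top n q a kp K μ Y c z ≤ - S.Top n q a kp K μ (-Y') c (-z)) :
    (S.nsAt n q a kp K μ Qn s c).Good μ := by
  have ha : 0 ≤ a := hWn.trans haW
  have hC := Cbar_nonneg hS
  have hQ0 := Qbar_nonneg hS
  have hk' : 4 * (a + W) * S.Cbar n ≤ kp := by
    have : (a + W) * S.Cbar n ≤ (W + 2 * a) * S.Cbar n :=
      mul_le_mul_of_nonneg_right (by linarith) hC
    linarith
  refine
    { ne := hne
      hQ := ?_
      hμ := hμ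
      low1 := fun z Y h => le_of_lt h
      low2 := fun z Y h => not_le.mpr h
      low3 := fun z Y Y' h => by
        show pos n q Y c ≤ z ↔ pos n q Y' c ≤ z
        have h' : pos n q Y c = pos n q Y' c := h
        rw [h']
      T_ge := ?_
      B_le := ?_
      T_mono := ?_
      B_mono := ?_
      T_rail := ?_
      B_rail := ?_
      compat := hcompat }
  · show 0 ≤ Qn
    have : 0 ≤ W * S.Qbar n := by positivity
    have : 0 ≤ 2 * (a + W) * S.Qbar n := by positivity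
    linarith
  · intro Y _ z hz
    have hz' : pos n q Y c ≤ z := hz
    have h1 := Top_ge (μ := μ) hS hq ha hkp hK Y c hz'
    have h2 := Osc_nonneg hS c (show 0 ≤ (z - pos n q Y c) / kp from
      div_nonneg (by linarith) hkp.le)
    have h3 := mul_nonneg ha h2
    show S.ht n q Y c + μ ≤ S.Top n q a kp K μ Y c z
    linarith
  · intro Y _ z hz
    have hz' : z ≤ pos n q Y c := hz
    have hp : pos n q (-Y) c ≤ -z := by rw [pos_neg]; linarith
    have h1 := Top_ge (μ := μ) hS hq ha hkp hK (-Y) c hp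
    rw [ht_neg] at h1
    have h2 := Osc_nonneg hS c (show 0 ≤ (-z - pos n q (-Y) c) / kp from
      div_nonneg (by linarith) hkp.le)
    have h3 := mul_nonneg ha h2
    show - S.Top n q a kp K μ (-Y) c (-z) ≤ S.ht n q Y c - μ
    linarith
  · intro Y _ z z' _ hzz
    exact Top_mono hS hq ha hkp hK Y c hzz
  · intro Y _ z z' hzz _
    have := Top_mono (μ := μ) hS hq ha hkp hK (-Y) c (show -z' ≤ -z by linarith)
    show - S.Top n q a kp K μ (-Y) c (-z) ≤ - S.Top n q a kp K μ (-Y) c (-z')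
    linarith
  · intro Y hY z hz
    exact Top_rail hS hq ha hkp hK (hnode Y hY) c hz hWn hk' hQ
  · intro Y hY z hz
    have hz' : z ≤ pos n q Y c := hz
    have hp : pos n q (-Y) c ≤ -z := by rw [pos_neg]; linarith
    have := Top_rail hS hq ha hkp hK (hnode _ (hsym Y hY)) c hp hWn hk' hQ
    show z - Qn ≤ - S.Top n q a kp K μ (-Y) c (-z)
    linarith

/-- The difference lemma. -/
lemma Zlem {W' : ℕ} {A' sg' kap : ℝ} (hPP : S.PP n W' A' sg' kap) (hq : 0 < q) {M : ℤ}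
    (hM : 2 * M ≤ W') {Y Y' : ℕ → ℤ} (hY : Y ∈ nodes n M) (hY' : Y' ∈ nodes n M) (c : ℕ → ℝ)
    {r : ℝ} (hr : 0 ≤ r) (hlt : kap * r < q * (pos n q Y' c - pos n q Y c)) :
    (sg' + A' * S.Osc n c r) / q ≤ S.ht n q Y' c - S.ht n q Y c := by
  have hE : (∑ j ∈ range n, |(fun j => Y' j - Y j) j|) ≤ (W' : ℤ) := by
    have h1 : ∑ j ∈ range n, |Y' j - Y j| ≤ ∑ j ∈ range n, (|Y' j| + |Y j|) :=
      Finset.sum_le_sum fun j _ => abs_sub _ _
    rw [Finset.sum_add_distrib] at h1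
    have h2 := (mem_nodes.mp hY).2
    have h3 := (mem_nodes.mp hY').2
    show ∑ j ∈ range n, |Y' j - Y j| ≤ (W' : ℤ)
    linarith
  have e1 : ∑ j ∈ range n, (((fun j => Y' j - Y j) j : ℤ) : ℝ) * c j =
      q * (pos n q Y' c - pos n q Y c) := by
    unfold pos
    rw [← sub_div, mul_div_cancel₀ _ hq.ne', ← Finset.sum_sub_distrib]
    apply Finset.sum_congr rfl
    intro j _
    push_cast
    ring
  have e2 : ∑ j ∈ range n, (((fun j => Y' j - Y j) j : ℤ) : ℝ) * S.V j c =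
      q * (S.ht n q Y' c - S.ht n q Y c) := by
    unfold ht
    rw [← sub_div, mul_div_cancel₀ _ hq.ne', ← Finset.sum_sub_distrib]
    apply Finset.sum_congr rfl
    intro j _
    push_cast
    ring
  have := hPP _ hE c r hr (by rw [e1]; exact hlt)
  rw [e2] at this
  rw [div_le_iff₀ hq]
  linarith

/-- The three-node combination lemma. -/
lemma comb3 {W' : ℕ} {A' sg' kap : ℝ} (hPP : S.PP n W' A' sg' kap) (hsg : 0 ≤ sg') (hq : 0 < q)
    {M : ℤ} (hM0 : 0 ≤ M) {Y₁ Y₂ Y₃ : ℕ → ℤ} (h₁ : Y₁ ∈ nodes n M) (h₂ : Y₂ ∈ nodes n M)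
    (h₃ : Y₃ ∈ nodes n M) (c : ℕ → ℝ) (al be ga : ℤ)
    (hM : (|al| + |be| + |ga|) * M ≤ W')
    (hlt : 0 < (al : ℝ) * pos n q Y₁ c + (be : ℝ) * pos n q Y₂ c + (ga : ℝ) * pos n q Y₃ c) :
    0 ≤ (al : ℝ) * S.ht n q Y₁ c + (be : ℝ) * S.ht n q Y₂ c + (ga : ℝ) * S.ht n q Y₃ c := by
  have hE : (∑ j ∈ range n, |(fun j => al * Y₁ j + be * Y₂ j + ga * Y₃ j) j|) ≤ (W' : ℤ) := by
    have h1 : ∑ j ∈ range n, |al * Y₁ j + be * Y₂ j + ga * Y₃ j| ≤
        ∑ j ∈ range n, (|al| * |Y₁ j| + |be| * |Y₂ j| + |ga| * |Y₃ j|) := by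
      apply Finset.sum_le_sum
      intro j _
      calc |al * Y₁ j + be * Y₂ j + ga * Y₃ j| ≤ |al * Y₁ j + be * Y₂ j| + |ga * Y₃ j| :=
            abs_add_le _ _
        _ ≤ |al * Y₁ j| + |be * Y₂ j| + |ga * Y₃ j| := by
            have := abs_add_le (al * Y₁ j) (be * Y₂ j)
            linarith
        _ = _ := by rw [abs_mul, abs_mul, abs_mul]
    rw [Finset.sum_add_distrib, Finset.sum_add_distrib, ← Finset.mul_sum, ← Finset.mul_sum,
      ← Finset.mul_sum] at h1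
    have h2 := (mem_nodes.mp h₁).2
    have h3 := (mem_nodes.mp h₂).2
    have h4 := (mem_nodes.mp h₃).2
    have a1 := mul_le_mul_of_nonneg_left h2 (abs_nonneg al)
    have a2 := mul_le_mul_of_nonneg_left h3 (abs_nonneg be)
    have a3 := mul_le_mul_of_nonneg_left h4 (abs_nonneg ga)
    show ∑ j ∈ range n, |al * Y₁ j + be * Y₂ j + ga * Y₃ j| ≤ (W' : ℤ)
    nlinarith
  have gen : ∀ f : ℕ → ℝ, ∑ j ∈ range n, (((fun j => al * Y₁ j + be * Y₂ j + ga * Y₃ j) j : ℤ) : ℝ) * f j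
      = q * ((al : ℝ) * ((∑ j ∈ range n, (Y₁ j : ℝ) * f j) / q) +
          (be : ℝ) * ((∑ j ∈ range n, (Y₂ j : ℝ) * f j) / q) +
          (ga : ℝ) * ((∑ j ∈ range n, (Y₃ j : ℝ) * f j) / q)) := by
    intro f
    have e : q * ((al : ℝ) * ((∑ j ∈ range n, (Y₁ j : ℝ) * f j) / q) +
          (be : ℝ) * ((∑ j ∈ range n, (Y₂ j : ℝ) * f j) / q) +
          (ga : ℝ) * ((∑ j ∈ range n, (Y₃ j : ℝ) * f j) / q)) =
        (al : ℝ) * (∑ j ∈ range n, (Y₁ j : ℝ) * f j) +
          (be : ℝ) * (∑ j ∈ range n, (Y₂ j : ℝ) * f j) +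
          (ga : ℝ) * (∑ j ∈ range n, (Y₃ j : ℝ) * f j) := by
      field_simp
    rw [e, Finset.mul_sum, Finset.mul_sum, Finset.mul_sum, ← Finset.sum_add_distrib,
      ← Finset.sum_add_distrib]
    apply Finset.sum_congr rfl
    intro j _
    push_cast
    ring
  have e1 := gen c
  have e2 := gen (fun j => S.V j c)
  have hPPk : (kap * 0 : ℝ) < ∑ j ∈ range n,
      (((fun j => al * Y₁ j + be * Y₂ j + ga * Y₃ j) j : ℤ) : ℝ) * c j := by
    rw [e1, mul_zero]
    exact mul_pos hq hlt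
  have := hPP _ hE c 0 le_rfl hPPk
  rw [Osc_zero] at this
  simp only [mul_zero, add_zero] at this
  have h5 := e2
  change ∑ j ∈ range n, (((fun j => al * Y₁ j + be * Y₂ j + ga * Y₃ j) j : ℤ) : ℝ) * S.V j c = _ at h5
  rw [h5] at this
  have h6 : 0 ≤ q * ((al : ℝ) * S.ht n q Y₁ c + (be : ℝ) * S.ht n q Y₂ c + (ga : ℝ) * S.ht n q Y₃ c) :=
    hsg.trans this
  exact nonneg_of_mul_nonneg_right h6 hq

/-- Compatibility of tops and bottoms. -/
theorem compat_of_PP (hS : S.Good n) (hq : 0 < q) (haW : 0 ≤ a) (hWn : 0 ≤ W) (hkp : 0 < kp)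
    (hK : 0 < K) {W' : ℕ} {A' sg' kap : ℝ} (hPP : S.PP n W' A' sg' kap) {M : ℤ}
    (hM : 2 * M ≤ W') (hMq : (M : ℝ) ≤ q * W) (hk : 2 * kap < q * kp)
    (hsg : 2 * μ * q ≤ sg') (hA : 2 * (a + W) * q ≤ A')
    {Y Y' : ℕ → ℤ} (hY : Y ∈ nodes n M) (hY' : Y' ∈ nodes n M) (c : ℕ → ℝ) {z : ℝ}
    (h1 : pos n q Y c ≤ z) (h2 : z ≤ pos n q Y' c) (h3 : pos n q Y c < pos n q Y' c) :
    S.Top n q a kp K μ Y c z ≤ - S.Top n q a kp K μ (-Y') c (-z) := by
  have hOK := nodeOK_of_mem hMq hY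
  have hOK' := nodeOK_of_mem hMq (nodes_neg hY')
  have hp : pos n q (-Y') c ≤ -z := by rw [pos_neg]; linarith
  have a1 := Top_le (μ := μ) hS hq haW hkp hK hOK c h1
  have a2 := Top_le (μ := μ) hS hq haW hkp hK hOK' c hp
  rw [ht_neg, pos_neg] at a2
  have e : -z - - pos n q Y' c = pos n q Y' c - z := by ring
  rw [e] at a2
  obtain ⟨d, hd⟩ : ∃ d, d = pos n q Y' c - pos n q Y c := ⟨_, rfl⟩
  have hd0 : 0 < d := by rw [hd]; linarith
  obtain ⟨r, hr⟩ : ∃ r, r = 2 * (d / kp) := ⟨_, rfl⟩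
  have hr0 : 0 < r := by rw [hr]; positivity
  have m1 : S.Osc n c (2 * ((z - pos n q Y c) / kp)) ≤ S.Osc n c r := by
    apply Osc_mono hS
    rw [hr, hd]
    apply mul_le_mul_of_nonneg_left _ (by norm_num)
    exact div_le_div_of_nonneg_right (by linarith) hkp.le
  have m2 : S.Osc n c (2 * ((pos n q Y' c - z) / kp)) ≤ S.Osc n c r := by
    apply Osc_mono hS
    rw [hr, hd]
    apply mul_le_mul_of_nonneg_left _ (by norm_num)
    exact div_le_div_of_nonneg_right (by linarith) hkp.le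
  have hlt : kap * r < q * (pos n q Y' c - pos n q Y c) := by
    rw [hr, ← hd]
    have : kap * (2 * (d / kp)) = (2 * kap) * d / kp := by ring
    rw [this, div_lt_iff₀ hkp]
    have := mul_lt_mul_of_pos_right hk hd0
    nlinarith
  have hZ := Zlem hPP hq hM hY hY' c hr0.le hlt
  have hOsc := Osc_nonneg hS c hr0.le
  have h4 : (2 * μ + 2 * (a + W) * S.Osc n c r) ≤ (sg' + A' * S.Osc n c r) / q := by
    rw [le_div_iff₀ hq]
    have := mul_le_mul_of_nonneg_right hA hOsc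
    nlinarith
  have hb : 0 ≤ a + W := by linarith
  have m1' := mul_le_mul_of_nonneg_left m1 hb
  have m2' := mul_le_mul_of_nonneg_left m2 hb
  linarith

/-- The certificates of the node system. -/
theorem nsAt_cert (hS : S.Good n) (hq : 0 < q) (hWn : 0 ≤ W) (haW : W ≤ a) (hkp : 0 < kp)
    (hK : 0 < K) {W' : ℕ} {A' sg' kap : ℝ} (hPP : S.PP n W' A' sg' kap) {M : ℤ} (hM0 : 0 ≤ M)
    {m' : ℕ} (hM : (2 + 2 * (m' : ℤ)) * M ≤ W') (hMq : (M : ℝ) ≤ q * W) (hk : 2 * kap ≤ q * kp)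
    (hsg : 0 ≤ sg') (hA : 0 ≤ A') (hapos : 0 < a + W)
    (hkk : 4 * ((W + 2 * a) * S.Cbar n) ≤ kp) (c : ℕ → ℝ) :
    (S.nsAt n q a kp K μ Qn (nodes n M) c).Cert μ
      (fun y => (a + W) * S.Osc n c (2 * (y / kp)))
      ((W + 2 * a) * S.Vbar n / K) (K : ℝ) m' (sg' / q) (A' / (q * (a + W))) := by
  have ha : 0 ≤ a := hWn.trans haW
  have hM2 : 2 * M ≤ W' := by
    have : (0 : ℤ) ≤ 2 * (m' : ℤ) * M := by positivity
    nlinarith
  have hcomb : ∀ (Y₁ Y₂ Y₃ : ℕ → ℤ), Y₁ ∈ nodes n M → Y₂ ∈ nodes n M → Y₃ ∈ nodes n M →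
      ∀ m : ℕ, m ≤ m' → ∀ (al be ga : ℤ), |al| + |be| + |ga| ≤ 2 + 2 * (m : ℤ) →
      0 < (al : ℝ) * pos n q Y₁ c + (be : ℝ) * pos n q Y₂ c + (ga : ℝ) * pos n q Y₃ c →
      0 ≤ (al : ℝ) * S.ht n q Y₁ c + (be : ℝ) * S.ht n q Y₂ c + (ga : ℝ) * S.ht n q Y₃ c := by
    intro Y₁ Y₂ Y₃ h₁ h₂ h₃ m hm al be ga hab hlt
    refine comb3 hPP hsg hq hM0 h₁ h₂ h₃ c al be ga ?_ hlt
    have hm' : (m : ℤ) ≤ m' := by exact_mod_cast hm
    have h1 : (|al| + |be| + |ga|) * M ≤ (2 + 2 * (m : ℤ)) * M :=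
      mul_le_mul_of_nonneg_right hab hM0
    have h2 : (2 + 2 * (m : ℤ)) * M ≤ (2 + 2 * (m' : ℤ)) * M :=
      mul_le_mul_of_nonneg_right (by linarith) hM0
    linarith
  refine
    { O_nonneg := ?_
      O_mono := ?_
      T_up := ?_
      B_lo := ?_
      T_tel := ?_
      B_tel := ?_
      C1 := ?_
      C1' := ?_
      C2 := ?_ }
  · intro y hy
    have := Osc_nonneg hS c (show 0 ≤ 2 * (y / kp) by positivity)
    positivity
  · intro y y' _ hyy
    apply mul_le_mul_of_nonneg_left _ hapos.le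
    apply Osc_mono hS
    apply mul_le_mul_of_nonneg_left _ (by norm_num)
    exact div_le_div_of_nonneg_right hyy hkp.le
  · intro Y hY z hz
    exact Top_le hS hq ha hkp hK (nodeOK_of_mem hMq hY) c hz
  · intro Y hY z hz
    have hz' : z ≤ pos n q Y c := hz
    have hp : pos n q (-Y) c ≤ -z := by rw [pos_neg]; linarith
    have := Top_le (μ := μ) hS hq ha hkp hK (nodeOK_of_mem hMq (nodes_neg hY)) c hp
    rw [ht_neg, pos_neg] at this
    have e : -z - - pos n q Y c = pos n q Y c - z := by ring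
    rw [e] at this
    show S.ht n q Y c - (a + W) * S.Osc n c (2 * ((pos n q Y c - z) / kp)) - μ ≤
      - S.Top n q a kp K μ (-Y) c (-z)
    linarith
  · intro Y hY z z' hz hzz hcl
    exact Top_tel hS hq ha hkp hK hWn (nodeOK_of_mem hMq hY) c hz hzz hcl hkk
  · intro Y hY z z' hzz hz hcl
    have hz' : z' ≤ pos n q Y c := hz
    have hp : pos n q (-Y) c ≤ -z' := by rw [pos_neg]; linarith
    have hcl' : 2 * (K : ℝ) * (-z - -z') ≤ -z' - pos n q (-Y) c := by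
      rw [pos_neg]
      have e1 : -z - -z' = z' - z := by ring
      have e2 : -z' - - pos n q Y c = pos n q Y c - z' := by ring
      rw [e1, e2]
      exact hcl
    have := Top_tel (μ := μ) hS hq ha hkp hK hWn (nodeOK_of_mem hMq (nodes_neg hY)) c hp
      (show -z' ≤ -z by linarith) hcl' hkk
    show - S.Top n q a kp K μ (-Y) c (-z') - - S.Top n q a kp K μ (-Y) c (-z) ≤ _
    have e1 : -z - -z' = z' - z := by ring
    rw [e1] at this
    linarith
  · intro Y₁ h₁ Y₂ h₂ Y₃ h₃ m hm hm' hlt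
    have hlt' : (m : ℝ) * (pos n q Y₂ c - pos n q Y₁ c) < pos n q Y₁ c - pos n q Y₃ c := hlt
    have := hcomb Y₁ Y₂ Y₃ h₁ h₂ h₃ m hm' (1 + m) (-m) (-1)
      (by
        rw [abs_of_nonneg (by positivity), abs_neg, abs_neg, abs_one, Nat.abs_cast]
        linarith)
      (by
        push_cast
        linarith)
    push_cast at this
    show (m : ℝ) * (S.ht n q Y₂ c - S.ht n q Y₁ c) ≤ S.ht n q Y₁ c - S.ht n q Y₃ c
    linarith
  · intro Y₁ h₁ Y₂ h₂ Y₃ h₃ m hm hm' hlt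
    have hlt' : (m : ℝ) * (pos n q Y₁ c - pos n q Y₂ c) < pos n q Y₃ c - pos n q Y₁ c := hlt
    have := hcomb Y₁ Y₂ Y₃ h₁ h₂ h₃ m hm' (-(1 + m)) m 1
      (by
        rw [abs_neg, abs_of_nonneg (by positivity), abs_one, Nat.abs_cast]
        linarith)
      (by
        push_cast
        linarith)
    push_cast at this
    show (m : ℝ) * (S.ht n q Y₁ c - S.ht n q Y₂ c) ≤ S.ht n q Y₃ c - S.ht n q Y₁ c
    linarith
  · intro Y hY Y' hY' y hy hlt
    have hlt' : y < pos n q Y c - pos n q Y' c := hlt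
    have hr0 : 0 ≤ 2 * (y / kp) := by positivity
    have hlt2 : kap * (2 * (y / kp)) < q * (pos n q Y c - pos n q Y' c) := by
      have e : kap * (2 * (y / kp)) = (2 * kap) * y / kp := by ring
      rw [e]
      have h1 : (2 * kap) * y / kp ≤ q * y := by
        rw [div_le_iff₀ hkp]
        have := mul_le_mul_of_nonneg_right hk hy
        nlinarith
      have h2 : q * y < q * (pos n q Y c - pos n q Y' c) := mul_lt_mul_of_pos_left hlt' hq
      linarith
    have := Zlem hPP hq hM2 hY' hY c hr0 hlt2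
    show sg' / q + A' / (q * (a + W)) * ((a + W) * S.Osc n c (2 * (y / kp))) ≤
      S.ht n q Y c - S.ht n q Y' c
    have e : sg' / q + A' / (q * (a + W)) * ((a + W) * S.Osc n c (2 * (y / kp))) =
        (sg' + A' * S.Osc n c (2 * (y / kp))) / q := by
      field_simp
    rw [e]
    exact this

end Slots

end Crest.Agent.Lib.MAK
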