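import Crest.Agent.Lib.MAK.Interp

/-!
# The rise lemma for node systems
-/

set_option autoImplicit false

noncomputable section

open scoped Classical

namespace Crest.Agent.Lib.MAK

variable {ι : Type}

namespace NS

variable {N : NS ι} {μ : ℝ}

lemma aL_congr {z z' : ℝ} (h : N.Lo z = N.Lo z') (hz : (N.Lo z).Nonempty) :
    N.aL z = N.aL z' := by
  have hz' : (N.Lo z').Nonempty := h ▸ hz
  obtain ⟨⟨A, hA, hA'⟩, hm⟩ := aL_spec hz
  obtain ⟨⟨A', hB, hB'⟩, hm'⟩ := aL_spec hz'
  apply le_antisymm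
  · rw [← hA']; exact hm' A (h ▸ hA)
  · rw [← hB']; exact hm A' (h ▸ hB)

lemma aU_congr {z z' : ℝ} (h : N.Up z = N.Up z') (hz : (N.Up z).Nonempty) :
    N.aU z = N.aU z' := by
  have hz' : (N.Up z').Nonempty := h ▸ hz
  obtain ⟨⟨A, hA, hA'⟩, hm⟩ := aU_spec hz
  obtain ⟨⟨A', hB, hB'⟩, hm'⟩ := aU_spec hz'
  apply le_antisymm
  · rw [← hB']; exact hm A' (h ▸ hB)
  · rw [← hA']; exact hm' A (h ▸ hA)

/-- The complementary-weight bound: if the first node above `z` is within `ℓ` of `z`, then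
`(1 - w)(U - L)` is small. -/
lemma one_sub_w_bound (hG : N.Good μ) {z ℓ η K₆ : ℝ} (hℓ : 0 < ℓ) (hη : 0 ≤ η) (hK₆ : 0 < K₆)
    (hQ : 2 * N.Q ≤ K₆ * η)
    (hnear : ∀ A ∈ N.s, ∀ B' ∈ N.s, N.p A ≤ z → z ≤ N.p B' → N.p A ≤ N.p B' →
      N.p B' - N.p A ≤ K₆ * ℓ → N.h B' - N.h A ≤ η)
    (hU : (N.Up z).Nonempty) (hclose : N.aU z - z ≤ ℓ) :
    (1 - N.w z) * (N.U z - N.L z) ≤ η := by
  rcases w_cases hG z with ⟨h1, _⟩ | ⟨_, _, h⟩ | ⟨_, h2, h⟩
  · exact absurd hU h1
  · rw [h]; simpa using hη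
  · have hgap := aL_lt_aU hG h2 hU
    have hz1 := aL_le hG h2
    have hz2 := le_aU hG hU
    have hne : N.aU z - N.aL z ≠ 0 := by linarith
    have e1 : 1 - N.w z = (N.aU z - z) / (N.aU z - N.aL z) := by
      rw [h]; field_simp; ring
    have h0 := sub_nonneg.mpr (L_le_U hG z)
    obtain ⟨⟨A, hA, hA'⟩, -⟩ := aL_spec h2
    obtain ⟨⟨B', hB, hB'⟩, -⟩ := aU_spec hU
    have hdiff : N.U z - N.L z ≤ N.h B' - N.h A := by
      have h3 := U_le_B hB
      have h4 := T_le_L hA
      have h5 := hG.B_le B' (mem_Up.mp hB).1 z (le_p_of_Up hG hB)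
      have h6 := hG.T_ge A (mem_Lo.mp hA).1 z (p_le_of_Lo hG hA)
      have := hG.hμ
      linarith
    have hrail : N.U z - N.L z ≤ 2 * N.Q := by
      have := U_le_rail (N := N) z
      have := rail_le_L (N := N) z
      linarith
    rw [e1]
    by_cases hfar : K₆ * ℓ ≤ N.aU z - N.aL z
    · have hgap' : 0 < N.aU z - N.aL z := by linarith
      rw [div_mul_eq_mul_div, div_le_iff₀ hgap']
      have s1 : (N.aU z - z) * (N.U z - N.L z) ≤ ℓ * (2 * N.Q) :=
        mul_le_mul hclose hrail h0 hℓ.le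
      have s2 : ℓ * (2 * N.Q) ≤ ℓ * (K₆ * η) := mul_le_mul_of_nonneg_left hQ hℓ.le
      have s3 : ℓ * (K₆ * η) = η * (K₆ * ℓ) := by ring
      have s4 : η * (K₆ * ℓ) ≤ η * (N.aU z - N.aL z) := mul_le_mul_of_nonneg_left hfar hη
      linarith
    · have hfar' := not_le.mp hfar
      have h7 : N.h B' - N.h A ≤ η := by
        apply hnear A (mem_Lo.mp hA).1 B' (mem_Up.mp hB).1
        · rw [hA']; exact hz1
        · rw [hB']; exact hz2
        · rw [hA', hB']; exact hgap.le
        · rw [hA', hB']; exact hfar'.le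
      have h8 : (N.aU z - z) / (N.aU z - N.aL z) ≤ 1 := by
        rw [div_le_one (by linarith)]
        linarith
      have h9 : 0 ≤ (N.aU z - z) / (N.aU z - N.aL z) :=
        div_nonneg (by linarith) (by linarith)
      calc (N.aU z - z) / (N.aU z - N.aL z) * (N.U z - N.L z)
          ≤ 1 * (N.U z - N.L z) := mul_le_mul_of_nonneg_right h8 h0
        _ ≤ η := by linarith

/-- The weight bound: if the last node below `z` is within `ℓ` of `z`, then `w (U - L)` is small. -/
lemma w_bound (hG : N.Good μ) {z ℓ η K₆ : ℝ} (hℓ : 0 < ℓ) (hη : 0 ≤ η) (hK₆ : 0 < K₆)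
    (hQ : 2 * N.Q ≤ K₆ * η)
    (hnear : ∀ A ∈ N.s, ∀ B' ∈ N.s, N.p A ≤ z → z ≤ N.p B' → N.p A ≤ N.p B' →
      N.p B' - N.p A ≤ K₆ * ℓ → N.h B' - N.h A ≤ η)
    (hL : (N.Lo z).Nonempty) (hclose : z - N.aL z ≤ ℓ) :
    N.w z * (N.U z - N.L z) ≤ η := by
  rcases w_cases hG z with ⟨_, h⟩ | ⟨_, h2, _⟩ | ⟨hU, _, h⟩
  · rw [h]; simpa using hη
  · exact absurd hL h2
  · have hgap := aL_lt_aU hG hL hU
    have hz1 := aL_le hG hL
    have hz2 := le_aU hG hU
    have h0 := sub_nonneg.mpr (L_le_U hG z)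
    obtain ⟨⟨A, hA, hA'⟩, -⟩ := aL_spec hL
    obtain ⟨⟨B', hB, hB'⟩, -⟩ := aU_spec hU
    have hdiff : N.U z - N.L z ≤ N.h B' - N.h A := by
      have h3 := U_le_B hB
      have h4 := T_le_L hA
      have h5 := hG.B_le B' (mem_Up.mp hB).1 z (le_p_of_Up hG hB)
      have h6 := hG.T_ge A (mem_Lo.mp hA).1 z (p_le_of_Lo hG hA)
      have := hG.hμ
      linarith
    have hrail : N.U z - N.L z ≤ 2 * N.Q := by
      have := U_le_rail (N := N) z
      have := rail_le_L (N := N) z
      linarith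
    rw [h]
    by_cases hfar : K₆ * ℓ ≤ N.aU z - N.aL z
    · have hgap' : 0 < N.aU z - N.aL z := by linarith
      rw [div_mul_eq_mul_div, div_le_iff₀ hgap']
      have s1 : (z - N.aL z) * (N.U z - N.L z) ≤ ℓ * (2 * N.Q) :=
        mul_le_mul hclose hrail h0 hℓ.le
      have s2 : ℓ * (2 * N.Q) ≤ ℓ * (K₆ * η) := mul_le_mul_of_nonneg_left hQ hℓ.le
      have s3 : ℓ * (K₆ * η) = η * (K₆ * ℓ) := by ring
      have s4 : η * (K₆ * ℓ) ≤ η * (N.aU z - N.aL z) := mul_le_mul_of_nonneg_left hfar hη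
      linarith
    · have hfar' := not_le.mp hfar
      have h7 : N.h B' - N.h A ≤ η := by
        apply hnear A (mem_Lo.mp hA).1 B' (mem_Up.mp hB).1
        · rw [hA']; exact hz1
        · rw [hB']; exact hz2
        · rw [hA', hB']; exact hgap.le
        · rw [hA', hB']; exact hfar'.le
      have h8 : (z - N.aL z) / (N.aU z - N.aL z) ≤ 1 := by
        rw [div_le_one (by linarith)]
        linarith
      have h9 : 0 ≤ (z - N.aL z) / (N.aU z - N.aL z) :=
        div_nonneg (by linarith) (by linarith)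
      calc (z - N.aL z) / (N.aU z - N.aL z) * (N.U z - N.L z)
          ≤ 1 * (N.U z - N.L z) := mul_le_mul_of_nonneg_right h8 h0
        _ ≤ η := by linarith

/-- **Rise lemma.** -/
theorem rise (hG : N.Good μ) {zm zp η K₆ : ℝ} (hz : zm < zp) (hη : 0 ≤ η) (hK₆ : 1 ≤ K₆)
    (R1 : zp - zm ≤ η)
    (R2 : ∀ Y ∈ N.s, N.low zm Y → N.T Y zp - N.T Y zm ≤ η)
    (R3 : ∀ Y ∈ N.s, ¬ N.low zp Y → N.B Y zp - N.B Y zm ≤ η)
    (R4 : ∀ A ∈ N.s, ∀ B' ∈ N.s, N.p A ≤ zp → zm ≤ N.p B' → N.p A ≤ N.p B' →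
      N.p B' - N.p A ≤ K₆ * (zp - zm) → N.h B' - N.h A ≤ η)
    (R5 : ∀ Y ∈ N.s, zm ≤ N.p Y → N.p Y ≤ zp →
      N.T Y zp ≤ N.h Y + η + μ ∧ N.h Y - η - μ ≤ N.B Y zm)
    (R6 : (∃ Y ∈ N.s, ¬ N.low zm Y ∧ N.low zp Y) → 2 * μ ≤ η)
    (R8 : 2 * N.Q ≤ K₆ * η) :
    N.F zp - N.F zm ≤ 7 * η := by
  have hℓ : 0 < zp - zm := sub_pos.mpr hz
  have hK₆' : 0 < K₆ := by linarith
  have hlowmono : ∀ Y, N.low zm Y → N.low zp Y := by
    intro Y hl
    by_cases hp : N.p Y ≤ zm
    · exact hG.low1 zp Y (lt_of_le_of_lt hp hz)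
    · exact absurd hl (hG.low2 zm Y (not_le.mp hp))
  by_cases hcross : ∃ Y ∈ N.s, ¬ N.low zm Y ∧ N.low zp Y
  · -- crossing case
    have hμη := R6 hcross
    obtain ⟨Y₀, hY₀, h1, h2⟩ := hcross
    have hY₀U : Y₀ ∈ N.Up zm := mem_Up.mpr ⟨hY₀, h1⟩
    have hY₀L : Y₀ ∈ N.Lo zp := mem_Lo.mpr ⟨hY₀, h2⟩
    have hUne : (N.Up zm).Nonempty := ⟨Y₀, hY₀U⟩
    have hLne : (N.Lo zp).Nonempty := ⟨Y₀, hY₀L⟩
    obtain ⟨⟨B₀, hB₀, hB₀'⟩, hB₀min⟩ := aU_spec hUne
    have hB₀s := (mem_Up.mp hB₀).1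
    have hpB₀1 : zm ≤ N.p B₀ := le_p_of_Up hG hB₀
    have hpB₀2 : N.p B₀ ≤ N.p Y₀ := by rw [hB₀']; exact hB₀min Y₀ hY₀U
    have hpY₀ : N.p Y₀ ≤ zp := p_le_of_Lo hG hY₀L
    have hpB₀3 : N.p B₀ ≤ zp := hpB₀2.trans hpY₀
    -- near-pair hypothesis at zm and zp
    have hnear_m : ∀ A ∈ N.s, ∀ B' ∈ N.s, N.p A ≤ zm → zm ≤ N.p B' → N.p A ≤ N.p B' →
        N.p B' - N.p A ≤ K₆ * (zp - zm) → N.h B' - N.h A ≤ η := by
      intro A hA B' hB' h3 h4 h5 h6
      exact R4 A hA B' hB' (h3.trans hz.le) h4 h5 h6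
    have hnear_p : ∀ A ∈ N.s, ∀ B' ∈ N.s, N.p A ≤ zp → zp ≤ N.p B' → N.p A ≤ N.p B' →
        N.p B' - N.p A ≤ K₆ * (zp - zm) → N.h B' - N.h A ≤ η := by
      intro A hA B' hB' h3 h4 h5 h6
      exact R4 A hA B' hB' h3 (hz.le.trans h4) h5 h6
    have hF1 := one_sub_w_bound hG hℓ hη hK₆' R8 hnear_m hUne (by rw [← hB₀']; linarith)
    have hF2 : N.w zp * (N.U zp - N.L zp) ≤ η := by
      refine w_bound hG hℓ hη hK₆' R8 hnear_p hLne ?_
      have := (aL_spec hLne).2 Y₀ hY₀L
      linarith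
    have hFm : N.U zm - η ≤ N.F zm := by
      unfold F
      nlinarith
    have hFp : N.F zp ≤ N.L zp + η := by
      unfold F
      linarith
    -- tops
    have hh0 := hG.T_ge B₀ hB₀s (N.p B₀) le_rfl
    have htop : ∀ Y ∈ N.Lo zp, N.T Y zp ≤ N.h B₀ + 2 * η + μ := by
      intro Y hY
      have hYs := (mem_Lo.mp hY).1
      by_cases hl : N.low zm Y
      · have hYm : Y ∈ N.Lo zm := mem_Lo.mpr ⟨hYs, hl⟩
        have a1 := R2 Y hYs hl
        have a2 := T_le_B hG hYm hB₀
        have a3 := hG.B_le B₀ hB₀s zm hpB₀1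
        have := hG.hμ
        linarith
      · have hYu : Y ∈ N.Up zm := mem_Up.mpr ⟨hYs, hl⟩
        have a0 : N.p B₀ ≤ N.p Y := by rw [hB₀']; exact hB₀min Y hYu
        have a1 : zm ≤ N.p Y := le_p_of_Up hG hYu
        have a2 : N.p Y ≤ zp := p_le_of_Lo hG hY
        have a3 := (R5 Y hYs a1 a2).1
        have a4 := R4 B₀ hB₀s Y hYs hpB₀3 a1 a0 (by nlinarith)
        linarith
    have hbot : ∀ Y ∈ N.Up zm, N.h B₀ - 2 * η - μ ≤ N.B Y zm := by
      intro Y hY
      have hYs := (mem_Up.mp hY).1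
      have a0 : N.p B₀ ≤ N.p Y := by rw [hB₀']; exact hB₀min Y hY
      have a1 : zm ≤ N.p Y := le_p_of_Up hG hY
      by_cases hl : N.low zp Y
      · have a2 : N.p Y ≤ zp := by
          by_contra hc
          exact hG.low2 zp Y (not_le.mp hc) hl
        have a3 := (R5 Y hYs a1 a2).2
        have a4 : N.h B₀ - N.h Y ≤ η := by
          rcases eq_or_lt_of_le a0 with heq | hlt
          · exact R4 Y hYs B₀ hB₀s a2 hpB₀1 heq.ge (by rw [heq]; simp; nlinarith)
          · have b1 := hG.compat B₀ hB₀s Y hYs (N.p B₀) le_rfl a0 hlt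
            have b2 := hG.B_le Y hYs (N.p B₀) a0
            have := hG.hμ
            linarith
        linarith
      · have a1' : zp ≤ N.p Y := by
          by_contra hc
          exact hl (hG.low1 zp Y (not_le.mp hc))
        have a2 := R3 Y hYs hl
        have hB₀low : N.low zp B₀ := by
          rcases lt_or_eq_of_le hpB₀3 with hlt | heq
          · exact hG.low1 zp B₀ hlt
          · have e : N.p B₀ = N.p Y₀ := by linarith
            exact (hG.low3 zp B₀ Y₀ e).mpr h2
        have a3 := T_le_B hG (mem_Lo.mpr ⟨hB₀s, hB₀low⟩) (mem_Up.mpr ⟨hYs, hl⟩)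
        have a4 := hG.T_ge B₀ hB₀s zp hpB₀3
        have := hG.hμ
        linarith
    have hkey : N.L zp ≤ N.U zm + 5 * η := by
      apply L_le
      · have : zp - N.Q ≤ N.U zm + 5 * η := by
          have hcase : zm - N.Q - 0 ≤ N.U zm := by
            apply le_U
            · linarith [hG.hQ]
            · intro Y hY
              have := hG.B_rail Y (mem_Up.mp hY).1 zm (le_p_of_Up hG hY)
              linarith
          linarith
        exact this
      · intro Y hY
        have a1 := htop Y hY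
        have a2 : N.h B₀ - 2 * η - μ ≤ N.U zm := by
          apply le_U
          · -- rail: h B₀ ≤ ... use T_rail at B₀
            have b1 := hG.T_rail B₀ hB₀s (N.p B₀) le_rfl
            have b2 := hG.hμ
            -- if the rail is smaller than the bound, compare directly below
            have b3 : N.h B₀ ≤ N.p B₀ + N.Q := by linarith
            linarith
          · exact hbot
        have a3 : N.T Y zp ≤ zm + N.Q + η := by
          have := hG.T_rail Y (mem_Lo.mp hY).1 zp (p_le_of_Lo hG hY)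
          linarith
        have hmin : N.T Y zp ≤ N.U zm + 5 * η := by
          linarith
        exact hmin
    linarith
  · -- no crossing
    push Not at hcross
    have hLo : N.Lo zm = N.Lo zp := by
      ext Y
      rw [mem_Lo, mem_Lo]
      constructor
      · rintro ⟨h1, h2⟩; exact ⟨h1, hlowmono Y h2⟩
      · rintro ⟨h1, h2⟩
        refine ⟨h1, ?_⟩
        by_contra hc
        exact hcross Y h1 hc h2
    have hUp : N.Up zm = N.Up zp := by
      ext Y
      rw [mem_Up, mem_Up]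
      constructor
      · rintro ⟨h1, h2⟩
        exact ⟨h1, fun h => hcross Y h1 h2 h⟩
      · rintro ⟨h1, h2⟩
        exact ⟨h1, fun h => h2 (hlowmono Y h)⟩
    have hL : N.L zp ≤ N.L zm + η := by
      apply L_le
      · have := rail_le_L (N := N) zm
        linarith
      · intro Y hY
        have hY' : Y ∈ N.Lo zm := by rw [hLo]; exact hY
        have a1 := R2 Y (mem_Lo.mp hY').1 (mem_Lo.mp hY').2
        have a2 := T_le_L hY'
        linarith
    have hU : N.U zp ≤ N.U zm + η := by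
      have : N.U zp - η ≤ N.U zm := by
        apply le_U
        · have := U_le_rail (N := N) zp
          linarith
        · intro Y hY
          have hY' : Y ∈ N.Up zp := by rw [← hUp]; exact hY
          have a1 := R3 Y (mem_Up.mp hY').1 (mem_Up.mp hY').2
          have a2 := U_le_B hY'
          linarith
      linarith
    have hthird : (N.w zp - N.w zm) * (N.U zm - N.L zm) ≤ η := by
      rcases w_cases hG zm with ⟨h1, h⟩ | ⟨h1, h2, h⟩ | ⟨h1, h2, h⟩
      · rcases w_cases hG zp with ⟨_, h'⟩ | ⟨h1', _, _⟩ | ⟨h1', _, _⟩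
        · rw [h, h']; simpa using hη
        · exact absurd (hUp ▸ h1') h1
        · exact absurd (hUp ▸ h1') h1
      · rcases w_cases hG zp with ⟨h1', _⟩ | ⟨_, _, h'⟩ | ⟨_, h2', _⟩
        · exact absurd (hUp ▸ h1) h1'
        · rw [h, h']; simpa using hη
        · exact absurd (hLo ▸ h2') h2
      · rcases w_cases hG zp with ⟨h1', _⟩ | ⟨_, h2', _⟩ | ⟨h1', h2', h'⟩
        · exact absurd (hUp ▸ h1) h1'
        · exact absurd (hLo ▸ h2) h2'
        · have ea : N.aL zp = N.aL zm := aL_congr hLo.symm h2'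
          have eb : N.aU zp = N.aU zm := aU_congr hUp.symm h1'
          have hgap := aL_lt_aU hG h2 h1
          have hz1 := aL_le hG h2
          have hz2 := le_aU hG h1'
          rw [eb] at hz2
          have hne : N.aU zm - N.aL zm ≠ 0 := by linarith
          have e1 : N.w zp - N.w zm = (zp - zm) / (N.aU zm - N.aL zm) := by
            rw [h, h', ea, eb]
            field_simp
            ring
          have h0 := sub_nonneg.mpr (L_le_U hG zm)
          obtain ⟨⟨A, hA, hA'⟩, -⟩ := aL_spec h2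
          obtain ⟨⟨B', hB, hB'⟩, -⟩ := aU_spec h1
          have hdiff : N.U zm - N.L zm ≤ N.h B' - N.h A := by
            have h3 := U_le_B hB
            have h4 := T_le_L hA
            have h5 := hG.B_le B' (mem_Up.mp hB).1 zm (le_p_of_Up hG hB)
            have h6 := hG.T_ge A (mem_Lo.mp hA).1 zm (p_le_of_Lo hG hA)
            have := hG.hμ
            linarith
          have hrail : N.U zm - N.L zm ≤ 2 * N.Q := by
            have := U_le_rail (N := N) zm
            have := rail_le_L (N := N) zm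
            linarith
          rw [e1]
          by_cases hfar : K₆ * (zp - zm) ≤ N.aU zm - N.aL zm
          · have hgap' : 0 < N.aU zm - N.aL zm := by linarith
            rw [div_mul_eq_mul_div, div_le_iff₀ hgap']
            have s1 : (zp - zm) * (N.U zm - N.L zm) ≤ (zp - zm) * (K₆ * η) :=
              mul_le_mul_of_nonneg_left (hrail.trans R8) hℓ.le
            have s3 : (zp - zm) * (K₆ * η) = η * (K₆ * (zp - zm)) := by ring
            have s4 : η * (K₆ * (zp - zm)) ≤ η * (N.aU zm - N.aL zm) :=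
              mul_le_mul_of_nonneg_left hfar hη
            linarith
          · have hfar' := not_le.mp hfar
            have h7 : N.h B' - N.h A ≤ η := by
              apply R4 A (mem_Lo.mp hA).1 B' (mem_Up.mp hB).1
              · rw [hA']; linarith
              · rw [hB']; linarith
              · rw [hA', hB']; exact hgap.le
              · rw [hA', hB']; exact hfar'.le
            have h8 : (zp - zm) / (N.aU zm - N.aL zm) ≤ 1 := by
              rw [div_le_one (by linarith)]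
              linarith
            calc (zp - zm) / (N.aU zm - N.aL zm) * (N.U zm - N.L zm)
                ≤ 1 * (N.U zm - N.L zm) := mul_le_mul_of_nonneg_right h8 h0
              _ ≤ η := by linarith
    have hw1 := w_nonneg hG zp
    have hw2 := w_le_one hG zp
    have key : N.F zp - N.F zm = (1 - N.w zp) * (N.L zp - N.L zm) + N.w zp * (N.U zp - N.U zm) +
        (N.w zp - N.w zm) * (N.U zm - N.L zm) := by
      unfold F; ring
    rw [key]
    have a1 : (1 - N.w zp) * (N.L zp - N.L zm) ≤ (1 - N.w zp) * η :=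
      mul_le_mul_of_nonneg_left (by linarith) (by linarith)
    have a2 : N.w zp * (N.U zp - N.U zm) ≤ N.w zp * η :=
      mul_le_mul_of_nonneg_left (by linarith) hw1
    nlinarith

end NS

end Crest.Agent.Lib.MAK
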