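import Crest.Agent.Lib.MAK.Defs

/-!
# Slots: envelopes and oscillation of a triangular family
-/

set_option autoImplicit false

noncomputable section

namespace Crest.Agent.Lib.MAK

open Finset

/-- Data of a triangular family. -/
structure Slots where
  v : ℕ → ℝ → (ℕ → ℝ) → ℝ
  Lam : ℕ → ℝ
  Q : ℕ → ℝ

namespace Slots

variable (S : Slots)

/-- speed of the envelopes of slot `j` -/
def C (j : ℕ) : ℝ := 1 + S.Lam j

/-- upper envelope of slot `j` at radius `r` -/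
def Hp (j : ℕ) (c : ℕ → ℝ) (r : ℝ) : ℝ :=
  if r ≤ 1 then S.v j (c j + S.C j * r) c else c j + S.C j * r + S.Q j

/-- lower envelope of slot `j` at radius `r` -/
def Hm (j : ℕ) (c : ℕ → ℝ) (r : ℝ) : ℝ :=
  if r ≤ 1 then S.v j (c j - S.C j * r) c else c j - S.C j * r - S.Q j

/-- oscillation of the first `n` slots. -/
def Osc (n : ℕ) (c : ℕ → ℝ) (r : ℝ) : ℝ := ∑ j ∈ range n, (S.Hp j c r - S.Hm j c r)

/-- value of slot `j`. -/
def V (j : ℕ) (c : ℕ → ℝ) : ℝ := S.v j (c j) c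

/-- Validity of the first `n` slots. -/
structure Good (n : ℕ) : Prop where
  Lam_nonneg : ∀ j < n, 0 ≤ S.Lam j
  Q_nonneg : ∀ j < n, 0 ≤ S.Q j
  cone : ∀ j < n, ∀ (z z' : ℝ) (c c' : ℕ → ℝ), z + S.Lam j * dist1 j c c' ≤ z' →
    S.v j z c ≤ S.v j z' c'
  bound : ∀ j < n, ∀ (z : ℝ) (c : ℕ → ℝ), |S.v j z c - z| ≤ S.Q j

/-- The main separation property with oscillation margin. -/
def PP (n W : ℕ) (A sg kap : ℝ) : Prop :=
  ∀ E : ℕ → ℤ, (∑ j ∈ range n, |E j|) ≤ (W : ℤ) →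
    ∀ (c : ℕ → ℝ) (r : ℝ), 0 ≤ r → kap * r < ∑ j ∈ range n, (E j : ℝ) * c j →
      sg + A * S.Osc n c r ≤ ∑ j ∈ range n, (E j : ℝ) * S.V j c

variable {S} {n : ℕ}

lemma dist1_nonneg (j : ℕ) (c c' : ℕ → ℝ) : 0 ≤ dist1 j c c' :=
  Finset.sum_nonneg fun _ _ => abs_nonneg _

lemma dist1_comm (j : ℕ) (c c' : ℕ → ℝ) : dist1 j c c' = dist1 j c' c := by
  unfold dist1
  exact Finset.sum_congr rfl fun _ _ => abs_sub_comm _ _

lemma dist1_succ (j : ℕ) (c c' : ℕ → ℝ) : dist1 (j + 1) c c' = dist1 j c c' + |c j - c' j| := by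
  unfold dist1
  rw [Finset.sum_range_succ]

lemma dist1_mono {j k : ℕ} (h : j ≤ k) (c c' : ℕ → ℝ) : dist1 j c c' ≤ dist1 k c c' := by
  unfold dist1
  exact Finset.sum_le_sum_of_subset_of_nonneg (Finset.range_mono h) fun _ _ _ => abs_nonneg _

section good

variable (hS : S.Good n)
include hS

lemma C_pos {j : ℕ} (hj : j < n) : 1 ≤ S.C j := by
  have := hS.Lam_nonneg j hj
  unfold C
  linarith

lemma v_mono {j : ℕ} (hj : j < n) {z z' : ℝ} (hz : z ≤ z') (c : ℕ → ℝ) :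
    S.v j z c ≤ S.v j z' c := by
  apply hS.cone j hj
  have : dist1 j c c = 0 := by simp [dist1]
  rw [this]
  linarith

lemma v_le {j : ℕ} (hj : j < n) (z : ℝ) (c : ℕ → ℝ) : S.v j z c ≤ z + S.Q j := by
  have := abs_le.mp (hS.bound j hj z c)
  linarith [this.2]

lemma le_v {j : ℕ} (hj : j < n) (z : ℝ) (c : ℕ → ℝ) : z - S.Q j ≤ S.v j z c := by
  have := abs_le.mp (hS.bound j hj z c)
  linarith [this.1]

lemma Hp_le {j : ℕ} (hj : j < n) (c : ℕ → ℝ) (r : ℝ) : S.Hp j c r ≤ c j + S.C j * r + S.Q j := by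
  unfold Hp
  split_ifs
  · exact v_le hS hj _ _
  · exact le_rfl

lemma le_Hm {j : ℕ} (hj : j < n) (c : ℕ → ℝ) (r : ℝ) : c j - S.C j * r - S.Q j ≤ S.Hm j c r := by
  unfold Hm
  split_ifs
  · exact le_v hS hj _ _
  · exact le_rfl

lemma Hp_mono {j : ℕ} (hj : j < n) (c : ℕ → ℝ) {r r' : ℝ} (hr : r ≤ r') :
    S.Hp j c r ≤ S.Hp j c r' := by
  have hC := C_pos hS hj
  unfold Hp
  split_ifs with h1 h2 h2
  · exact v_mono hS hj (by nlinarith) c
  · have := v_le hS hj (c j + S.C j * r) c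
    have h3 : S.C j * r ≤ S.C j * r' := by nlinarith
    linarith
  · exact absurd (hr.trans h2) h1
  · have h3 : S.C j * r ≤ S.C j * r' := by nlinarith
    linarith

lemma Hm_mono {j : ℕ} (hj : j < n) (c : ℕ → ℝ) {r r' : ℝ} (hr : r ≤ r') :
    S.Hm j c r' ≤ S.Hm j c r := by
  have hC := C_pos hS hj
  unfold Hm
  split_ifs with h1 h2 h2
  · exact v_mono hS hj (by nlinarith) c
  · exact absurd (hr.trans h1) h2
  · have := le_v hS hj (c j - S.C j * r) c
    have h3 : S.C j * r ≤ S.C j * r' := by nlinarith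
    linarith
  · have h3 : S.C j * r ≤ S.C j * r' := by nlinarith
    linarith

lemma Hp_cone {j : ℕ} (hj : j < n) (c c' : ℕ → ℝ) {r r' : ℝ}
    (hr : r + dist1 (j + 1) c c' ≤ r') : S.Hp j c r ≤ S.Hp j c' r' := by
  have hC := C_pos hS hj
  have hd := dist1_succ j c c'
  have hd0 := dist1_nonneg j c c'
  have hd1 := abs_nonneg (c j - c' j)
  have hrr : r ≤ r' := by linarith
  have hCr : S.C j * (r + dist1 (j + 1) c c') ≤ S.C j * r' :=
    mul_le_mul_of_nonneg_left hr (by linarith)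
  have hcj : c j ≤ c' j + |c j - c' j| := by
    have := le_abs_self (c j - c' j)
    linarith
  have hCd : dist1 (j + 1) c c' ≤ S.C j * dist1 (j + 1) c c' := by
    have : 0 ≤ dist1 (j + 1) c c' := dist1_nonneg _ _ _
    nlinarith
  have hLam : S.C j = 1 + S.Lam j := rfl
  have hbase : c j + S.C j * r ≤ c' j + S.C j * r' := by
    nlinarith
  unfold Hp
  split_ifs with h1 h2 h2
  · apply hS.cone j hj
    have h3 : S.Lam j * dist1 j c c' ≤ S.Lam j * dist1 (j + 1) c c' :=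
      mul_le_mul_of_nonneg_left (dist1_mono (Nat.le_succ j) c c') (hS.Lam_nonneg j hj)
    nlinarith
  · have := v_le hS hj (c j + S.C j * r) c
    linarith
  · exact absurd (hrr.trans h2) h1
  · linarith

lemma Hm_cone {j : ℕ} (hj : j < n) (c c' : ℕ → ℝ) {r r' : ℝ}
    (hr : r + dist1 (j + 1) c c' ≤ r') : S.Hm j c' r' ≤ S.Hm j c r := by
  have hC := C_pos hS hj
  have hd := dist1_succ j c c'
  have hd0 := dist1_nonneg j c c'
  have hd1 := abs_nonneg (c j - c' j)
  have hrr : r ≤ r' := by linarith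
  have hCr : S.C j * (r + dist1 (j + 1) c c') ≤ S.C j * r' :=
    mul_le_mul_of_nonneg_left hr (by linarith)
  have hcj : c' j ≤ c j + |c j - c' j| := by
    have := neg_abs_le (c j - c' j)
    linarith
  have hCd : dist1 (j + 1) c c' ≤ S.C j * dist1 (j + 1) c c' := by
    have : 0 ≤ dist1 (j + 1) c c' := dist1_nonneg _ _ _
    nlinarith
  have hLam : S.C j = 1 + S.Lam j := rfl
  have hbase : c' j - S.C j * r' ≤ c j - S.C j * r := by
    nlinarith
  unfold Hm
  split_ifs with h1 h2 h2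
  · apply hS.cone j hj
    have h3 : S.Lam j * dist1 j c' c ≤ S.Lam j * dist1 (j + 1) c c' := by
      rw [dist1_comm j c' c]
      exact mul_le_mul_of_nonneg_left (dist1_mono (Nat.le_succ j) c c') (hS.Lam_nonneg j hj)
    nlinarith
  · exact absurd (hrr.trans h1) h2
  · have := le_v hS hj (c j - S.C j * r) c
    linarith
  · linarith

omit hS in
lemma Hp_zero (j : ℕ) (c : ℕ → ℝ) : S.Hp j c 0 = S.V j c := by
  simp [Hp, V]

omit hS in
lemma Hm_zero (j : ℕ) (c : ℕ → ℝ) : S.Hm j c 0 = S.V j c := by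
  simp [Hm, V]

lemma V_le_Hp {j : ℕ} (hj : j < n) (c : ℕ → ℝ) {r : ℝ} (hr : 0 ≤ r) : S.V j c ≤ S.Hp j c r := by
  rw [← Hp_zero]
  exact Hp_mono hS hj c hr

lemma Hm_le_V {j : ℕ} (hj : j < n) (c : ℕ → ℝ) {r : ℝ} (hr : 0 ≤ r) : S.Hm j c r ≤ S.V j c := by
  rw [← Hm_zero]
  exact Hm_mono hS hj c hr

lemma Hm_le_Hp {j : ℕ} (hj : j < n) (c : ℕ → ℝ) {r : ℝ} (hr : 0 ≤ r) : S.Hm j c r ≤ S.Hp j c r :=
  (Hm_le_V hS hj c hr).trans (V_le_Hp hS hj c hr)

lemma Osc_nonneg (c : ℕ → ℝ) {r : ℝ} (hr : 0 ≤ r) : 0 ≤ S.Osc n c r :=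
  Finset.sum_nonneg fun j hj => sub_nonneg.mpr (Hm_le_Hp hS (Finset.mem_range.mp hj) c hr)

lemma Osc_mono (c : ℕ → ℝ) {r r' : ℝ} (hr : r ≤ r') : S.Osc n c r ≤ S.Osc n c r' := by
  apply Finset.sum_le_sum
  intro j hj
  have hj' := Finset.mem_range.mp hj
  have h1 := Hp_mono hS hj' c hr
  have h2 := Hm_mono hS hj' c hr
  linarith

lemma Osc_cone (c c' : ℕ → ℝ) {r r' : ℝ} (hr : r + dist1 n c c' ≤ r') :
    S.Osc n c r ≤ S.Osc n c' r' := by
  apply Finset.sum_le_sum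
  intro j hj
  have hj' := Finset.mem_range.mp hj
  have hd : r + dist1 (j + 1) c c' ≤ r' := by
    have := dist1_mono (Nat.succ_le_of_lt hj') c c'
    linarith
  have h1 := Hp_cone hS hj' c c' hd
  have h2 := Hm_cone hS hj' c c' hd
  linarith

omit hS in
lemma Osc_zero (c : ℕ → ℝ) : S.Osc n c 0 = 0 := by
  unfold Osc
  apply Finset.sum_eq_zero
  intro j _
  rw [Hp_zero, Hm_zero, sub_self]

/-- sum of speeds -/
abbrev Cbar (S : Slots) (n : ℕ) : ℝ := ∑ j ∈ range n, S.C j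
/-- sum of bounds -/
abbrev Qbar (S : Slots) (n : ℕ) : ℝ := ∑ j ∈ range n, S.Q j

lemma Cbar_nonneg : 0 ≤ S.Cbar n :=
  Finset.sum_nonneg fun j hj => by
    have := C_pos hS (Finset.mem_range.mp hj)
    linarith

lemma Qbar_nonneg : 0 ≤ S.Qbar n :=
  Finset.sum_nonneg fun j hj => hS.Q_nonneg j (Finset.mem_range.mp hj)

lemma Osc_le (c : ℕ → ℝ) (r : ℝ) : S.Osc n c r ≤ 2 * S.Cbar n * r + 2 * S.Qbar n := by
  have : 2 * S.Cbar n * r + 2 * S.Qbar n = ∑ j ∈ range n, (2 * S.C j * r + 2 * S.Q j) := by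
    simp only [Cbar, Qbar, Finset.sum_add_distrib, Finset.mul_sum, Finset.sum_mul]
  rw [this]
  apply Finset.sum_le_sum
  intro j hj
  have hj' := Finset.mem_range.mp hj
  have h1 := Hp_le hS hj' c r
  have h2 := le_Hm hS hj' c r
  linarith

end good

/-- the "bounded variation" part of `Hp`. -/
def hatP (S : Slots) (j : ℕ) (c : ℕ → ℝ) (r : ℝ) : ℝ := S.Hp j c r - S.C j * max (r - 1) 0
/-- the "bounded variation" part of `Hm`. -/
def hatM (S : Slots) (j : ℕ) (c : ℕ → ℝ) (r : ℝ) : ℝ := S.Hm j c r + S.C j * max (r - 1) 0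

section good2

variable (hS : S.Good n)
include hS

lemma hatP_mono {j : ℕ} (hj : j < n) (c : ℕ → ℝ) {r r' : ℝ} (hr : r ≤ r') :
    S.hatP j c r ≤ S.hatP j c r' := by
  have hC := C_pos hS hj
  unfold hatP Hp
  split_ifs with h1 h2 h2
  · have a1 : max (r - 1) 0 = 0 := max_eq_right (by linarith)
    have a2 : max (r' - 1) 0 = 0 := max_eq_right (by linarith)
    rw [a1, a2]
    have := v_mono hS hj (show c j + S.C j * r ≤ c j + S.C j * r' by nlinarith) c
    linarith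
  · have a1 : max (r - 1) 0 = 0 := max_eq_right (by linarith)
    have a2 : max (r' - 1) 0 = r' - 1 := max_eq_left (by linarith [not_le.mp h2])
    rw [a1, a2]
    have := v_le hS hj (c j + S.C j * r) c
    have h3 : S.C j * r ≤ S.C j * 1 := mul_le_mul_of_nonneg_left h1 (by linarith)
    nlinarith
  · exact absurd (hr.trans h2) h1
  · have a1 : max (r - 1) 0 = r - 1 := max_eq_left (by linarith [not_le.mp h1])
    have a2 : max (r' - 1) 0 = r' - 1 := max_eq_left (by linarith [not_le.mp h2])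
    rw [a1, a2]
    nlinarith

lemma hatM_mono {j : ℕ} (hj : j < n) (c : ℕ → ℝ) {r r' : ℝ} (hr : r ≤ r') :
    S.hatM j c r' ≤ S.hatM j c r := by
  have hC := C_pos hS hj
  unfold hatM Hm
  split_ifs with h1 h2 h2
  · have a1 : max (r - 1) 0 = 0 := max_eq_right (by linarith)
    have a2 : max (r' - 1) 0 = 0 := max_eq_right (by linarith)
    rw [a1, a2]
    have := v_mono hS hj (show c j - S.C j * r' ≤ c j - S.C j * r by nlinarith) c
    linarith
  · exact absurd (hr.trans h1) h2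
  · have a1 : max (r - 1) 0 = 0 := max_eq_right (by linarith)
    have a2 : max (r' - 1) 0 = r' - 1 := max_eq_left (by linarith [not_le.mp h1])
    rw [a1, a2]
    have := le_v hS hj (c j - S.C j * r) c
    have h3 : S.C j * r ≤ S.C j * 1 := mul_le_mul_of_nonneg_left h2 (by linarith)
    nlinarith
  · have a1 : max (r - 1) 0 = r - 1 := max_eq_left (by linarith [not_le.mp h2])
    have a2 : max (r' - 1) 0 = r' - 1 := max_eq_left (by linarith [not_le.mp h1])
    rw [a1, a2]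
    nlinarith

lemma hatP_var {j : ℕ} (hj : j < n) (c : ℕ → ℝ) {r : ℝ} (hr : 0 ≤ r) :
    S.hatP j c r - S.hatP j c 0 ≤ S.C j + 2 * S.Q j := by
  have hC := C_pos hS hj
  have e0 : S.hatP j c 0 = S.V j c := by
    unfold hatP
    rw [Hp_zero]
    simp
  rw [e0]
  have h1 := le_v hS hj (c j) c
  unfold hatP Hp
  split_ifs with h
  · have a1 : max (r - 1) 0 = 0 := max_eq_right (by linarith)
    rw [a1]
    have := v_le hS hj (c j + S.C j * r) c
    have h3 : S.C j * r ≤ S.C j * 1 := mul_le_mul_of_nonneg_left h (by linarith)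
    have h4 : S.V j c = S.v j (c j) c := rfl
    nlinarith
  · have a2 : max (r - 1) 0 = r - 1 := max_eq_left (by linarith [not_le.mp h])
    rw [a2]
    have h4 : S.V j c = S.v j (c j) c := rfl
    nlinarith

lemma hatM_var {j : ℕ} (hj : j < n) (c : ℕ → ℝ) {r : ℝ} (hr : 0 ≤ r) :
    S.hatM j c 0 - S.hatM j c r ≤ S.C j + 2 * S.Q j := by
  have hC := C_pos hS hj
  have e0 : S.hatM j c 0 = S.V j c := by
    unfold hatM
    rw [Hm_zero]
    simp
  rw [e0]
  have h1 := v_le hS hj (c j) c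
  unfold hatM Hm
  split_ifs with h
  · have a1 : max (r - 1) 0 = 0 := max_eq_right (by linarith)
    rw [a1]
    have := le_v hS hj (c j - S.C j * r) c
    have h3 : S.C j * r ≤ S.C j * 1 := mul_le_mul_of_nonneg_left h (by linarith)
    have h4 : S.V j c = S.v j (c j) c := rfl
    nlinarith
  · have a2 : max (r - 1) 0 = r - 1 := max_eq_left (by linarith [not_le.mp h])
    rw [a2]
    have h4 : S.V j c = S.v j (c j) c := rfl
    nlinarith

end good2

end Slots

end Crest.Agent.Lib.MAK
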