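import Crest.Agent.Lib.MAK.NodeCert

/-!
# One step of the triangular recursion
-/

set_option autoImplicit false

noncomputable section

namespace Crest.Agent.Lib.MAK

open Finset

namespace Slots

/-- The numerical context of one step of the recursion. -/
structure Ctx (S : Slots) (n W' : ℕ) (A' sg' kap q a Wr kp : ℝ) (K : ℕ) (μ Qn : ℝ) (M : ℤ)
    (m' : ℕ) (ε K₆ K₁ : ℝ) : Prop where
  hS : S.Good n
  hPP : S.PP n W' A' sg' kap
  hq : 1 ≤ q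
  hWr : 1 ≤ Wr
  haW : Wr ≤ a
  hkp : 0 < kp
  hK : 0 < K
  hμ : 0 < μ
  hM0 : 0 ≤ M
  hMW : (2 + 2 * (m' : ℤ)) * M ≤ W'
  hMq : (M : ℝ) ≤ q * Wr
  hk1 : 2 * kap < q * kp
  hsg : 2 * μ * q ≤ sg'
  hA : 2 * (a + Wr) * q ≤ A'
  hkk : 4 * ((Wr + 2 * a) * S.Cbar n) ≤ kp
  hQ : Wr * S.Qbar n + 2 * (a + Wr) * S.Qbar n + μ ≤ Qn
  hε0 : 0 < ε
  hε1 : ε ≤ 1
  hVe : (Wr + 2 * a) * S.Vbar n / K ≤ ε * μ / 2
  hK₆ : 1 ≤ K₆
  hQ6 : 2 * Qn ≤ K₆ * (ε * μ)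
  hm16 : 16 ≤ m'
  hm14 : 14 ≤ ε * m'
  hA8 : 8 ≤ A' / (q * (a + Wr))
  hA14 : 14 ≤ ε * (A' / (q * (a + Wr)))
  hsg2 : 14 * μ ≤ ε * (sg' / q)
  hK₁a : 1 + 2 * Qn / μ ≤ ε * K₁
  hK₁b : (2 * (K : ℝ) + 1) * (1 + 2 * Qn / μ) ≤ K₁
  hK₁c : ((m' : ℝ) + 1) * K₆ < K₁
  hK₁d : (2 * (K : ℝ) + 1) * (2 * (K : ℝ) + 1) < K₁

variable {S : Slots} {n W' : ℕ} {A' sg' kap q a Wr kp : ℝ} {K : ℕ} {μ Qn : ℝ} {M : ℤ} {m' : ℕ}
  {ε K₆ K₁ : ℝ}

namespace Ctx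

variable (C : Ctx S n W' A' sg' kap q a Wr kp K μ Qn M m' ε K₆ K₁)
include C

lemma q_pos : 0 < q := by linarith [C.hq]
lemma Wr_nonneg : 0 ≤ Wr := by linarith [C.hWr]
lemma a_pos : 0 < a := by linarith [C.hWr, C.haW]
lemma b_pos : 0 < a + Wr := by linarith [C.hWr, C.haW]
lemma sg'_pos : 0 < sg' := by
  have := mul_pos (mul_pos (by norm_num : (0 : ℝ) < 2) C.hμ) C.q_pos
  linarith [C.hsg]
lemma A'_pos : 0 < A' := by
  have := mul_pos (mul_pos (by norm_num : (0 : ℝ) < 2) C.b_pos) C.q_pos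
  linarith [C.hA]
lemma M2 : 2 * M ≤ W' := by
  have h1 : (0 : ℤ) ≤ 2 * (m' : ℤ) * M := mul_nonneg (by positivity) C.hM0
  nlinarith [C.hMW]
lemma K_pos : (1 : ℝ) ≤ K := by exact_mod_cast C.hK

lemma good (c : ℕ → ℝ) : (S.nsAt n q a kp K μ Qn (nodes n M) c).Good μ := by
  refine nsAt_good C.hS C.q_pos C.Wr_nonneg C.haW C.hkp C.hK C.hμ.le
    (fun Y hY => nodeOK_of_mem C.hMq hY) (fun Y hY => nodes_neg hY) ⟨0, nodes_zero C.hM0⟩
    C.hkk C.hQ c ?_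
  intro Y hY Y' hY' z h1 h2 h3
  exact compat_of_PP C.hS C.q_pos C.a_pos.le C.Wr_nonneg C.hkp C.hK C.hPP C.M2 C.hMq C.hk1
    C.hsg C.hA hY hY' c h1 h2 h3

lemma cert (c : ℕ → ℝ) : (S.nsAt n q a kp K μ Qn (nodes n M) c).Cert μ
      (fun y => (a + Wr) * S.Osc n c (2 * (y / kp)))
      ((Wr + 2 * a) * S.Vbar n / K) (K : ℝ) m' (sg' / q) (A' / (q * (a + Wr))) :=
  nsAt_cert C.hS C.q_pos C.Wr_nonneg C.haW C.hkp C.hK C.hPP C.hM0 C.hMW C.hMq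
    (by linarith [C.hk1]) C.sg'_pos.le C.A'_pos.le C.b_pos C.hkk c

lemma Vbar_nonneg : 0 ≤ S.Vbar n := by
  apply Finset.sum_nonneg
  intro j hj
  have hj' := Finset.mem_range.mp hj
  have := C_pos C.hS hj'
  have := C.hS.Q_nonneg j hj'
  linarith

lemma V'_nonneg : 0 ≤ (Wr + 2 * a) * S.Vbar n / K := by
  have h1 := C.Vbar_nonneg
  have h2 := C.a_pos
  have h3 := C.Wr_nonneg
  positivity

/-- Rise at an anchor node on the left. -/
lemma rise_left (c : ℕ → ℝ) {Y : ℕ → ℤ} (hY : Y ∈ nodes n M) {zm zp : ℝ} (hz : zm < zp)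
    (hD : K₁ * (zp - zm) ≤ zm - pos n q Y c) :
    (S.nsAt n q a kp K μ Qn (nodes n M) c).F zp - (S.nsAt n q a kp K μ Qn (nodes n M) c).F zm ≤
      7 * (ε * ((S.nsAt n q a kp K μ Qn (nodes n M) c).F zm - S.ht n q Y c)) :=
  NS.anchor (C.good c) (C.cert c) C.hε0 C.hε1 C.hμ C.K_pos C.V'_nonneg C.hVe C.hK₆ C.hQ6 C.hm16
    C.hm14 C.hA8 C.hA14 C.hsg2 C.hK₁a C.hK₁b C.hK₁c C.hK₁d hY hz hD

/-- Rise at an anchor node on the right. -/
lemma rise_right (c : ℕ → ℝ) {Y : ℕ → ℤ} (hY : Y ∈ nodes n M) {zm zp : ℝ} (hz : zm < zp)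
    (hD : K₁ * (zp - zm) ≤ pos n q Y c - zp) :
    (S.nsAt n q a kp K μ Qn (nodes n M) c).F zp - (S.nsAt n q a kp K μ Qn (nodes n M) c).F zm ≤
      7 * (ε * (S.ht n q Y c - (S.nsAt n q a kp K μ Qn (nodes n M) c).F zp)) :=
  NS.anchor_mirror (C.good c) (C.cert c) C.hε0 C.hε1 C.hμ C.K_pos C.V'_nonneg C.hVe C.hK₆ C.hQ6
    C.hm16 C.hm14 C.hA8 C.hA14 C.hsg2 C.hK₁a C.hK₁b C.hK₁c C.hK₁d hY hz hD

/-- value at a point right of a node -/
lemma F_ge_left (c : ℕ → ℝ) {Y : ℕ → ℤ} (hY : Y ∈ nodes n M) {z : ℝ} (hz : pos n q Y c ≤ z) :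
    S.ht n q Y c + a * S.Osc n c ((z - pos n q Y c) / kp) + μ ≤
      (S.nsAt n q a kp K μ Qn (nodes n M) c).F z := by
  have h1 := Top_ge (μ := μ) C.hS C.q_pos C.a_pos.le C.hkp C.hK (K := K) Y c hz
  have hm : Y ∈ (S.nsAt n q a kp K μ Qn (nodes n M) c).Lo z :=
    NS.mem_Lo.mpr ⟨hY, hz⟩
  have h2 := NS.T_le_L hm
  have h3 := NS.L_le_F (C.good c) z
  have h4 : (S.nsAt n q a kp K μ Qn (nodes n M) c).T Y z = S.Top n q a kp K μ Y c z := rfl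
  linarith

/-- value at a point left of a node -/
lemma F_le_right (c : ℕ → ℝ) {Y : ℕ → ℤ} (hY : Y ∈ nodes n M) {z : ℝ} (hz : z < pos n q Y c) :
    (S.nsAt n q a kp K μ Qn (nodes n M) c).F z ≤
      S.ht n q Y c - a * S.Osc n c ((pos n q Y c - z) / kp) - μ := by
  have hp : pos n q (-Y) c ≤ -z := by rw [pos_neg]; linarith
  have h1 := Top_ge (μ := μ) C.hS C.q_pos C.a_pos.le C.hkp C.hK (K := K) (-Y) c hp
  rw [ht_neg, pos_neg] at h1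
  have e : -z - - pos n q Y c = pos n q Y c - z := by ring
  rw [e] at h1
  have hm : Y ∈ (S.nsAt n q a kp K μ Qn (nodes n M) c).Up z :=
    NS.mem_Up.mpr ⟨hY, not_le.mpr hz⟩
  have h2 := NS.U_le_B hm
  have h3 := NS.F_le_U (C.good c) z
  have h4 : (S.nsAt n q a kp K μ Qn (nodes n M) c).B Y z = - S.Top n q a kp K μ (-Y) c (-z) := rfl
  linarith

/-- near pairs of nodes have close heights, seen from a margin form `E`. -/
lemma near_pair (c : ℕ → ℝ) {E : ℕ → ℤ} (hEW : (∑ j ∈ range n, |E j|) + 2 * (m' : ℤ) * M ≤ W')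
    {Y₁ Y₂ : ℕ → ℤ} (hY₁ : Y₁ ∈ nodes n M) (hY₂ : Y₂ ∈ nodes n M) {d : ℝ}
    (h4 : pos n q Y₂ c - pos n q Y₁ c ≤ d)
    (hT0 : (m' : ℝ) * q * d < ∑ j ∈ range n, (E j : ℝ) * c j)
    (hJnn : 0 ≤ ∑ j ∈ range n, (E j : ℝ) * S.V j c) :
    S.ht n q Y₂ c - S.ht n q Y₁ c ≤ ε * ∑ j ∈ range n, (E j : ℝ) * S.V j c := by
  have hq0 := C.q_pos
  have hε0 := C.hε0
  have hsg' := C.sg'_pos
  have hm0 : (0 : ℝ) ≤ (m' : ℝ) := by positivity
  have hmq : 0 ≤ (m' : ℝ) * q := by positivity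
  have hT : (∑ j ∈ range n, |(fun j => E j - (m' : ℤ) * (Y₂ j - Y₁ j)) j|) ≤ (W' : ℤ) := by
    have h1 : ∑ j ∈ range n, |E j - (m' : ℤ) * (Y₂ j - Y₁ j)| ≤
        ∑ j ∈ range n, (|E j| + (m' : ℤ) * (|Y₂ j| + |Y₁ j|)) := by
      apply Finset.sum_le_sum
      intro j _
      have b1 := abs_sub (E j) ((m' : ℤ) * (Y₂ j - Y₁ j))
      rw [abs_mul, Nat.abs_cast] at b1
      have b2 := abs_sub (Y₂ j) (Y₁ j)
      have b3 := mul_le_mul_of_nonneg_left b2 (show (0 : ℤ) ≤ (m' : ℤ) by positivity)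
      linarith
    rw [Finset.sum_add_distrib, ← Finset.mul_sum, Finset.sum_add_distrib] at h1
    have h2 := (mem_nodes.mp hY₁).2
    have h5 := (mem_nodes.mp hY₂).2
    have b3 : (m' : ℤ) * (∑ j ∈ range n, |Y₂ j| + ∑ j ∈ range n, |Y₁ j|) ≤ (m' : ℤ) * (2 * M) :=
      mul_le_mul_of_nonneg_left (by linarith) (by positivity)
    show ∑ j ∈ range n, |E j - (m' : ℤ) * (Y₂ j - Y₁ j)| ≤ (W' : ℤ)
    linarith only [h1, b3, hEW]
  have gen : ∀ f : ℕ → ℝ,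
      ∑ j ∈ range n, (((fun j => E j - (m' : ℤ) * (Y₂ j - Y₁ j)) j : ℤ) : ℝ) * f j =
      ∑ j ∈ range n, (E j : ℝ) * f j - (m' : ℝ) * q *
        ((∑ j ∈ range n, (Y₂ j : ℝ) * f j) / q - (∑ j ∈ range n, (Y₁ j : ℝ) * f j) / q) := by
    intro f
    have e : (m' : ℝ) * q *
        ((∑ j ∈ range n, (Y₂ j : ℝ) * f j) / q - (∑ j ∈ range n, (Y₁ j : ℝ) * f j) / q) =
        (m' : ℝ) * (∑ j ∈ range n, (Y₂ j : ℝ) * f j - ∑ j ∈ range n, (Y₁ j : ℝ) * f j) := by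
      field_simp
    rw [e, ← Finset.sum_sub_distrib, Finset.mul_sum, ← Finset.sum_sub_distrib]
    apply Finset.sum_congr rfl
    intro j _
    push_cast
    ring
  have hTc : kap * 0 < ∑ j ∈ range n,
      (((fun j => E j - (m' : ℤ) * (Y₂ j - Y₁ j)) j : ℤ) : ℝ) * c j := by
    rw [gen c, mul_zero]
    have b1 : (m' : ℝ) * q * (pos n q Y₂ c - pos n q Y₁ c) ≤ (m' : ℝ) * q * d :=
      mul_le_mul_of_nonneg_left h4 hmq
    unfold pos at b1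
    linarith only [b1, hT0]
  have hT2 := C.hPP _ hT c 0 le_rfl hTc
  rw [Osc_zero] at hT2
  simp only [mul_zero, add_zero] at hT2
  have hT3 := gen (fun j => S.V j c)
  change ∑ j ∈ range n, (((fun j => E j - (m' : ℤ) * (Y₂ j - Y₁ j)) j : ℤ) : ℝ) * S.V j c = _ at hT3
  rw [hT3] at hT2
  obtain ⟨J, hJ⟩ : ∃ J, J = ∑ j ∈ range n, (E j : ℝ) * S.V j c := ⟨_, rfl⟩
  rw [← hJ] at hT2 ⊢
  have hT4 : (m' : ℝ) * q * (S.ht n q Y₂ c - S.ht n q Y₁ c) ≤ J := by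
    unfold ht
    linarith only [hT2, hsg']
  by_cases hneg : S.ht n q Y₂ c - S.ht n q Y₁ c ≤ 0
  · have hJ0 : 0 ≤ J := by rw [hJ]; exact hJnn
    have := mul_nonneg hε0.le hJ0
    linarith only [this, hneg]
  have hpos := not_le.mp hneg
  have b1 : (1 : ℝ) ≤ ε * (m' : ℝ) := by linarith only [C.hm14]
  have b2 : (1 : ℝ) ≤ ε * ((m' : ℝ) * q) := by
    have : ε * (m' : ℝ) * 1 ≤ ε * (m' : ℝ) * q :=
      mul_le_mul_of_nonneg_left C.hq (by positivity)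
    linarith only [this, b1]
  have b3 := mul_le_mul_of_nonneg_right b2 hpos.le
  have b4 := mul_le_mul_of_nonneg_left hT4 hε0.le
  linarith only [b3, b4]

/-- The case of an interior margin: a linear form `E` on the upper slots with a large value. -/
lemma rise_margin (c : ℕ → ℝ) {E : ℕ → ℤ} {W'' : ℤ} (hE : ∑ j ∈ range n, |E j| ≤ W'')
    (hWW : W'' + 2 * (m' : ℤ) * M ≤ W') {x Cn ρ kap' : ℝ} (hCn : 0 < Cn) (hρ : 0 < ρ)
    (hlt : kap' * ρ < ∑ j ∈ range n, (E j : ℝ) * c j)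
    (hkk : kap ≤ kap')
    (hk3 : 2 * Cn * (1 + (W'' : ℝ) * S.Qbar n / sg') / ε ≤ kap')
    (hk4 : (m' : ℝ) * q * K₆ * (2 * Cn) ≤ kap')
    (hk5 : kap * (2 * ((2 * (K : ℝ) + 1) * (2 * Cn) / kp)) ≤ kap')
    (hW0 : 0 ≤ W'') :
    (S.nsAt n q a kp K μ Qn (nodes n M) c).F (x + Cn * ρ) -
      (S.nsAt n q a kp K μ Qn (nodes n M) c).F (x - Cn * ρ) ≤
      7 * (ε * ∑ j ∈ range n, (E j : ℝ) * S.V j c) := by
  obtain ⟨J, hJ⟩ : ∃ J, J = ∑ j ∈ range n, (E j : ℝ) * S.V j c := ⟨_, rfl⟩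
  rw [← hJ]
  have hsg' := C.sg'_pos
  have hε0 := C.hε0
  have hEW : (∑ j ∈ range n, |E j|) + 2 * (m' : ℤ) * M ≤ W' := by linarith
  have hE' : ∑ j ∈ range n, |E j| ≤ (W' : ℤ) := by
    have : (0 : ℤ) ≤ 2 * (m' : ℤ) * M := mul_nonneg (by positivity) C.hM0
    linarith
  have hPPr : ∀ r, 0 ≤ r → kap * r < ∑ j ∈ range n, (E j : ℝ) * c j →
      sg' + A' * S.Osc n c r ≤ J := by
    intro r hr h
    rw [hJ]
    exact C.hPP E hE' c r hr h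
  have hρ0 : kap * ρ < ∑ j ∈ range n, (E j : ℝ) * c j := by
    have : kap * ρ ≤ kap' * ρ := mul_le_mul_of_nonneg_right hkk hρ.le
    linarith
  have hJ0 : sg' ≤ J := by
    have h := hPPr ρ hρ.le hρ0
    have h2 := mul_nonneg C.A'_pos.le (Osc_nonneg C.hS c hρ.le)
    linarith
  have hJpos : 0 < J := by linarith
  -- the relation between E·c and J
  have hcJ : ∑ j ∈ range n, (E j : ℝ) * c j ≤ J + (W'' : ℝ) * S.Qbar n := by
    rw [hJ, ← sub_le_iff_le_add', ← Finset.sum_sub_distrib]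
    have e : (W'' : ℝ) * S.Qbar n = ∑ j ∈ range n, (W'' : ℝ) * S.Q j := by
      unfold Qbar
      rw [Finset.mul_sum]
    rw [e]
    apply Finset.sum_le_sum
    intro j hj
    have hj' := Finset.mem_range.mp hj
    have a1 : |E j| ≤ W'' := (Finset.single_le_sum (f := fun j => |E j|)
      (fun _ _ => abs_nonneg _) (Finset.mem_range.mpr hj')).trans hE
    have a2 : |(E j : ℝ)| ≤ (W'' : ℝ) := by exact_mod_cast a1
    have a3 := C.hS.bound j hj' (c j) c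
    have a4 : (E j : ℝ) * c j - (E j : ℝ) * S.V j c ≤ |(E j : ℝ)| * |S.v j (c j) c - c j| := by
      have e1 : (E j : ℝ) * c j - (E j : ℝ) * S.V j c = (E j : ℝ) * (c j - S.v j (c j) c) := by
        unfold V; ring
      rw [e1, abs_sub_comm (S.v j (c j) c), ← abs_mul]
      exact le_abs_self _
    have a5 := mul_le_mul a2 a3 (abs_nonneg _) (by exact_mod_cast hW0)
    linarith
  have hQ0 := Qbar_nonneg C.hS
  have hWQ : (W'' : ℝ) * S.Qbar n ≤ (W'' : ℝ) * S.Qbar n / sg' * J := by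
    have : (W'' : ℝ) * S.Qbar n = (W'' : ℝ) * S.Qbar n / sg' * sg' := by field_simp
    calc (W'' : ℝ) * S.Qbar n = (W'' : ℝ) * S.Qbar n / sg' * sg' := this
      _ ≤ (W'' : ℝ) * S.Qbar n / sg' * J := by
        apply mul_le_mul_of_nonneg_left hJ0
        have : (0 : ℝ) ≤ (W'' : ℝ) := by exact_mod_cast hW0
        positivity
  have hℓ : 2 * Cn * ρ ≤ ε * J := by
    have a1 : 2 * Cn * (1 + (W'' : ℝ) * S.Qbar n / sg') ≤ kap' * ε := by
      rwa [div_le_iff₀ hε0] at hk3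
    obtain ⟨g, hg⟩ : ∃ g, g = 1 + (W'' : ℝ) * S.Qbar n / sg' := ⟨_, rfl⟩
    rw [← hg] at a1
    have a2 : kap' * ρ ≤ J * g := by
      rw [hg]
      linarith only [hlt, hcJ, hWQ]
    have hg0 : 0 < g := by
      have h0 : (0 : ℝ) ≤ (W'' : ℝ) := by exact_mod_cast hW0
      have : 0 ≤ (W'' : ℝ) * S.Qbar n / sg' := by positivity
      rw [hg]
      linarith only [this]
    have s1 := mul_le_mul_of_nonneg_right a1 hρ.le
    have s2 := mul_le_mul_of_nonneg_left a2 hε0.le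
    have s3 : g * (2 * Cn * ρ) ≤ g * (ε * J) := by linarith only [s1, s2]
    exact le_of_mul_le_mul_left s3 hg0
  have hz : x - Cn * ρ < x + Cn * ρ := by
    have := mul_pos hCn hρ
    linarith
  have hdiff : (x + Cn * ρ) - (x - Cn * ρ) = 2 * Cn * ρ := by ring
  have hμJ : μ ≤ J := by
    have a1 : 2 * μ * 1 ≤ 2 * μ * q := by
      apply mul_le_mul_of_nonneg_left C.hq
      linarith [C.hμ]
    linarith [C.hsg, C.hμ]
  have hεμ : ε * μ ≤ ε * J := mul_le_mul_of_nonneg_left hμJ hε0.le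
  refine NS.rise_near (C.good c) (C.cert c) C.K_pos hz (mul_nonneg hε0.le hJpos.le) C.hK₆
    (by rw [hdiff]; exact hℓ) (by linarith [C.hVe]) ?_ ?_ ?_ ?_
  · intro _ _ _ _
    rw [hdiff]
    -- the radius
    obtain ⟨r, hr⟩ : ∃ r, r = 2 * ((2 * (K : ℝ) + 1) * (2 * Cn * ρ) / kp) := ⟨_, rfl⟩
    have hK0 : (0 : ℝ) < K := by linarith [C.K_pos]
    have hkp := C.hkp
    have hr0 : 0 ≤ r := by rw [hr]; positivity
    have hlt2 : kap * r < ∑ j ∈ range n, (E j : ℝ) * c j := by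
      have e : kap * r = kap * (2 * ((2 * (K : ℝ) + 1) * (2 * Cn) / kp)) * ρ := by
        rw [hr]; ring
      rw [e]
      have := mul_le_mul_of_nonneg_right hk5 hρ.le
      linarith
    have h1 := hPPr r hr0 hlt2
    have hOsc := Osc_nonneg C.hS c hr0
    have h2 : (a + Wr) ≤ ε * A' := by
      have a1 := C.hA14
      rw [← mul_div_assoc, le_div_iff₀ (mul_pos C.q_pos C.b_pos)] at a1
      have a2 : (a + Wr) * 1 ≤ (a + Wr) * q := mul_le_mul_of_nonneg_left C.hq C.b_pos.le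
      nlinarith [C.b_pos]
    have h3 : (a + Wr) * S.Osc n c r ≤ ε * (A' * S.Osc n c r) := by
      have := mul_le_mul_of_nonneg_right h2 hOsc
      linarith [mul_assoc ε A' (S.Osc n c r)]
    have h4 : ε * (A' * S.Osc n c r) ≤ ε * J :=
      mul_le_mul_of_nonneg_left (by linarith) hε0.le
    show (a + Wr) * S.Osc n c (2 * ((2 * (K : ℝ) + 1) * (2 * Cn * ρ) / kp)) ≤ ε * J
    rw [← hr]
    linarith
  · intro Y₁ hY₁ Y₂ hY₂ _ _ h3 h4
    rw [hdiff] at h4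
    have h3' : pos n q Y₁ c ≤ pos n q Y₂ c := h3
    have h4' : pos n q Y₂ c - pos n q Y₁ c ≤ K₆ * (2 * Cn * ρ) := h4
    have b2 := mul_le_mul_of_nonneg_right hk4 hρ.le
    have hnear := C.near_pair c hEW hY₁ hY₂ h4' (by linarith only [b2, hlt]) (by rw [← hJ]; exact hJpos.le)
    rw [← hJ] at hnear
    exact hnear
  · intro _
    have a1 : sg' / q ≤ sg' := by
      rw [div_le_iff₀ C.q_pos]
      nlinarith [C.hq]
    have a2 : ε * (sg' / q) ≤ ε * J :=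
      mul_le_mul_of_nonneg_left (a1.trans hJ0) hε0.le
    have a3 := C.hsg2
    have a4 := C.hμ
    linarith
  · have a1 : K₆ * (ε * μ) ≤ K₆ * (ε * J) :=
      mul_le_mul_of_nonneg_left hεμ (by linarith [C.hK₆])
    have a2 := C.hQ6
    show 2 * Qn ≤ K₆ * (ε * J)
    linarith

end Ctx

end Slots

end Crest.Agent.Lib.MAK
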