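import Crest.Agent.Lib.MAK.Step

/-!
# The new slot and the separation property at the next level
-/

set_option autoImplicit false

noncomputable section

namespace Crest.Agent.Lib.MAK

open Finset

namespace Slots

/-- Adding a slot. -/
def ext (S : Slots) (n : ℕ) (f : ℝ → (ℕ → ℝ) → ℝ) (L Q₀ : ℝ) : Slots where
  v := fun j => if j = n then f else S.v j
  Lam := fun j => if j = n then L else S.Lam j
  Q := fun j => if j = n then Q₀ else S.Q j

section ext

variable {S : Slots} {n : ℕ} {f : ℝ → (ℕ → ℝ) → ℝ} {L Q₀ : ℝ}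

lemma ext_v {j : ℕ} (hj : j < n) : (S.ext n f L Q₀).v j = S.v j := by
  simp [ext, hj.ne]

lemma ext_C {j : ℕ} (hj : j < n) : (S.ext n f L Q₀).C j = S.C j := by
  simp [ext, C, hj.ne]

lemma ext_Q {j : ℕ} (hj : j < n) : (S.ext n f L Q₀).Q j = S.Q j := by
  simp [ext, hj.ne]

lemma ext_Hp {j : ℕ} (hj : j < n) (c : ℕ → ℝ) (r : ℝ) :
    (S.ext n f L Q₀).Hp j c r = S.Hp j c r := by
  unfold Hp
  rw [ext_v hj, ext_C hj, ext_Q hj]

lemma ext_Hm {j : ℕ} (hj : j < n) (c : ℕ → ℝ) (r : ℝ) :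
    (S.ext n f L Q₀).Hm j c r = S.Hm j c r := by
  unfold Hm
  rw [ext_v hj, ext_C hj, ext_Q hj]

lemma ext_V {j : ℕ} (hj : j < n) (c : ℕ → ℝ) : (S.ext n f L Q₀).V j c = S.V j c := by
  unfold V
  rw [ext_v hj]

lemma ext_V_self (c : ℕ → ℝ) : (S.ext n f L Q₀).V n c = f (c n) c := by
  simp [V, ext]

lemma ext_C_self : (S.ext n f L Q₀).C n = 1 + L := by
  simp [ext, C]

lemma ext_Q_self : (S.ext n f L Q₀).Q n = Q₀ := by
  simp [ext]

lemma ext_Osc (c : ℕ → ℝ) {r : ℝ} (hr : r ≤ 1) :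
    (S.ext n f L Q₀).Osc (n + 1) c r =
      S.Osc n c r + (f (c n + (1 + L) * r) c - f (c n - (1 + L) * r) c) := by
  unfold Osc
  rw [Finset.sum_range_succ]
  congr 1
  · apply Finset.sum_congr rfl
    intro j hj
    have hj' := Finset.mem_range.mp hj
    rw [ext_Hp hj', ext_Hm hj']
  · unfold Hp Hm
    rw [ext_C_self]
    simp [ext, hr]

theorem ext_good (hS : S.Good n) (hL : 0 ≤ L) (hQ : 0 ≤ Q₀)
    (hc : ∀ (z z' : ℝ) (c c' : ℕ → ℝ), z + L * dist1 n c c' ≤ z' → f z c ≤ f z' c')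
    (hb : ∀ (z : ℝ) (c : ℕ → ℝ), |f z c - z| ≤ Q₀) : (S.ext n f L Q₀).Good (n + 1) where
  Lam_nonneg := by
    intro j hj
    by_cases h : j = n
    · simp [ext, h, hL]
    · simp only [ext, h, if_false]
      exact hS.Lam_nonneg j (by omega)
  Q_nonneg := by
    intro j hj
    by_cases h : j = n
    · simp [ext, h, hQ]
    · simp only [ext, h, if_false]
      exact hS.Q_nonneg j (by omega)
  cone := by
    intro j hj z z' c c' hz
    by_cases h : j = n
    · subst h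
      simp only [ext, if_true] at hz ⊢
      exact hc z z' c c' hz
    · simp only [ext, h, if_false] at hz ⊢
      exact hS.cone j (by omega) z z' c c' hz
  bound := by
    intro j hj z c
    by_cases h : j = n
    · subst h
      simp only [ext, if_true]
      exact hb z c
    · simp only [ext, h, if_false]
      exact hS.bound j (by omega) z c

end ext

/-- `E·c` is controlled by `E·V`. -/
lemma sum_c_le {S : Slots} {N : ℕ} (hS : S.Good N) {E : ℕ → ℤ} {W : ℤ}
    (hE : ∑ j ∈ range N, |E j| ≤ W) (hW0 : 0 ≤ W) (c : ℕ → ℝ) :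
    ∑ j ∈ range N, (E j : ℝ) * c j ≤ ∑ j ∈ range N, (E j : ℝ) * S.V j c + (W : ℝ) * S.Qbar N := by
  rw [← sub_le_iff_le_add', ← Finset.sum_sub_distrib]
  have e : (W : ℝ) * S.Qbar N = ∑ j ∈ range N, (W : ℝ) * S.Q j := by
    unfold Qbar
    rw [Finset.mul_sum]
  rw [e]
  apply Finset.sum_le_sum
  intro j hj
  have hj' := Finset.mem_range.mp hj
  have a1 : |E j| ≤ W := (Finset.single_le_sum (f := fun j => |E j|)
    (fun _ _ => abs_nonneg _) (Finset.mem_range.mpr hj')).trans hE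
  have a2 : |(E j : ℝ)| ≤ (W : ℝ) := by exact_mod_cast a1
  have a3 := hS.bound j hj' (c j) c
  have a4 : (E j : ℝ) * c j - (E j : ℝ) * S.V j c ≤ |(E j : ℝ)| * |S.v j (c j) c - c j| := by
    have e1 : (E j : ℝ) * c j - (E j : ℝ) * S.V j c = (E j : ℝ) * (c j - S.v j (c j) c) := by
      unfold V; ring
    rw [e1, abs_sub_comm (S.v j (c j) c), ← abs_mul]
    exact le_abs_self _
  have a5 := mul_le_mul a2 a3 (abs_nonneg _) (by exact_mod_cast hW0)
  linarith

/-- A node realising the linear form of `E` on the upper slots. -/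
lemma exists_node {n : ℕ} {E : ℕ → ℤ} {W qi : ℤ} {e : ℤ} (he : e ≠ 0) (hdvd : e ∣ qi) (hqi : 0 < qi)
    (hE : ∑ j ∈ range n, |E j| ≤ W) (hW0 : 0 ≤ W) :
    ∃ Y ∈ nodes n (qi * W), ∀ f : ℕ → ℝ,
      (∑ j ∈ range n, (Y j : ℝ) * f j) / (qi : ℝ) = - (∑ j ∈ range n, (E j : ℝ) * f j) / (e : ℝ) := by
  obtain ⟨d, hd⟩ := hdvd
  have hd0 : d ≠ 0 := by
    rintro rfl
    simp at hd
    omega
  have hdabs : |d| ≤ qi := by
    have h1 : |qi| = |e| * |d| := by rw [hd, abs_mul]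
    have h2 : 1 ≤ |e| := Int.one_le_abs he
    have h3 : |d| ≤ |e| * |d| := le_mul_of_one_le_left (abs_nonneg _) h2
    rw [← h1, abs_of_pos hqi] at h3
    exact h3
  refine ⟨fun j => if j < n then -d * E j else 0, ?_, ?_⟩
  · rw [mem_nodes]
    constructor
    · intro j hj
      simp [not_lt.mpr hj]
    · have : ∑ j ∈ range n, |if j < n then -d * E j else 0| = |d| * ∑ j ∈ range n, |E j| := by
        rw [Finset.mul_sum]
        apply Finset.sum_congr rfl
        intro j hj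
        simp [Finset.mem_range.mp hj, abs_mul]
      rw [this]
      exact mul_le_mul hdabs hE (Finset.sum_nonneg fun _ _ => abs_nonneg _) hqi.le
  · intro f
    have e1 : ∑ j ∈ range n, (((if j < n then -d * E j else 0 : ℤ)) : ℝ) * f j =
        -(d : ℝ) * ∑ j ∈ range n, (E j : ℝ) * f j := by
      rw [Finset.mul_sum]
      apply Finset.sum_congr rfl
      intro j hj
      simp only [Finset.mem_range.mp hj, if_true]
      push_cast
      ring
    rw [e1]
    have he' : (e : ℝ) ≠ 0 := by exact_mod_cast he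
    have hd' : (d : ℝ) ≠ 0 := by exact_mod_cast hd0
    have hq : (qi : ℝ) = (e : ℝ) * (d : ℝ) := by exact_mod_cast hd
    rw [hq]
    field_simp

namespace Ctx

variable {S : Slots} {n W' : ℕ} {A' sg' kap q a Wr kp : ℝ} {K : ℕ} {μ Qn : ℝ} {M : ℤ} {m' : ℕ}
  {ε K₆ K₁ : ℝ}

/-- the new slot function -/
def vnew (S : Slots) (n : ℕ) (q a kp : ℝ) (K : ℕ) (μ Qn : ℝ) (M : ℤ) : ℝ → (ℕ → ℝ) → ℝ :=
  fun z c => (S.nsAt n q a kp K μ Qn (nodes n M) c).F z

variable (C : Ctx S n W' A' sg' kap q a Wr kp K μ Qn M m' ε K₆ K₁)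
include C

lemma vnew_bound (z : ℝ) (c : ℕ → ℝ) : |vnew S n q a kp K μ Qn M z c - z| ≤ Qn :=
  NS.abs_F_sub_le (C.good c) z

lemma vnew_cone {L : ℝ} (hL : Wr + 2 * kp ≤ L) (z z' : ℝ) (c c' : ℕ → ℝ)
    (hz : z + L * dist1 n c c' ≤ z') :
    vnew S n q a kp K μ Qn M z c ≤ vnew S n q a kp K μ Qn M z' c' := by
  have hq := C.q_pos
  have hWn := C.Wr_nonneg
  have hkp := C.hkp
  have ha := C.a_pos
  have hK := C.hK
  have hd0 := dist1_nonneg n c c'
  have hLd : Wr * dist1 n c c' ≤ L * dist1 n c c' :=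
    mul_le_mul_of_nonneg_right (by linarith) hd0
  have hLd0 : 0 ≤ L * dist1 n c c' := mul_nonneg (by linarith) hd0
  have hlip : ∀ Y ∈ nodes n M, pos n q Y c' - pos n q Y c ≤ Wr * dist1 n c c' := fun Y hY =>
    (abs_le.mp (pos_lip hq (nodeOK_of_mem C.hMq hY) c c')).2
  have hOK : ∀ Y ∈ nodes n M, NodeOK n q Wr Y := fun Y hY => nodeOK_of_mem C.hMq hY
  refine NS.F_le_of_cone (C.good c) (C.good c') rfl rfl (by linarith) ?_ ?_ ?_ ?_ ?_
  · intro Y hY hl
    have hl' : pos n q Y c ≤ z := hl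
    show pos n q Y c' ≤ z'
    have := hlip Y hY
    linarith
  · intro Y hY hl
    have hl' : pos n q Y c ≤ z := hl
    exact Top_cone C.hS hq ha.le hkp hK hWn (hOK Y hY) c c' hl' hz (by linarith)
  · intro Y hY hl
    have hl' : z' < pos n q Y c' := not_le.mp hl
    have hp : pos n q (-Y) c' ≤ -z' := by rw [pos_neg]; linarith
    have hz' : -z' + L * dist1 n c' c ≤ -z := by
      rw [dist1_comm]; linarith
    have := Top_cone (μ := μ) C.hS hq ha.le hkp hK hWn (hOK _ (nodes_neg hY)) c' c hp hz'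
      (show Wr + kp ≤ L by linarith)
    show - S.Top n q a kp K μ (-Y) c (-z) ≤ - S.Top n q a kp K μ (-Y) c' (-z')
    linarith
  · intro Y hY h1 h2
    have h1' : z < pos n q Y c := not_le.mp h1
    have h2' : pos n q Y c' ≤ z' := h2
    exact Top_cross C.hS hq ha.le hkp hK C.haW hWn C.hμ.le (hOK Y hY) c c' h1'.le h2' hz hL
  · intro Y hY
    have := hlip Y hY
    show pos n q Y c' - pos n q Y c ≤ z' - z
    linarith

lemma vnew_mono {z z' : ℝ} (hz : z ≤ z') (c : ℕ → ℝ) :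
    vnew S n q a kp K μ Qn M z c ≤ vnew S n q a kp K μ Qn M z' c :=
  NS.F_mono (C.good c) hz

end Ctx

end Slots

end Crest.Agent.Lib.MAK
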