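import Crest.Agent.Lib.MAK.Step2

/-!
# The separation property at the next level
-/

set_option autoImplicit false

noncomputable section

namespace Crest.Agent.Lib.MAK

open Finset

namespace Slots

lemma finish {sg A O r J ε : ℝ} (h1 : 3 * (sg + A * O) ≤ J) (h2 : r ≤ 7 * (ε * J))
    (h3 : 21 * A * ε ≤ 1) (hA : 0 ≤ A) (hJ : 0 ≤ J) : sg + A * (O + r) ≤ J := by
  have a1 : A * r ≤ A * (7 * (ε * J)) := mul_le_mul_of_nonneg_left h2 hA
  have a2 : (21 * A * ε) * J ≤ 1 * J := mul_le_mul_of_nonneg_right h3 hJ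
  linarith only [a1, a2, h1, hJ]

namespace Ctx

variable {S : Slots} {n W' : ℕ} {A' sg' kap q a Wr kp : ℝ} {K : ℕ} {μ Qn : ℝ} {M : ℤ} {m' : ℕ}
  {ε K₆ K₁ : ℝ}

/-- Case `e = 0` -/
lemma case_zero (C : Ctx S n W' A' sg' kap q a Wr kp K μ Qn M m' ε K₆ K₁) {W : ℕ} {A sg kap' : ℝ}
    (hW'W : (W : ℤ) + 2 * (m' : ℤ) * M ≤ W') (hA0 : 0 ≤ A) (hsg0 : 0 ≤ sg)
    (hAε : 21 * A * ε ≤ 1) (hA'3 : 3 * A ≤ A') (hsg'3 : 3 * sg ≤ sg')
    {Cn x ρ : ℝ} (hCn : 0 < Cn) (hρ : 0 ≤ ρ) (c : ℕ → ℝ) {E : ℕ → ℤ}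
    (hE : ∑ j ∈ range n, |E j| ≤ (W : ℤ))
    (hk3 : 2 * Cn * (1 + ((W : ℤ) : ℝ) * S.Qbar n / sg') / ε ≤ kap')
    (hk4 : (m' : ℝ) * q * K₆ * (2 * Cn) ≤ kap')
    (hk5 : kap * (2 * ((2 * (K : ℝ) + 1) * (2 * Cn) / kp)) ≤ kap')
    (hk6 : kap ≤ kap')
    (hlt : kap' * ρ < ∑ j ∈ range n, (E j : ℝ) * c j) :
    sg + A * (S.Osc n c ρ + (vnew S n q a kp K μ Qn M (x + Cn * ρ) c -
      vnew S n q a kp K μ Qn M (x - Cn * ρ) c)) ≤ ∑ j ∈ range n, (E j : ℝ) * S.V j c := by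
  have hm0 : (0 : ℤ) ≤ 2 * (m' : ℤ) * M := mul_nonneg (by positivity) C.hM0
  have hE' : ∑ j ∈ range n, |E j| ≤ (W' : ℤ) := by linarith
  have hkr : kap * ρ < ∑ j ∈ range n, (E j : ℝ) * c j := by
    have := mul_le_mul_of_nonneg_right hk6 hρ
    linarith
  have h1 := C.hPP E hE' c ρ hρ hkr
  have hO := Osc_nonneg C.hS c hρ
  have hAO : 3 * A * S.Osc n c ρ ≤ A' * S.Osc n c ρ := mul_le_mul_of_nonneg_right hA'3 hO
  have hsgpos := C.sg'_pos
  have hA'O : 0 ≤ A' * S.Osc n c ρ := mul_nonneg C.A'_pos.le hO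
  have hJ : 0 ≤ ∑ j ∈ range n, (E j : ℝ) * S.V j c := by linarith
  refine finish (by linarith) ?_ hAε hA0 hJ
  rcases eq_or_lt_of_le hρ with hρ0 | hρ0
  · rw [← hρ0]
    have : vnew S n q a kp K μ Qn M (x + Cn * 0) c - vnew S n q a kp K μ Qn M (x - Cn * 0) c = 0 := by
      simp
    rw [this]
    have := mul_nonneg C.hε0.le hJ
    linarith
  · refine C.rise_margin c hE hW'W hCn hρ0 hlt hk6 hk3 hk4 hk5 (by positivity)

/-- Case `e > 0` -/
lemma case_pos (C : Ctx S n W' A' sg' kap q a Wr kp K μ Qn M m' ε K₆ K₁) {A sg kap' : ℝ}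
    (hA0 : 0 ≤ A) (h3A : 3 * A ≤ a) (h3sg : 3 * sg ≤ μ) (hAε : 21 * A * ε ≤ 1)
    {Cn x ρ : ℝ} (hCn : 0 < Cn) (hρ : 0 ≤ ρ) (c : ℕ → ℝ) {Y : ℕ → ℤ} (hY : Y ∈ nodes n M)
    {e W₀ : ℝ} (he : 1 ≤ e) (heW : e ≤ W₀)
    (hk1 : W₀ * kp ≤ kap') (hk2 : W₀ * ((2 * K₁ + 1) * Cn) ≤ kap')
    (hlt : kap' * ρ < e * (x - pos n q Y c)) :
    sg + A * (S.Osc n c ρ + (vnew S n q a kp K μ Qn M (x + Cn * ρ) c -
      vnew S n q a kp K μ Qn M (x - Cn * ρ) c)) ≤
      e * (vnew S n q a kp K μ Qn M x c - S.ht n q Y c) := by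
  have hkp := C.hkp
  have hW₀ : 0 < W₀ := by linarith
  have hkap' : 0 ≤ kap' := le_trans (by positivity) hk1
  obtain ⟨p, hp⟩ : ∃ p, p = pos n q Y c := ⟨_, rfl⟩
  rw [← hp] at hlt
  have h0 : 0 ≤ kap' * ρ := mul_nonneg hkap' hρ
  have he0 : 0 < e := by linarith
  have hxp : 0 < x - p := by
    by_contra hc
    have : e * (x - p) ≤ 0 := mul_nonpos_of_nonneg_of_nonpos he0.le (not_lt.mp hc)
    linarith
  have hub : e * (x - p) ≤ W₀ * (x - p) := mul_le_mul_of_nonneg_right heW hxp.le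
  have hi : kp * ρ ≤ x - p := by
    have a1 := mul_le_mul_of_nonneg_right hk1 hρ
    have a2 : W₀ * (kp * ρ) ≤ W₀ * (x - p) := by linarith
    exact le_of_mul_le_mul_left a2 hW₀
  have hii : (2 * K₁ + 1) * Cn * ρ ≤ x - p := by
    have a1 := mul_le_mul_of_nonneg_right hk2 hρ
    have a2 : W₀ * ((2 * K₁ + 1) * Cn * ρ) ≤ W₀ * (x - p) := by linarith
    exact le_of_mul_le_mul_left a2 hW₀
  have hF := C.F_ge_left (K := K) c hY (z := x) (by rw [← hp]; linarith)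
  rw [← hp] at hF
  have hρk : ρ ≤ (x - p) / kp := by
    rw [le_div_iff₀ hkp]
    linarith
  have hOm := Osc_mono C.hS c hρk
  have hO := Osc_nonneg C.hS c hρ
  have ha := C.a_pos
  have hμ := C.hμ
  obtain ⟨X, hX⟩ : ∃ X, X = vnew S n q a kp K μ Qn M x c - S.ht n q Y c := ⟨_, rfl⟩
  have hXv : X = (S.nsAt n q a kp K μ Qn (nodes n M) c).F x - S.ht n q Y c := hX
  have hXge : a * S.Osc n c ρ + μ ≤ X := by
    have := mul_le_mul_of_nonneg_left hOm ha.le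
    rw [hXv]
    linarith only [this, hF]
  have hX0 : 0 ≤ X := by
    have := mul_nonneg ha.le hO
    linarith only [this, hXge, hμ]
  rw [← hX]
  have hAO : 3 * A * S.Osc n c ρ ≤ a * S.Osc n c ρ := mul_le_mul_of_nonneg_right h3A hO
  have hfin := finish (sg := sg) (A := A) (O := S.Osc n c ρ) (J := X) (ε := ε)
    (r := vnew S n q a kp K μ Qn M (x + Cn * ρ) c - vnew S n q a kp K μ Qn M (x - Cn * ρ) c)
    (by linarith only [hAO, h3sg, hXge]) ?_ hAε hA0 hX0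
  · have : 1 * X ≤ e * X := mul_le_mul_of_nonneg_right he hX0
    linarith only [this, hfin]
  · rcases eq_or_lt_of_le hρ with hρ0 | hρ0
    · rw [← hρ0]
      have : vnew S n q a kp K μ Qn M (x + Cn * 0) c - vnew S n q a kp K μ Qn M (x - Cn * 0) c = 0 := by
        simp
      rw [this]
      have := mul_nonneg C.hε0.le hX0
      linarith only [this]
    · have hC0 : 0 < Cn * ρ := mul_pos hCn hρ0
      have hr := C.rise_left c hY (zm := x - Cn * ρ) (zp := x + Cn * ρ) (by linarith only [hC0])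
        (by
          rw [← hp]
          have e1 : x + Cn * ρ - (x - Cn * ρ) = 2 * (Cn * ρ) := by ring
          rw [e1]
          linarith only [hii, show (2 * K₁ + 1) * Cn * ρ = K₁ * (2 * (Cn * ρ)) + Cn * ρ by ring])
      have hmn := C.vnew_mono (show x - Cn * ρ ≤ x by linarith only [hC0]) c
      have hmn' : (S.nsAt n q a kp K μ Qn (nodes n M) c).F (x - Cn * ρ) ≤
          (S.nsAt n q a kp K μ Qn (nodes n M) c).F x := hmn
      have h7 : 7 * (ε * ((S.nsAt n q a kp K μ Qn (nodes n M) c).F (x - Cn * ρ) - S.ht n q Y c)) ≤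
          7 * (ε * X) := by
        apply mul_le_mul_of_nonneg_left _ (by norm_num)
        apply mul_le_mul_of_nonneg_left _ C.hε0.le
        rw [hXv]
        linarith only [hmn']
      exact hr.trans h7

/-- Case `e < 0` -/
lemma case_neg (C : Ctx S n W' A' sg' kap q a Wr kp K μ Qn M m' ε K₆ K₁) {A sg kap' : ℝ}
    (hA0 : 0 ≤ A) (h3A : 3 * A ≤ a) (h3sg : 3 * sg ≤ μ) (hAε : 21 * A * ε ≤ 1)
    {Cn x ρ : ℝ} (hCn : 0 < Cn) (hρ : 0 ≤ ρ) (c : ℕ → ℝ) {Y : ℕ → ℤ} (hY : Y ∈ nodes n M)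
    {e W₀ : ℝ} (he : 1 ≤ e) (heW : e ≤ W₀)
    (hk1 : W₀ * kp ≤ kap') (hk2 : W₀ * ((2 * K₁ + 1) * Cn) ≤ kap')
    (hlt : kap' * ρ < e * (pos n q Y c - x)) :
    sg + A * (S.Osc n c ρ + (vnew S n q a kp K μ Qn M (x + Cn * ρ) c -
      vnew S n q a kp K μ Qn M (x - Cn * ρ) c)) ≤
      e * (S.ht n q Y c - vnew S n q a kp K μ Qn M x c) := by
  have hkp := C.hkp
  have hW₀ : 0 < W₀ := by linarith
  have hkap' : 0 ≤ kap' := le_trans (by positivity) hk1
  obtain ⟨p, hp⟩ : ∃ p, p = pos n q Y c := ⟨_, rfl⟩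
  rw [← hp] at hlt
  have h0 : 0 ≤ kap' * ρ := mul_nonneg hkap' hρ
  have he0 : 0 < e := by linarith
  have hxp : 0 < p - x := by
    by_contra hc
    have : e * (p - x) ≤ 0 := mul_nonpos_of_nonneg_of_nonpos he0.le (not_lt.mp hc)
    linarith
  have hub : e * (p - x) ≤ W₀ * (p - x) := mul_le_mul_of_nonneg_right heW hxp.le
  have hi : kp * ρ ≤ p - x := by
    have a1 := mul_le_mul_of_nonneg_right hk1 hρ
    have a2 : W₀ * (kp * ρ) ≤ W₀ * (p - x) := by linarith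
    exact le_of_mul_le_mul_left a2 hW₀
  have hii : (2 * K₁ + 1) * Cn * ρ ≤ p - x := by
    have a1 := mul_le_mul_of_nonneg_right hk2 hρ
    have a2 : W₀ * ((2 * K₁ + 1) * Cn * ρ) ≤ W₀ * (p - x) := by linarith
    exact le_of_mul_le_mul_left a2 hW₀
  have hF := C.F_le_right (K := K) c hY (z := x) (by rw [← hp]; linarith)
  rw [← hp] at hF
  have hρk : ρ ≤ (p - x) / kp := by
    rw [le_div_iff₀ hkp]
    linarith
  have hOm := Osc_mono C.hS c hρk
  have hO := Osc_nonneg C.hS c hρ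
  have ha := C.a_pos
  have hμ := C.hμ
  obtain ⟨X, hX⟩ : ∃ X, X = S.ht n q Y c - vnew S n q a kp K μ Qn M x c := ⟨_, rfl⟩
  have hXv : X = S.ht n q Y c - (S.nsAt n q a kp K μ Qn (nodes n M) c).F x := hX
  have hXge : a * S.Osc n c ρ + μ ≤ X := by
    have := mul_le_mul_of_nonneg_left hOm ha.le
    rw [hXv]
    linarith only [this, hF]
  have hX0 : 0 ≤ X := by
    have := mul_nonneg ha.le hO
    linarith only [this, hXge, hμ]
  rw [← hX]
  have hAO : 3 * A * S.Osc n c ρ ≤ a * S.Osc n c ρ := mul_le_mul_of_nonneg_right h3A hO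
  have hfin := finish (sg := sg) (A := A) (O := S.Osc n c ρ) (J := X) (ε := ε)
    (r := vnew S n q a kp K μ Qn M (x + Cn * ρ) c - vnew S n q a kp K μ Qn M (x - Cn * ρ) c)
    (by linarith only [hAO, h3sg, hXge]) ?_ hAε hA0 hX0
  · have : 1 * X ≤ e * X := mul_le_mul_of_nonneg_right he hX0
    linarith only [this, hfin]
  · rcases eq_or_lt_of_le hρ with hρ0 | hρ0
    · rw [← hρ0]
      have : vnew S n q a kp K μ Qn M (x + Cn * 0) c - vnew S n q a kp K μ Qn M (x - Cn * 0) c = 0 := by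
        simp
      rw [this]
      have := mul_nonneg C.hε0.le hX0
      linarith only [this]
    · have hC0 : 0 < Cn * ρ := mul_pos hCn hρ0
      have hr := C.rise_right c hY (zm := x - Cn * ρ) (zp := x + Cn * ρ) (by linarith only [hC0])
        (by
          rw [← hp]
          have e1 : x + Cn * ρ - (x - Cn * ρ) = 2 * (Cn * ρ) := by ring
          rw [e1]
          linarith only [hii, show (2 * K₁ + 1) * Cn * ρ = K₁ * (2 * (Cn * ρ)) + Cn * ρ by ring])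
      have hmn := C.vnew_mono (show x ≤ x + Cn * ρ by linarith only [hC0]) c
      have hmn' : (S.nsAt n q a kp K μ Qn (nodes n M) c).F x ≤
          (S.nsAt n q a kp K μ Qn (nodes n M) c).F (x + Cn * ρ) := hmn
      have h7 : 7 * (ε * (S.ht n q Y c - (S.nsAt n q a kp K μ Qn (nodes n M) c).F (x + Cn * ρ))) ≤
          7 * (ε * X) := by
        apply mul_le_mul_of_nonneg_left _ (by norm_num)
        apply mul_le_mul_of_nonneg_left _ C.hε0.le
        rw [hXv]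
        linarith only [hmn']
      exact hr.trans h7

/-- **The separation property at the next level.** -/
theorem step_PP (C : Ctx S n W' A' sg' kap q a Wr kp K μ Qn M m' ε K₆ K₁) {L : ℝ}
    (hL : Wr + 2 * kp ≤ L) {W : ℕ} {A sg kap' : ℝ} {qi : ℤ}
    (hqi : (qi : ℝ) = q) (hqi0 : 0 < qi) (hdvd : ∀ e : ℤ, e ≠ 0 → |e| ≤ W → e ∣ qi)
    (hMdef : M = qi * W) (hWr : Wr = W) (hW'W : (W : ℤ) + 2 * (m' : ℤ) * M ≤ W')
    (hA0 : 0 ≤ A) (hsg0 : 0 ≤ sg) (h3A : 3 * A ≤ a) (h3sg : 3 * sg ≤ μ)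
    (hAε : 21 * A * ε ≤ 1) (hA'3 : 3 * A ≤ A') (hsg'3 : 3 * sg ≤ sg')
    (hk_large : sg + A * (2 * (S.ext n (vnew S n q a kp K μ Qn M) L Qn).Cbar (n + 1) +
        2 * (S.ext n (vnew S n q a kp K μ Qn M) L Qn).Qbar (n + 1)) +
        (W : ℝ) * (S.ext n (vnew S n q a kp K μ Qn M) L Qn).Qbar (n + 1) ≤ kap')
    (hk1 : Wr * kp ≤ kap')
    (hk2 : Wr * ((2 * K₁ + 1) * (1 + L)) ≤ kap')
    (hk3 : 2 * (1 + L) * (1 + ((W : ℤ) : ℝ) * S.Qbar n / sg') / ε ≤ kap')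
    (hk4 : (m' : ℝ) * q * K₆ * (2 * (1 + L)) ≤ kap')
    (hk5 : kap * (2 * ((2 * (K : ℝ) + 1) * (2 * (1 + L)) / kp)) ≤ kap')
    (hk6 : kap ≤ kap') :
    (S.ext n (vnew S n q a kp K μ Qn M) L Qn).PP (n + 1) W A sg kap' := by
  have hkp := C.hkp
  have hWpos : (1 : ℝ) ≤ (W : ℝ) := by rw [← hWr]; exact C.hWr
  have hLpos : 0 ≤ L := by linarith [C.hWr]
  have hε0 := C.hε0
  have hS' : (S.ext n (vnew S n q a kp K μ Qn M) L Qn).Good (n + 1) :=
    ext_good C.hS hLpos (by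
      have hb := C.vnew_bound 0 (fun _ => 0)
      exact (abs_nonneg _).trans hb) (fun z z' c c' hz => C.vnew_cone hL z z' c c' hz)
      (fun z c => C.vnew_bound z c)
  intro E hE c ρ hρ hlt
  obtain ⟨S', hS'def⟩ : ∃ S', S' = S.ext n (vnew S n q a kp K μ Qn M) L Qn := ⟨_, rfl⟩
  rw [← hS'def] at hS' hk_large ⊢
  by_cases hρ1 : 1 ≤ ρ
  · -- large radius
    have h1 := Osc_le hS' c ρ
    have h2 := sum_c_le hS' hE (by positivity) c
    have hC0 := Cbar_nonneg hS'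
    have hQ0 := Qbar_nonneg hS'
    obtain ⟨CC, hCC⟩ : ∃ CC, CC = S'.Cbar (n + 1) := ⟨_, rfl⟩
    obtain ⟨QQ, hQQ⟩ : ∃ QQ, QQ = S'.Qbar (n + 1) := ⟨_, rfl⟩
    rw [← hCC] at h1 hk_large hC0
    rw [← hQQ] at h1 hk_large hQ0 h2
    have h3 : A * S'.Osc (n + 1) c ρ ≤ A * (2 * CC * ρ + 2 * QQ) :=
      mul_le_mul_of_nonneg_left h1 hA0
    have h4 : (sg + A * (2 * CC + 2 * QQ) + (W : ℝ) * QQ) * ρ ≤ kap' * ρ :=
      mul_le_mul_of_nonneg_right hk_large hρ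
    have h5 : (sg + A * 2 * QQ + (W : ℝ) * QQ) * 1 ≤ (sg + A * 2 * QQ + (W : ℝ) * QQ) * ρ :=
      mul_le_mul_of_nonneg_left hρ1 (by positivity)
    push_cast at h2
    linarith only [h2, h3, h4, h5, hlt]
  have hρlt : ρ < 1 := not_le.mp hρ1
  obtain ⟨x, hx⟩ : ∃ x, x = c n := ⟨_, rfl⟩
  obtain ⟨Cn, hCn⟩ : ∃ Cn, Cn = 1 + L := ⟨_, rfl⟩
  have hCnpos : 0 < Cn := by rw [hCn]; linarith
  rw [← hCn] at hk2 hk3 hk4 hk5
  have hOsc : S'.Osc (n + 1) c ρ = S.Osc n c ρ + (vnew S n q a kp K μ Qn M (x + Cn * ρ) c -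
      vnew S n q a kp K μ Qn M (x - Cn * ρ) c) := by
    rw [hS'def, ext_Osc c hρlt.le, hx, hCn]
  have hsumV : ∑ j ∈ range (n + 1), (E j : ℝ) * S'.V j c =
      ∑ j ∈ range n, (E j : ℝ) * S.V j c + (E n : ℝ) * vnew S n q a kp K μ Qn M x c := by
    rw [Finset.sum_range_succ, hS'def, ext_V_self, ← hx]
    congr 1
    apply Finset.sum_congr rfl
    intro j hj
    rw [ext_V (Finset.mem_range.mp hj)]
  have hsumc : ∑ j ∈ range (n + 1), (E j : ℝ) * c j =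
      ∑ j ∈ range n, (E j : ℝ) * c j + (E n : ℝ) * x := by
    rw [Finset.sum_range_succ, ← hx]
  rw [hOsc, hsumV]
  rw [hsumc] at hlt
  have hE2 : ∑ j ∈ range n, |E j| + |E n| ≤ (W : ℤ) := by
    rw [Finset.sum_range_succ] at hE
    exact hE
  have hE' : ∑ j ∈ range n, |E j| ≤ (W : ℤ) := by linarith [abs_nonneg (E n)]
  have hEn : |E n| ≤ (W : ℤ) := by
    have h0 : 0 ≤ ∑ j ∈ range n, |E j| := Finset.sum_nonneg fun _ _ => abs_nonneg _
    linarith
  have hqpos := C.q_pos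
  rcases lt_trichotomy (E n) 0 with hneg | hzero | hpos
  · -- negative coefficient
    have he0 : E n ≠ 0 := hneg.ne
    obtain ⟨Y, hY, hYf⟩ := exists_node he0 (hdvd _ he0 hEn) hqi0 hE' (by positivity)
    rw [← hMdef] at hY
    have he' : ((E n : ℤ) : ℝ) ≠ 0 := by exact_mod_cast he0
    have hposY : pos n q Y c = - (∑ j ∈ range n, (E j : ℝ) * c j) / (E n : ℝ) := by
      unfold pos
      rw [← hqi]
      exact hYf c
    have hhtY : S.ht n q Y c = - (∑ j ∈ range n, (E j : ℝ) * S.V j c) / (E n : ℝ) := by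
      unfold ht
      rw [← hqi]
      exact hYf (fun j => S.V j c)
    have e1 : ∑ j ∈ range n, (E j : ℝ) * c j = - (E n : ℝ) * pos n q Y c := by
      rw [hposY]; field_simp
    have e2 : ∑ j ∈ range n, (E j : ℝ) * S.V j c = - (E n : ℝ) * S.ht n q Y c := by
      rw [hhtY]; field_simp
    have hen1 : (1 : ℝ) ≤ - (E n : ℝ) := by
      have : (1 : ℤ) ≤ - E n := by omega
      exact_mod_cast this
    have hen2 : - (E n : ℝ) ≤ Wr := by
      rw [hWr]
      have h3 : - E n ≤ (W : ℤ) := by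
        have := neg_le_abs (E n)
        linarith
      exact_mod_cast h3
    have hres := C.case_neg (A := A) (sg := sg) (kap' := kap') hA0 h3A h3sg hAε hCnpos hρ c hY
      hen1 hen2 hk1 hk2 (x := x) (by
        rw [e1] at hlt
        linarith only [hlt])
    rw [e2]
    linarith only [hres]
  · -- zero coefficient
    rw [hzero] at hlt ⊢
    simp only [Int.cast_zero, zero_mul, add_zero] at hlt ⊢
    exact C.case_zero hW'W hA0 hsg0 hAε hA'3 hsg'3 hCnpos hρ c hE' hk3 hk4 hk5 hk6 hlt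
  · -- positive coefficient
    have he0 : E n ≠ 0 := hpos.ne'
    obtain ⟨Y, hY, hYf⟩ := exists_node he0 (hdvd _ he0 hEn) hqi0 hE' (by positivity)
    rw [← hMdef] at hY
    have he' : ((E n : ℤ) : ℝ) ≠ 0 := by exact_mod_cast he0
    have hposY : pos n q Y c = - (∑ j ∈ range n, (E j : ℝ) * c j) / (E n : ℝ) := by
      unfold pos
      rw [← hqi]
      exact hYf c
    have hhtY : S.ht n q Y c = - (∑ j ∈ range n, (E j : ℝ) * S.V j c) / (E n : ℝ) := by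
      unfold ht
      rw [← hqi]
      exact hYf (fun j => S.V j c)
    have e1 : ∑ j ∈ range n, (E j : ℝ) * c j = - (E n : ℝ) * pos n q Y c := by
      rw [hposY]; field_simp
    have e2 : ∑ j ∈ range n, (E j : ℝ) * S.V j c = - (E n : ℝ) * S.ht n q Y c := by
      rw [hhtY]; field_simp
    have hen1 : (1 : ℝ) ≤ (E n : ℝ) := by
      have : (1 : ℤ) ≤ E n := by omega
      exact_mod_cast this
    have hen2 : (E n : ℝ) ≤ Wr := by
      rw [hWr]
      have h3 : E n ≤ (W : ℤ) := (le_abs_self _).trans hEn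
      exact_mod_cast h3
    have hres := C.case_pos (A := A) (sg := sg) (kap' := kap') hA0 h3A h3sg hAε hCnpos hρ c hY
      hen1 hen2 hk1 hk2 (x := x) (by
        rw [e1] at hlt
        linarith only [hlt])
    rw [e2]
    linarith only [hres]

end Ctx

end Slots

end Crest.Agent.Lib.MAK
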