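import Crest.Agent.Lib.MAK.Slots

/-!
# Top functions of nodes
-/

set_option autoImplicit false

noncomputable section

namespace Crest.Agent.Lib.MAK

open Finset

/-- coefficient-sign selection -/
def tm (y P M : ℝ) : ℝ := if 0 ≤ y then y * P else y * M

lemma tm_mono (y : ℝ) {P P' M M' : ℝ} (hP : P ≤ P') (hM : M' ≤ M) : tm y P M ≤ tm y P' M' := by
  unfold tm
  split_ifs with h
  · exact mul_le_mul_of_nonneg_left hP h
  · exact mul_le_mul_of_nonpos_left hM (not_le.mp h).le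

lemma tm_ge {y P M V : ℝ} (hM : M ≤ V) (hP : V ≤ P) : y * V ≤ tm y P M := by
  unfold tm
  split_ifs with h
  · exact mul_le_mul_of_nonneg_left hP h
  · exact mul_le_mul_of_nonpos_left hM (not_le.mp h).le

lemma tm_le {y P M V : ℝ} (hM : M ≤ V) (hP : V ≤ P) : tm y P M ≤ y * V + |y| * (P - M) := by
  unfold tm
  split_ifs with h
  · rw [abs_of_nonneg h]
    have : y * (V - M) ≥ 0 := mul_nonneg h (by linarith)
    nlinarith
  · rw [abs_of_neg (not_le.mp h)]
    have : (-y) * (P - V) ≥ 0 := mul_nonneg (by linarith [not_le.mp h]) (by linarith)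
    nlinarith

lemma tm_shift (y P M : ℝ) {x : ℝ} : tm y (P + x) (M - x) = tm y P M + |y| * x := by
  unfold tm
  split_ifs with h
  · rw [abs_of_nonneg h]; ring
  · rw [abs_of_neg (not_le.mp h)]; ring

lemma tm_var {y P M P₀ M₀ B : ℝ} (hP : P - P₀ ≤ B) (hM : M₀ - M ≤ B) :
    tm y P M - tm y P₀ M₀ ≤ |y| * B := by
  unfold tm
  split_ifs with h
  · rw [abs_of_nonneg h]
    have := mul_le_mul_of_nonneg_left hP h
    linarith
  · have hy := (not_le.mp h)
    rw [abs_of_neg hy]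
    have := mul_le_mul_of_nonneg_left hM (by linarith : 0 ≤ -y)
    linarith

lemma tm_neg (y P M : ℝ) (hy : y ≠ 0) : tm (-y) P M = - tm y M P := by
  unfold tm
  by_cases h : 0 ≤ y
  · have h' : ¬ 0 ≤ -y := by
      intro hc
      apply hy
      linarith
    simp [h, h']
  · have h' : 0 ≤ -y := by linarith [not_le.mp h]
    simp [h, h']

/-- scale factors -/
def sc (K i : ℕ) : ℝ := 1 + (i : ℝ) / K

/-- the scale average -/
def Avg (K : ℕ) (f : ℝ → ℝ) (ρ : ℝ) : ℝ := (∑ i ∈ range K, f (ρ * sc K i)) / K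

lemma sc_ge_one (K i : ℕ) : 1 ≤ sc K i := by
  unfold sc
  have : 0 ≤ (i : ℝ) / K := by positivity
  linarith

lemma sc_le_two {K i : ℕ} (hK : 0 < K) (hi : i ≤ K) : sc K i ≤ 2 := by
  unfold sc
  have hK' : (0 : ℝ) < K := by exact_mod_cast hK
  have : (i : ℝ) / K ≤ 1 := by
    rw [div_le_one hK']
    exact_mod_cast hi
  linarith

lemma Avg_ge {K : ℕ} (hK : 0 < K) {f : ℝ → ℝ}
    (hf : ∀ r r', 0 ≤ r → r ≤ r' → f r ≤ f r') {ρ : ℝ} (hρ : 0 ≤ ρ) : f ρ ≤ Avg K f ρ := by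
  unfold Avg
  have hK' : (0 : ℝ) < K := by exact_mod_cast hK
  rw [le_div_iff₀ hK']
  have : ∑ _i ∈ range K, f ρ ≤ ∑ i ∈ range K, f (ρ * sc K i) := by
    apply Finset.sum_le_sum
    intro i _
    apply hf _ _ hρ
    have := sc_ge_one K i
    nlinarith
  simpa [mul_comm] using this

lemma Avg_le {K : ℕ} (hK : 0 < K) {f : ℝ → ℝ}
    (hf : ∀ r r', 0 ≤ r → r ≤ r' → f r ≤ f r') {ρ : ℝ} (hρ : 0 ≤ ρ) : Avg K f ρ ≤ f (2 * ρ) := by
  unfold Avg
  have hK' : (0 : ℝ) < K := by exact_mod_cast hK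
  rw [div_le_iff₀ hK']
  have : ∑ i ∈ range K, f (ρ * sc K i) ≤ ∑ _i ∈ range K, f (2 * ρ) := by
    apply Finset.sum_le_sum
    intro i hi
    have h1 := sc_ge_one K i
    have h2 := sc_le_two hK (Finset.mem_range.mp hi).le
    apply hf _ _ (mul_nonneg hρ (by linarith))
    nlinarith
  simpa [mul_comm] using this

lemma Avg_mono2 {K : ℕ} (hK : 0 < K) {f g : ℝ → ℝ} {ρ ρ' : ℝ}
    (h : ∀ i < K, f (ρ * sc K i) ≤ g (ρ' * sc K i)) : Avg K f ρ ≤ Avg K g ρ' := by
  unfold Avg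
  have hK' : (0 : ℝ) < K := by exact_mod_cast hK
  rw [div_le_div_iff_of_pos_right hK']
  exact Finset.sum_le_sum fun i hi => h i (Finset.mem_range.mp hi)

/-- The telescoping estimate for the scale average. -/
lemma Avg_tel {K : ℕ} (hK : 0 < K) {f fh : ℝ → ℝ} {β Var : ℝ}
    (hsplit : ∀ r, f r = fh r + β * max (r - 1) 0) (hβ : 0 ≤ β)
    (hmono : ∀ r r', 0 ≤ r → r ≤ r' → fh r ≤ fh r')
    (hvar : ∀ r, 0 ≤ r → fh r - fh 0 ≤ Var)
    {ρ ρ' : ℝ} (hρ : 0 ≤ ρ) (hρρ : ρ ≤ ρ') (hclose : 2 * K * (ρ' - ρ) ≤ ρ) :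
    Avg K f ρ' - Avg K f ρ ≤ Var / K + 2 * β * (ρ' - ρ) := by
  have hK' : (0 : ℝ) < K := by exact_mod_cast hK
  unfold Avg
  rw [← sub_div, ← Finset.sum_sub_distrib]
  have hterm : ∀ i ∈ range K, f (ρ' * sc K i) - f (ρ * sc K i) ≤
      (fh (ρ * sc K (i + 1)) - fh (ρ * sc K i)) + 2 * β * (ρ' - ρ) := by
    intro i hi
    have hi' := Finset.mem_range.mp hi
    have h1 := sc_ge_one K i
    have h2 := sc_le_two hK hi'.le
    have hs : sc K (i + 1) = sc K i + 1 / K := by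
      unfold sc
      push_cast
      rw [add_div]
      ring
    have hkey : ρ' * sc K i ≤ ρ * sc K (i + 1) := by
      rw [hs]
      have a1 : (ρ' - ρ) * sc K i ≤ (ρ' - ρ) * 2 :=
        mul_le_mul_of_nonneg_left h2 (by linarith)
      have a2 : (ρ' - ρ) * 2 ≤ ρ / K := by
        rw [le_div_iff₀ hK']
        linarith
      have a3 : ρ * (1 / (K : ℝ)) = ρ / K := by ring
      nlinarith
    have a4 : fh (ρ' * sc K i) ≤ fh (ρ * sc K (i + 1)) :=
      hmono _ _ (mul_nonneg (by linarith) (by linarith)) hkey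
    rw [hsplit, hsplit]
    have a5 : max (ρ' * sc K i - 1) 0 - max (ρ * sc K i - 1) 0 ≤ 2 * (ρ' - ρ) := by
      have b1 : ρ' * sc K i - ρ * sc K i ≤ 2 * (ρ' - ρ) := by
        have : (ρ' - ρ) * sc K i ≤ (ρ' - ρ) * 2 :=
          mul_le_mul_of_nonneg_left h2 (by linarith)
        nlinarith
      have b2 : 0 ≤ 2 * (ρ' - ρ) := by linarith
      apply sub_le_iff_le_add.mpr
      apply max_le
      · have := le_max_left (ρ * sc K i - 1) 0
        linarith
      · have := le_max_right (ρ * sc K i - 1) 0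
        linarith
    have a6 := mul_le_mul_of_nonneg_left a5 hβ
    nlinarith
  rw [div_le_iff₀ hK']
  calc ∑ i ∈ range K, (f (ρ' * sc K i) - f (ρ * sc K i))
      ≤ ∑ i ∈ range K, ((fh (ρ * sc K (i + 1)) - fh (ρ * sc K i)) + 2 * β * (ρ' - ρ)) :=
        Finset.sum_le_sum hterm
    _ = (fh (ρ * sc K K) - fh (ρ * sc K 0)) + K * (2 * β * (ρ' - ρ)) := by
        rw [Finset.sum_add_distrib, Finset.sum_range_sub (fun i => fh (ρ * sc K i))]
        simp
    _ ≤ Var + K * (2 * β * (ρ' - ρ)) := by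
        have b1 : sc K 0 = 1 := by simp [sc]
        have b2 := hvar (ρ * sc K K) (mul_nonneg hρ (by have := sc_ge_one K K; linarith))
        have b3 : fh 0 ≤ fh (ρ * sc K 0) := by
          rw [b1, mul_one]
          exact hmono _ _ le_rfl hρ
        linarith
    _ = (Var / K + 2 * β * (ρ' - ρ)) * K := by
        field_simp

namespace Slots

variable (S : Slots) (n : ℕ) (q a : ℝ)

/-- position of a node -/
def pos (n : ℕ) (q : ℝ) (Y : ℕ → ℤ) (c : ℕ → ℝ) : ℝ := (∑ j ∈ range n, (Y j : ℝ) * c j) / q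

/-- height of a node -/
def ht (Y : ℕ → ℤ) (c : ℕ → ℝ) : ℝ := (∑ j ∈ range n, (Y j : ℝ) * S.V j c) / q

/-- upper envelope of the height of a node (with oscillation margin) -/
def Gp (Y : ℕ → ℤ) (c : ℕ → ℝ) (r : ℝ) : ℝ :=
  (∑ j ∈ range n, tm (Y j) (S.Hp j c r) (S.Hm j c r)) / q + a * S.Osc n c r

/-- bounded-variation part of `Gp` -/
def Gh (Y : ℕ → ℤ) (c : ℕ → ℝ) (r : ℝ) : ℝ :=
  (∑ j ∈ range n, tm (Y j) (S.hatP j c r) (S.hatM j c r)) / q +
    a * ∑ j ∈ range n, (S.hatP j c r - S.hatM j c r)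

/-- slope of the affine part of `Gp`. -/
def bet (Y : ℕ → ℤ) : ℝ := (∑ j ∈ range n, |(Y j : ℝ)| * S.C j) / q + a * (2 * S.Cbar n)

variable {S n q a}

/-- A node with coefficient bound `q * W`. -/
def NodeOK (n : ℕ) (q W : ℝ) (Y : ℕ → ℤ) : Prop := ∀ j < n, |(Y j : ℝ)| ≤ q * W

lemma pos_neg (Y : ℕ → ℤ) (c : ℕ → ℝ) : pos n q (-Y) c = - pos n q Y c := by
  unfold pos
  rw [← neg_div, ← Finset.sum_neg_distrib]
  congr 1
  apply Finset.sum_congr rfl
  intro j _
  simp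

lemma ht_neg (Y : ℕ → ℤ) (c : ℕ → ℝ) : S.ht n q (-Y) c = - S.ht n q Y c := by
  unfold ht
  rw [← neg_div, ← Finset.sum_neg_distrib]
  congr 1
  apply Finset.sum_congr rfl
  intro j _
  simp

section main

variable {W : ℝ} (hS : S.Good n) (hq : 0 < q) (ha : 0 ≤ a)
include hS

lemma Gp_ge (Y : ℕ → ℤ) (c : ℕ → ℝ) {r : ℝ} (hr : 0 ≤ r) (hq : 0 < q) :
    S.ht n q Y c + a * S.Osc n c r ≤ S.Gp n q a Y c r := by
  unfold ht Gp
  have : (∑ j ∈ range n, (Y j : ℝ) * S.V j c) / q ≤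
      (∑ j ∈ range n, tm (Y j) (S.Hp j c r) (S.Hm j c r)) / q := by
    apply div_le_div_of_nonneg_right _ hq.le
    apply Finset.sum_le_sum
    intro j hj
    have hj' := Finset.mem_range.mp hj
    exact tm_ge (Hm_le_V hS hj' c hr) (V_le_Hp hS hj' c hr)
  linarith

lemma Gp_le {Y : ℕ → ℤ} (hY : NodeOK n q W Y) (c : ℕ → ℝ) {r : ℝ} (hr : 0 ≤ r) (hq : 0 < q) :
    S.Gp n q a Y c r ≤ S.ht n q Y c + (a + W) * S.Osc n c r := by
  unfold ht Gp
  have : (∑ j ∈ range n, tm (Y j) (S.Hp j c r) (S.Hm j c r)) / q ≤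
      (∑ j ∈ range n, (Y j : ℝ) * S.V j c) / q + W * S.Osc n c r := by
    rw [div_add' _ _ _ hq.ne', div_le_div_iff_of_pos_right hq]
    have e : W * S.Osc n c r * q = ∑ j ∈ range n, (q * W) * (S.Hp j c r - S.Hm j c r) := by
      unfold Osc
      rw [← Finset.mul_sum]
      ring
    rw [e, ← Finset.sum_add_distrib]
    apply Finset.sum_le_sum
    intro j hj
    have hj' := Finset.mem_range.mp hj
    have h1 := tm_le (y := (Y j : ℝ)) (Hm_le_V hS hj' c hr) (V_le_Hp hS hj' c hr)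
    have h2 := sub_nonneg.mpr (Hm_le_Hp hS hj' c hr)
    have h3 := mul_le_mul_of_nonneg_right (hY j hj') h2
    linarith
  linarith

lemma Gp_mono (ha : 0 ≤ a) (hq : 0 < q) (Y : ℕ → ℤ) (c : ℕ → ℝ) {r r' : ℝ} (hr : r ≤ r') :
    S.Gp n q a Y c r ≤ S.Gp n q a Y c r' := by
  unfold Gp
  have h1 : (∑ j ∈ range n, tm (Y j) (S.Hp j c r) (S.Hm j c r)) / q ≤
      (∑ j ∈ range n, tm (Y j) (S.Hp j c r') (S.Hm j c r')) / q := by
    apply div_le_div_of_nonneg_right _ hq.le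
    apply Finset.sum_le_sum
    intro j hj
    have hj' := Finset.mem_range.mp hj
    exact tm_mono _ (Hp_mono hS hj' c hr) (Hm_mono hS hj' c hr)
  have h2 := mul_le_mul_of_nonneg_left (Osc_mono hS c hr) ha
  linarith

lemma Gp_cone (ha : 0 ≤ a) (hq : 0 < q) (Y : ℕ → ℤ) (c c' : ℕ → ℝ) {r r' : ℝ}
    (hr : r + dist1 n c c' ≤ r') : S.Gp n q a Y c r ≤ S.Gp n q a Y c' r' := by
  unfold Gp
  have h1 : (∑ j ∈ range n, tm (Y j) (S.Hp j c r) (S.Hm j c r)) / q ≤
      (∑ j ∈ range n, tm (Y j) (S.Hp j c' r') (S.Hm j c' r')) / q := by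
    apply div_le_div_of_nonneg_right _ hq.le
    apply Finset.sum_le_sum
    intro j hj
    have hj' := Finset.mem_range.mp hj
    have hd : r + dist1 (j + 1) c c' ≤ r' := by
      have := dist1_mono (Nat.succ_le_of_lt hj') c c'
      linarith
    exact tm_mono _ (Hp_cone hS hj' c c' hd) (Hm_cone hS hj' c c' hd)
  have h2 := mul_le_mul_of_nonneg_left (Osc_cone hS c c' hr) ha
  linarith

omit hS in
lemma Gp_split (Y : ℕ → ℤ) (c : ℕ → ℝ) (r : ℝ) (hq : 0 < q) :
    S.Gp n q a Y c r = S.Gh n q a Y c r + S.bet n q a Y * max (r - 1) 0 := by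
  unfold Gp Gh bet Osc
  have e1 : ∀ j, S.Hp j c r = S.hatP j c r + S.C j * max (r - 1) 0 := by
    intro j; unfold hatP; ring
  have e2 : ∀ j, S.Hm j c r = S.hatM j c r - S.C j * max (r - 1) 0 := by
    intro j; unfold hatM; ring
  have e3 : ∑ j ∈ range n, tm (Y j) (S.Hp j c r) (S.Hm j c r) =
      ∑ j ∈ range n, tm (Y j) (S.hatP j c r) (S.hatM j c r) +
        (∑ j ∈ range n, |(Y j : ℝ)| * S.C j) * max (r - 1) 0 := by
    rw [Finset.sum_mul, ← Finset.sum_add_distrib]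
    apply Finset.sum_congr rfl
    intro j _
    rw [e1, e2, tm_shift]
    ring
  have e4 : ∑ j ∈ range n, (S.Hp j c r - S.Hm j c r) =
      ∑ j ∈ range n, (S.hatP j c r - S.hatM j c r) + 2 * S.Cbar n * max (r - 1) 0 := by
    unfold Cbar
    rw [Finset.mul_sum, Finset.sum_mul, ← Finset.sum_add_distrib]
    apply Finset.sum_congr rfl
    intro j _
    rw [e1, e2]
    ring
  rw [e3, e4]
  field_simp
  ring

lemma Gh_mono (ha : 0 ≤ a) (hq : 0 < q) (Y : ℕ → ℤ) (c : ℕ → ℝ) {r r' : ℝ} (hr : r ≤ r') :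
    S.Gh n q a Y c r ≤ S.Gh n q a Y c r' := by
  unfold Gh
  have h1 : (∑ j ∈ range n, tm (Y j) (S.hatP j c r) (S.hatM j c r)) / q ≤
      (∑ j ∈ range n, tm (Y j) (S.hatP j c r') (S.hatM j c r')) / q := by
    apply div_le_div_of_nonneg_right _ hq.le
    apply Finset.sum_le_sum
    intro j hj
    have hj' := Finset.mem_range.mp hj
    exact tm_mono _ (hatP_mono hS hj' c hr) (hatM_mono hS hj' c hr)
  have h2 : ∑ j ∈ range n, (S.hatP j c r - S.hatM j c r) ≤
      ∑ j ∈ range n, (S.hatP j c r' - S.hatM j c r') := by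
    apply Finset.sum_le_sum
    intro j hj
    have hj' := Finset.mem_range.mp hj
    have a1 := hatP_mono hS hj' c hr
    have a2 := hatM_mono hS hj' c hr
    linarith
  have h3 := mul_le_mul_of_nonneg_left h2 ha
  linarith

/-- total variation of the bounded-variation part -/
abbrev Vbar (S : Slots) (n : ℕ) : ℝ := ∑ j ∈ range n, (S.C j + 2 * S.Q j)

lemma Gh_var (ha : 0 ≤ a) (hq : 0 < q) (hW : 0 ≤ W) {Y : ℕ → ℤ} (hY : NodeOK n q W Y)
    (c : ℕ → ℝ) {r : ℝ} (hr : 0 ≤ r) :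
    S.Gh n q a Y c r - S.Gh n q a Y c 0 ≤ (W + 2 * a) * S.Vbar n := by
  unfold Gh
  have h1 : (∑ j ∈ range n, tm (Y j) (S.hatP j c r) (S.hatM j c r)) / q -
      (∑ j ∈ range n, tm (Y j) (S.hatP j c 0) (S.hatM j c 0)) / q ≤ W * S.Vbar n := by
    rw [← sub_div, div_le_iff₀ hq, ← Finset.sum_sub_distrib]
    have e : W * S.Vbar n * q = ∑ j ∈ range n, (q * W) * (S.C j + 2 * S.Q j) := by
      unfold Vbar
      rw [← Finset.mul_sum]
      ring
    rw [e]
    apply Finset.sum_le_sum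
    intro j hj
    have hj' := Finset.mem_range.mp hj
    have a1 := hatP_var hS hj' c hr
    have a2 := hatM_var hS hj' c hr
    have a3 := tm_var (y := (Y j : ℝ)) a1 a2
    have a4 : 0 ≤ S.C j + 2 * S.Q j := by
      have := C_pos hS hj'
      have := hS.Q_nonneg j hj'
      linarith
    have a5 := mul_le_mul_of_nonneg_right (hY j hj') a4
    linarith
  have h2 : ∑ j ∈ range n, (S.hatP j c r - S.hatM j c r) -
      ∑ j ∈ range n, (S.hatP j c 0 - S.hatM j c 0) ≤ 2 * S.Vbar n := by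
    rw [← Finset.sum_sub_distrib]
    unfold Vbar
    rw [Finset.mul_sum]
    apply Finset.sum_le_sum
    intro j hj
    have hj' := Finset.mem_range.mp hj
    have a1 := hatP_var hS hj' c hr
    have a2 := hatM_var hS hj' c hr
    linarith
  have h3 := mul_le_mul_of_nonneg_left h2 ha
  nlinarith

lemma bet_nonneg (ha : 0 ≤ a) (hq : 0 < q) (Y : ℕ → ℤ) : 0 ≤ S.bet n q a Y := by
  unfold bet
  have h1 : 0 ≤ ∑ j ∈ range n, |(Y j : ℝ)| * S.C j := by
    apply Finset.sum_nonneg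
    intro j hj
    have := C_pos hS (Finset.mem_range.mp hj)
    positivity
  have h2 := Cbar_nonneg hS
  positivity

lemma bet_le (ha : 0 ≤ a) (hq : 0 < q) {Y : ℕ → ℤ} (hY : NodeOK n q W Y) :
    S.bet n q a Y ≤ (W + 2 * a) * S.Cbar n := by
  unfold bet
  have h1 : (∑ j ∈ range n, |(Y j : ℝ)| * S.C j) / q ≤ W * S.Cbar n := by
    rw [div_le_iff₀ hq]
    have e : W * S.Cbar n * q = ∑ j ∈ range n, (q * W) * S.C j := by
      unfold Cbar
      rw [← Finset.mul_sum]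
      ring
    rw [e]
    apply Finset.sum_le_sum
    intro j hj
    have hj' := Finset.mem_range.mp hj
    exact mul_le_mul_of_nonneg_right (hY j hj') (by have := C_pos hS hj'; linarith)
  nlinarith

end main

end Slots

end Crest.Agent.Lib.MAK
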