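import Crest.Agent.Lib.MAK.Level

/-!
# Block A: `TriExists`
-/

set_option autoImplicit false

noncomputable section

namespace Crest.Agent.Lib.MAK

open Finset

namespace Slots

lemma dist1_scale (j : ℕ) (c c' : ℕ → ℝ) {s : ℝ} (hs : 0 < s) :
    dist1 j (fun i => c i / s) (fun i => c' i / s) = dist1 j c c' / s := by
  unfold dist1
  rw [Finset.sum_div]
  apply Finset.sum_congr rfl
  intro i _
  rw [← sub_div, abs_div, abs_of_pos hs]

/-- A slot value with shifted own coordinate lies between the envelopes. -/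
lemma Hm_le_v_sub {S : Slots} {n : ℕ} (hS : S.Good n) {j : ℕ} (hj : j < n) (c : ℕ → ℝ) {t : ℝ}
    (ht0 : 0 ≤ t) (ht1 : t ≤ 1) : S.Hm j c t ≤ S.v j (c j - t) c := by
  have hC := C_pos hS hj
  unfold Hm
  rw [if_pos ht1]
  exact v_mono hS hj (by nlinarith) c

lemma v_add_le_Hp {S : Slots} {n : ℕ} (hS : S.Good n) {j : ℕ} (hj : j < n) (c : ℕ → ℝ) {t : ℝ}
    (ht0 : 0 ≤ t) (ht1 : t ≤ 1) : S.v j (c j + t) c ≤ S.Hp j c t := by
  have hC := C_pos hS hj
  unfold Hp
  rw [if_pos ht1]
  exact v_mono hS hj (by nlinarith) c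

end Slots

open Slots in
/-- **Block A.** -/
theorem triExists : TriExists := by
  intro n N
  obtain ⟨S, kap, hkap, hS, hPP⟩ := level_exists n N (N : ℝ) 1
  have hLam0 : 0 ≤ ∑ j ∈ range n, S.Lam j :=
    Finset.sum_nonneg fun j hj => hS.Lam_nonneg j (Finset.mem_range.mp hj)
  refine ⟨(∑ j ∈ range n, S.Lam j) + 1, kap, by linarith, hkap, ?_⟩
  intro s hs
  have hs0 : 0 < s := by linarith
  refine ⟨s * S.Qbar n, fun j z c => s * S.v j (z / s) (fun i => c i / s), ⟨?_, ?_⟩, ?_⟩
  · intro j hj z z' c c' hz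
    apply mul_le_mul_of_nonneg_left _ hs0.le
    apply hS.cone j hj
    rw [dist1_scale j c c' hs0]
    have hd0 := dist1_nonneg j c c'
    have h1 : S.Lam j ≤ (∑ j ∈ range n, S.Lam j) + 1 := by
      have : S.Lam j ≤ ∑ j ∈ range n, S.Lam j :=
        Finset.single_le_sum (f := S.Lam)
          (fun i hi => hS.Lam_nonneg i (Finset.mem_range.mp hi)) (Finset.mem_range.mpr hj)
      linarith
    have h2 : S.Lam j * dist1 j c c' ≤ ((∑ j ∈ range n, S.Lam j) + 1) * dist1 j c c' :=
      mul_le_mul_of_nonneg_right h1 hd0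
    have e : z / s + S.Lam j * (dist1 j c c' / s) = (z + S.Lam j * dist1 j c c') / s := by
      field_simp
    rw [e]
    exact div_le_div_of_nonneg_right (by linarith) hs0.le
  · intro j hj z c
    have h1 := hS.bound j hj (z / s) (fun i => c i / s)
    have e : s * S.v j (z / s) (fun i => c i / s) - z =
        s * (S.v j (z / s) (fun i => c i / s) - z / s) := by
      field_simp
    rw [e, abs_mul, abs_of_pos hs0]
    apply mul_le_mul_of_nonneg_left _ hs0.le
    refine h1.trans ?_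
    exact Finset.single_le_sum (f := S.Q)
      (fun i hi => hS.Q_nonneg i (Finset.mem_range.mp hi)) (Finset.mem_range.mpr hj)
  · intro Ep Em hN c t ht0 ht1 hlt
    obtain ⟨cs, hcs⟩ : ∃ cs : ℕ → ℝ, cs = fun i => c i / s := ⟨_, rfl⟩
    obtain ⟨ts, hts⟩ : ∃ ts : ℝ, ts = t / s := ⟨_, rfl⟩
    have hts0 : 0 ≤ ts := by rw [hts]; positivity
    have hts1 : ts ≤ 1 := by
      rw [hts, div_le_one hs0]
      linarith
    obtain ⟨E, hE⟩ : ∃ E : ℕ → ℤ, E = fun j => (Ep j : ℤ) - (Em j : ℤ) := ⟨_, rfl⟩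
    have hEN : ∑ j ∈ range n, |E j| ≤ (N : ℤ) := by
      have h1 : ∑ j ∈ range n, |E j| ≤ ∑ j ∈ range n, ((Ep j : ℤ) + (Em j : ℤ)) := by
        apply Finset.sum_le_sum
        intro j _
        rw [hE]
        have := abs_sub ((Ep j : ℤ)) ((Em j : ℤ))
        simpa using this
      have h2 : ∑ j ∈ range n, ((Ep j : ℤ) + (Em j : ℤ)) ≤ (N : ℤ) := by
        exact_mod_cast hN
      linarith
    have hEc : ∑ j ∈ range n, (E j : ℝ) * cs j =
        (∑ j ∈ range n, ((Ep j : ℝ) - (Em j : ℝ)) * c j) / s := by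
      rw [Finset.sum_div]
      apply Finset.sum_congr rfl
      intro j _
      rw [hE, hcs]
      push_cast
      ring
    have hlt2 : kap * ts < ∑ j ∈ range n, (E j : ℝ) * cs j := by
      rw [hEc, hts, ← mul_div_assoc]
      exact div_lt_div_of_pos_right hlt hs0
    have hmain := hPP E hEN cs ts hts0 hlt2
    have hOsc := Osc_nonneg hS cs hts0
    -- compare
    have hterm : ∀ j ∈ range n, (E j : ℝ) * S.V j cs - ((Ep j : ℝ) + (Em j : ℝ)) *
        (S.Hp j cs ts - S.Hm j cs ts) ≤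
        (Ep j : ℝ) * S.v j (cs j - ts) cs - (Em j : ℝ) * S.v j (cs j + ts) cs := by
      intro j hj
      have hj' := Finset.mem_range.mp hj
      have a1 := Hm_le_v_sub hS hj' cs hts0 hts1
      have a2 := v_add_le_Hp hS hj' cs hts0 hts1
      have a3 := V_le_Hp hS hj' cs hts0
      have a4 := Hm_le_V hS hj' cs hts0
      have hp0 : (0 : ℝ) ≤ (Ep j : ℝ) := by positivity
      have hm0 : (0 : ℝ) ≤ (Em j : ℝ) := by positivity
      have b1 : (Ep j : ℝ) * (S.V j cs - (S.Hp j cs ts - S.Hm j cs ts)) ≤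
          (Ep j : ℝ) * S.v j (cs j - ts) cs := by
        apply mul_le_mul_of_nonneg_left _ hp0
        linarith
      have b2 : (Em j : ℝ) * S.v j (cs j + ts) cs ≤
          (Em j : ℝ) * (S.V j cs + (S.Hp j cs ts - S.Hm j cs ts)) := by
        apply mul_le_mul_of_nonneg_left _ hm0
        linarith
      have b3 : (E j : ℝ) = (Ep j : ℝ) - (Em j : ℝ) := by
        rw [hE]
        push_cast
        ring
      rw [b3]
      linarith
    have hsum := Finset.sum_le_sum hterm
    rw [Finset.sum_sub_distrib] at hsum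
    have hNOsc : ∑ j ∈ range n, ((Ep j : ℝ) + (Em j : ℝ)) * (S.Hp j cs ts - S.Hm j cs ts) ≤
        (N : ℝ) * S.Osc n cs ts := by
      unfold Osc
      rw [Finset.mul_sum]
      apply Finset.sum_le_sum
      intro j hj
      have hj' := Finset.mem_range.mp hj
      apply mul_le_mul_of_nonneg_right _ (sub_nonneg.mpr (Hm_le_Hp hS hj' cs hts0))
      have h1 : Ep j + Em j ≤ N :=
        (Finset.single_le_sum (f := fun j => Ep j + Em j) (fun _ _ => Nat.zero_le _) hj).trans hN
      exact_mod_cast h1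
    have hfinal : 1 ≤ ∑ j ∈ range n,
        ((Ep j : ℝ) * S.v j (cs j - ts) cs - (Em j : ℝ) * S.v j (cs j + ts) cs) := by
      linarith
    have e : ∑ j ∈ range n, ((Ep j : ℝ) * (s * S.v j ((c j - t) / s) (fun i => c i / s)) -
        (Em j : ℝ) * (s * S.v j ((c j + t) / s) (fun i => c i / s))) =
        s * ∑ j ∈ range n,
        ((Ep j : ℝ) * S.v j (cs j - ts) cs - (Em j : ℝ) * S.v j (cs j + ts) cs) := by
      rw [Finset.mul_sum]
      apply Finset.sum_congr rfl
      intro j _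
      have e1 : (c j - t) / s = cs j - ts := by rw [hcs, hts]; ring
      have e2 : (c j + t) / s = cs j + ts := by rw [hcs, hts]; ring
      rw [e1, e2, ← hcs]
      ring
    show s ≤ ∑ j ∈ range n, ((Ep j : ℝ) * (s * S.v j ((c j - t) / s) (fun i => c i / s)) -
        (Em j : ℝ) * (s * S.v j ((c j + t) / s) (fun i => c i / s)))
    rw [e]
    nlinarith

end Crest.Agent.Lib.MAK
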